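import Mathlib

/-!
# Finitistic dimension: all simple modules but one of finite injective dimension

Let `A` be a finite-dimensional algebra over a field and `c : ℕ`.  If at most one isomorphism
class of simple left `A`-modules has injective dimension greater than `c`, then every finitely
generated left `A`-module of finite projective dimension has projective dimension at most
`c + 1`; that is, the little finitistic dimension of `A` is at most `c + 1`.
-/

open CategoryTheory Abelian

namespace Vale.Agent.Lib.P176.AllButOne

universe u

section general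

variable {A : Type u} [Ring A]

/-- In the top degree, `Ext M - d` is right exact: classes lift along epimorphisms. -/
lemma exists_lift_of_epi {M N S : ModuleCat.{u} A} {d : ℕ}
    (hM : HasProjectiveDimensionLT M (d + 1))
    (f : N ⟶ S) [Epi f] (x : Ext M S d) :
    ∃ y : Ext M N d, y.comp (Ext.mk₀ f) (add_zero d) = x := by
  have hS : (ShortComplex.mk (Limits.kernel.ι f) f (Limits.kernel.condition f)).ShortExact :=
    { exact := ShortComplex.exact_kernel f }
  exact Ext.covariant_sequence_exact₃ M hS x rfl
    (Ext.eq_zero_of_hasProjectiveDimensionLT _ (d + 1) le_rfl)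


/-- Over a left Noetherian ring, a finitely generated module `M` has projective dimension
at most `n` as soon as `Ext M X (n + 1)` vanishes for all finitely generated `X`. -/
lemma hasProjectiveDimensionLT_of_finite [IsNoetherianRing A] (n : ℕ) :
    ∀ (M : ModuleCat.{u} A), Module.Finite A M →
      (∀ (X : Type u) [AddCommGroup X] [Module A X], Module.Finite A X →
        ∀ x : Ext M (ModuleCat.of A X) (n + 1), x = 0) →
      HasProjectiveDimensionLT M (n + 1) := by
  induction n with
  | zero =>
    intro M hfin hvan
    obtain ⟨m, f, hf⟩ := Module.Finite.exists_fin' A M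
    have hSE := LinearMap.shortExact_shortComplexKer hf
    have hK : Module.Finite A (LinearMap.ker f) := inferInstance
    obtain ⟨s, hs⟩ := Ext.covariant_sequence_exact₃ M hSE (Ext.mk₀ (𝟙 M)) (rfl : 0 + 1 = 1)
      (hvan _ hK _)
    obtain ⟨φ, rfl⟩ := (Ext.mk₀_bijective _ _).2 s
    rw [Ext.mk₀_comp_mk₀] at hs
    have hφ : φ ≫ (LinearMap.shortComplexKer f).g = 𝟙 M := (Ext.mk₀_bijective _ _).1 hs
    have hproj : Projective (LinearMap.shortComplexKer f).X₂ :=
      ModuleCat.projective_of_free (Pi.basisFun A (Fin m))
    have hr : Retract M (LinearMap.shortComplexKer f).X₂ := ⟨φ, _, hφ⟩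
    exact hr.hasProjectiveDimensionLT 1
  | succ n ih =>
    intro M hfin hvan
    obtain ⟨m, f, hf⟩ := Module.Finite.exists_fin' A M
    have hSE := LinearMap.shortExact_shortComplexKer hf
    have hK : Module.Finite A (LinearMap.ker f) := inferInstance
    have hproj : Projective (LinearMap.shortComplexKer f).X₂ :=
      ModuleCat.projective_of_free (Pi.basisFun A (Fin m))
    have h1 : HasProjectiveDimensionLT (LinearMap.shortComplexKer f).X₁ (n + 1) := by
      apply ih _ hK
      intro X _ _ hX x
      obtain ⟨x₂, hx₂⟩ := Ext.contravariant_sequence_exact₁ hSE _ x (by omega : 1 + (n + 1) = n + 1 + 1)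
        (hvan X hX _)
      rw [← hx₂, Ext.eq_zero_of_projective x₂, Ext.comp_zero]
    exact hSE.hasProjectiveDimensionLT_X₃ (n + 1) h1 inferInstance


/-- If `Ext M - m` vanishes on simple modules, it vanishes on modules of finite length. -/
lemma ext_eq_zero_of_isFiniteLength {M : ModuleCat.{u} A} {m : ℕ}
    (hsimple : ∀ (T : Type u) [AddCommGroup T] [Module A T], IsSimpleModule A T →
      ∀ x : Ext M (ModuleCat.of A T) m, x = 0)
    (X : Type u) [AddCommGroup X] [Module A X] (hX : IsFiniteLength A X)
    (x : Ext M (ModuleCat.of A X) m) : x = 0 := by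
  induction hX with
  | @of_subsingleton X _ _ hsub =>
    have hz : Limits.IsZero (ModuleCat.of A X) := ModuleCat.isZero_of_subsingleton _
    rw [← x.comp_mk₀_id, hz.eq_zero_of_tgt (𝟙 _), Ext.mk₀_zero, Ext.comp_zero]
  | @of_simple_quotient X _ _ Y hsimp hY ih =>
    have hSE : (ModuleCat.shortComplexOfCompEqZero Y.subtype Y.mkQ
        (LinearMap.exact_subtype_mkQ Y).linearMap_comp_eq_zero).ShortExact :=
      ModuleCat.shortComplex_shortExact _ (LinearMap.exact_subtype_mkQ Y)
        Y.injective_subtype (Submodule.mkQ_surjective Y)
    obtain ⟨y, hy⟩ := Ext.covariant_sequence_exact₂ M hSE x (hsimple (X ⧸ Y) hsimp _)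
    rw [← hy, ih y, Ext.zero_comp]

/-- The key induction.  Let `S₀` be a simple module and suppose `Ext M T m = 0` for every simple
module `T` not isomorphic to `S₀`, where `m + 1` is the top degree for `M`.  If `S₀` embeds into
a module `N` of finite length with `Ext M N (m + 1) = 0`, then `Ext M S₀ (m + 1) = 0`. -/
lemma ext_simple_eq_zero (S₀ : Type u) [AddCommGroup S₀] [Module A S₀] [IsSimpleModule A S₀]
    {M : ModuleCat.{u} A} {m : ℕ} (hM : HasProjectiveDimensionLT M (m + 1 + 1))
    (hgood : ∀ (T : Type u) [AddCommGroup T] [Module A T], IsSimpleModule A T →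
      IsEmpty (T ≃ₗ[A] S₀) → ∀ x : Ext M (ModuleCat.of A T) m, x = 0)
    (N : Type u) [AddCommGroup N] [Module A N] (hN : IsFiniteLength A N)
    (j : S₀ →ₗ[A] N) (hj : Function.Injective j)
    (hvan : ∀ y : Ext M (ModuleCat.of A N) (m + 1), y = 0) :
    ∀ x : Ext M (ModuleCat.of A S₀) (m + 1), x = 0 := by
  induction hN with
  | @of_subsingleton N _ _ hsub =>
    exfalso
    have h1 : Subsingleton S₀ := hj.subsingleton
    have h2 : Nontrivial S₀ := IsSimpleModule.nontrivial A S₀
    exact not_subsingleton S₀ h1
  | @of_simple_quotient N _ _ N' hsimp hN' ih =>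
    intro x
    have hSE : (ModuleCat.shortComplexOfCompEqZero N'.subtype N'.mkQ
        (LinearMap.exact_subtype_mkQ N').linearMap_comp_eq_zero).ShortExact :=
      ModuleCat.shortComplex_shortExact _ (LinearMap.exact_subtype_mkQ N')
        N'.injective_subtype (Submodule.mkQ_surjective N')
    by_cases hT : Nonempty ((N ⧸ N') ≃ₗ[A] S₀)
    · obtain ⟨e⟩ := hT
      have hepi : Epi (ModuleCat.ofHom N'.mkQ) :=
        (ModuleCat.epi_iff_surjective _).mpr (Submodule.mkQ_surjective N')
      obtain ⟨y, hy⟩ := exists_lift_of_epi hM (ModuleCat.ofHom N'.mkQ)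
        (x.comp (Ext.mk₀ (ModuleCat.ofHom e.symm.toLinearMap)) (add_zero (m + 1)))
      rw [hvan y, Ext.zero_comp] at hy
      have hcomp : ModuleCat.ofHom e.symm.toLinearMap ≫ ModuleCat.ofHom e.toLinearMap =
          𝟙 (ModuleCat.of A S₀) := by
        ext s
        simp
      calc x = x.comp (Ext.mk₀ (𝟙 (ModuleCat.of A S₀))) (add_zero (m + 1)) := (x.comp_mk₀_id).symm
        _ = (x.comp (Ext.mk₀ (ModuleCat.ofHom e.symm.toLinearMap)) (add_zero (m + 1))).comp
              (Ext.mk₀ (ModuleCat.ofHom e.toLinearMap)) (add_zero (m + 1)) := by
            rw [Ext.comp_assoc_of_third_deg_zero, Ext.mk₀_comp_mk₀, hcomp]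
        _ = 0 := by rw [← hy, Ext.zero_comp]
    · have hT' : IsEmpty ((N ⧸ N') ≃ₗ[A] S₀) := not_nonempty_iff.mp hT
      have hzero : N'.mkQ.comp j = 0 := by
        rcases LinearMap.bijective_or_eq_zero (N'.mkQ.comp j) with hbij | h0
        · exact absurd ⟨(LinearEquiv.ofBijective _ hbij).symm⟩ hT
        · exact h0
      have hmem : ∀ s, j s ∈ N' := fun s => by
        have := LinearMap.congr_fun hzero s
        simpa using this
      have hj' : Function.Injective (j.codRestrict N' hmem) := fun a b hab => by
        apply hj
        have := congrArg Subtype.val hab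
        simpa using this
      apply ih (j.codRestrict N' hmem) hj'
      intro y'
      obtain ⟨x₃, hx₃⟩ := Ext.covariant_sequence_exact₁ M hSE y' (hvan _) (rfl : m + 1 = m + 1)
      rw [← hx₃, hgood (N ⧸ N') hsimp hT' x₃, Ext.zero_comp]

end general

lemma injective_of_field (k : Type u) [Field k] (V : ModuleCat.{u} k) : Injective V := by
  have h1 : Module.Injective k V := Module.injective_of_isSemisimpleRing k V
  exact (Module.injective_iff_injective_object k V).mp h1

lemma finite_compHom (k : Type u) [Field k] (A : Type u) [Ring A] [Algebra k A]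
    [Module.Finite k A] (S : Type u) [AddCommGroup S] [Module A S] [Module.Finite A S] :
    @Module.Finite k S _ _ (Module.compHom S (algebraMap k A)) := by
  let _ : Module k S := Module.compHom S (algebraMap k A)
  have : IsScalarTower k A S := ⟨fun c a s => by
    rw [Algebra.smul_def, mul_smul]
    rfl⟩
  exact Module.Finite.trans A S

lemma finite_restrictScalars (k : Type u) [Field k] (A : Type u) [Ring A] [Algebra k A]
    [Module.Finite k A] (S : ModuleCat.{u} A) [Module.Finite A S] :
    Module.Finite k ((ModuleCat.restrictScalars (algebraMap k A)).obj S) :=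
  finite_compHom k A S

lemma finite_of_compat (k : Type u) [Field k] (A : Type u) [Ring A] [Algebra k A]
    (H : Type u) [AddCommGroup H] [Module k H] [Module A H]
    (hcompat : ∀ (c : k) (x : H), c • x = (algebraMap k A c) • x) [Module.Finite k H] :
    Module.Finite A H := by
  obtain ⟨X, hX⟩ := (inferInstance : Module.Finite k H).fg_top
  refine ⟨⟨X, ?_⟩⟩
  rw [eq_top_iff]
  have key : ∀ g : H, g ∈ Submodule.span k (X : Set H) → g ∈ Submodule.span A (X : Set H) := by
    intro g hg
    induction hg using Submodule.span_induction with
    | mem x hx => exact Submodule.subset_span hx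
    | zero => exact Submodule.zero_mem _
    | add x y _ _ hx hy => exact Submodule.add_mem _ hx hy
    | smul c x _ hx =>
      rw [hcompat c x]
      exact Submodule.smul_mem _ _ hx
  intro g _
  exact key g (by rw [hX]; trivial)

/-- Over a finite-dimensional algebra, every finitely generated module embeds into an injective
module which is again finitely generated. -/
lemma exists_finite_injective (k : Type u) [Field k] (A : Type u) [Ring A] [Algebra k A]
    [Module.Finite k A] (S : ModuleCat.{u} A) [Module.Finite A S] :
    ∃ (I : ModuleCat.{u} A) (j : S ⟶ I), Injective I ∧ Function.Injective j.hom ∧ Module.Finite A I := by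
  let f : k →+* A := algebraMap k A
  let V : ModuleCat.{u} k := (ModuleCat.restrictScalars f).obj S
  have hV : Injective V := injective_of_field k V
  let I : ModuleCat.{u} A := (ModuleCat.coextendScalars f).obj V
  have hI : Injective I := Injective.injective_of_adjoint (ModuleCat.restrictCoextendScalarsAdj f) V
  refine ⟨I, (ModuleCat.restrictCoextendScalarsAdj f).unit.app S, hI, ?_, ?_⟩
  · intro y₁ y₂ h
    have h' := congrArg (fun g => (ModuleCat.CoextendScalars.equiv f V g) (1 : A)) h
    have h'' : (1 : A) • y₁ = (1 : A) • y₂ := h'
    simpa using h''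
  · have h1 := finite_restrictScalars k A S
    have h2 := finite_restrictScalars k A (ModuleCat.of A A)
    have h3 : Module.Finite k ((ModuleCat.restrictScalars f).obj (ModuleCat.of A A) →ₗ[k] V) :=
      inferInstance
    refine finite_of_compat k A ((ModuleCat.restrictScalars f).obj (ModuleCat.of A A) →ₗ[k] V) ?_
    intro c x
    apply LinearMap.ext
    intro s
    have e : ((show A from s) * f c : A) =
        (show A from (c • s : (ModuleCat.restrictScalars f).obj (ModuleCat.of A A))) := by
      rw [ModuleCat.restrictScalars.smul_def]
      exact (Algebra.commutes c (show A from s)).symm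
    have e2 : ((algebraMap k A) c • x) s = x ((show A from s) * f c : A) := rfl
    rw [e2, e]
    exact (LinearMap.smul_apply c x s).trans (x.map_smul c s).symm


/-- **Main result.**  Let `A` be a finite-dimensional algebra over a field `k` and `c : ℕ`.
Suppose any two simple left `A`-modules of injective dimension greater than `c` are isomorphic
(so at most one isomorphism class of simple modules has injective dimension greater than `c`).
Then every finitely generated left `A`-module of finite projective dimension has projective
dimension at most `c + 1`, i.e. the little finitistic dimension of `A` is at most `c + 1`. -/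
theorem findim_le_of_all_but_one (k : Type u) [Field k] (A : Type u) [Ring A] [Algebra k A] [Module.Finite k A]
    (c : ℕ)
    (h : ∀ S S' : ModuleCat.{u} A, IsSimpleModule A S → IsSimpleModule A S' →
      ¬ HasInjectiveDimensionLE S c → ¬ HasInjectiveDimensionLE S' c → Nonempty (S ≅ S'))
    (M : ModuleCat.{u} A) (hfin : Module.Finite A M) (n : ℕ)
    (hM : HasProjectiveDimensionLE M n) : HasProjectiveDimensionLE M (c + 1) := by
  have hart : IsArtinianRing A := IsArtinianRing.of_finite k A
  have key : ∀ m : ℕ, c + 2 ≤ m → HasProjectiveDimensionLT M (m + 1) →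
      HasProjectiveDimensionLT M m := by
    intro m hm hMm
    obtain ⟨m', rfl⟩ : ∃ m', m = m' + 1 := ⟨m - 1, by omega⟩
    apply hasProjectiveDimensionLT_of_finite m' M hfin
    intro X _ _ hX
    have hfl : IsFiniteLength A X := isFiniteLength_iff_isNoetherian_isArtinian.mpr
      ⟨inferInstance, inferInstance⟩
    apply ext_eq_zero_of_isFiniteLength _ X hfl
    intro T _ _ hTsimple x
    by_cases hTc : HasInjectiveDimensionLE (ModuleCat.of A T) c
    · exact Ext.eq_zero_of_hasInjectiveDimensionLT x (c + 1) (by omega)
    · have hTfin : Module.Finite A (ModuleCat.of A T) := by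
        change Module.Finite A T
        infer_instance
      obtain ⟨I, j, hIinj, hjinj, hIfin⟩ := exists_finite_injective k A (ModuleCat.of A T)
      have hIfl : IsFiniteLength A I := isFiniteLength_iff_isNoetherian_isArtinian.mpr
        ⟨inferInstance, inferInstance⟩
      refine ext_simple_eq_zero T hMm ?_ I hIfl j.hom hjinj ?_ x
      · intro T' _ _ hT'simple hT'empty y
        have hT'c : HasInjectiveDimensionLE (ModuleCat.of A T') c := by
          by_contra hcon
          obtain ⟨e⟩ := h (ModuleCat.of A T') (ModuleCat.of A T) hT'simple hTsimple hcon hTc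
          exact hT'empty.false e.toLinearEquiv
        exact Ext.eq_zero_of_hasInjectiveDimensionLT y (c + 1) (by omega)
      · intro y
        exact Ext.eq_zero_of_injective y
  have down : ∀ i : ℕ, HasProjectiveDimensionLT M (c + 2 + i) →
      HasProjectiveDimensionLT M (c + 2) := by
    intro i
    induction i with
    | zero => exact fun hi => hi
    | succ i ih => exact fun hi => ih (key (c + 2 + i) (by omega) hi)
  by_cases hn : n ≤ c + 1
  · exact hasProjectiveDimensionLT_of_ge M (n + 1) (c + 1 + 1) (by omega)
  · have hM' : HasProjectiveDimensionLT M (c + 2 + (n - (c + 1))) := by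
      have : c + 2 + (n - (c + 1)) = n + 1 := by omega
      rw [this]
      exact hM
    exact down (n - (c + 1)) hM'

end Vale.Agent.Lib.P176.AllButOne
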