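import Mathlib

/-!
An auxiliary algebra attached to a finite-dimensional algebra `A` over a field `k`.

Its elements are quadruples `(c, d, a, n)` with `c, d` in `k`, `a` in `A` and `n` in `A / I`,
where `I` is the radical of `A` (defined through the opposite ring).  The product is
`(c, d, a, n) * (c', d', a', n') = (c c', c d' + d c', a a', a n' + c' n)`.
In other words it is the triangular algebra with the dual numbers `k[ε]` and `A` on the
diagonal and the bimodule `A / I` (on which `ε` acts as zero) in the corner.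
-/

universe u

namespace Vale.Agent.Lib.P176

open MulOpposite

/-- The two-sided ideal of `A` corresponding to the radical of the opposite ring. -/
def opRad (A : Type u) [Ring A] : Ideal A where
  carrier := {a | op a ∈ Ring.jacobson Aᵐᵒᵖ}
  add_mem' := by
    intro a b ha hb
    change op (a + b) ∈ Ring.jacobson Aᵐᵒᵖ
    rw [op_add]
    exact add_mem ha hb
  zero_mem' := by
    change op (0 : A) ∈ Ring.jacobson Aᵐᵒᵖ
    rw [op_zero]
    exact zero_mem _
  smul_mem' := by
    intro c a ha
    change op (c * a) ∈ Ring.jacobson Aᵐᵒᵖ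
    rw [op_mul]
    exact Ideal.mul_mem_right _ _ ha

theorem mem_opRad {A : Type u} [Ring A] {a : A} :
    a ∈ opRad A ↔ op a ∈ Ring.jacobson Aᵐᵒᵖ := Iff.rfl

theorem opRad_mul_mem {A : Type u} [Ring A] {a : A} (ha : a ∈ opRad A) (b : A) :
    a * b ∈ opRad A := by
  change op (a * b) ∈ Ring.jacobson Aᵐᵒᵖ
  rw [op_mul]
  exact Ideal.mul_mem_left _ _ ha

/-- The auxiliary algebra of quadruples. -/
@[ext]
structure Cum (k A : Type u) [Field k] [Ring A] [Algebra k A] where
  /-- scalar component -/
  c : k
  /-- nilpotent scalar component -/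
  d : k
  /-- component in the algebra -/
  a : A
  /-- component in the bimodule -/
  n : A ⧸ opRad A

namespace Cum

variable {k A : Type u} [Field k] [Ring A] [Algebra k A]

instance : Zero (Cum k A) := ⟨⟨0, 0, 0, 0⟩⟩
instance : One (Cum k A) := ⟨⟨1, 0, 1, 0⟩⟩
instance : Add (Cum k A) := ⟨fun x y => ⟨x.c + y.c, x.d + y.d, x.a + y.a, x.n + y.n⟩⟩
instance : Neg (Cum k A) := ⟨fun x => ⟨-x.c, -x.d, -x.a, -x.n⟩⟩
instance : Mul (Cum k A) :=
  ⟨fun x y => ⟨x.c * y.c, x.c * y.d + x.d * y.c, x.a * y.a, x.a • y.n + y.c • x.n⟩⟩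
instance : SMul k (Cum k A) := ⟨fun t x => ⟨t * x.c, t * x.d, t • x.a, t • x.n⟩⟩

@[simp] theorem zero_c : (0 : Cum k A).c = 0 := rfl
@[simp] theorem zero_d : (0 : Cum k A).d = 0 := rfl
@[simp] theorem zero_a : (0 : Cum k A).a = 0 := rfl
@[simp] theorem zero_n : (0 : Cum k A).n = 0 := rfl
@[simp] theorem one_c : (1 : Cum k A).c = 1 := rfl
@[simp] theorem one_d : (1 : Cum k A).d = 0 := rfl
@[simp] theorem one_a : (1 : Cum k A).a = 1 := rfl
@[simp] theorem one_n : (1 : Cum k A).n = 0 := rfl
@[simp] theorem add_c (x y : Cum k A) : (x + y).c = x.c + y.c := rfl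
@[simp] theorem add_d (x y : Cum k A) : (x + y).d = x.d + y.d := rfl
@[simp] theorem add_a (x y : Cum k A) : (x + y).a = x.a + y.a := rfl
@[simp] theorem add_n (x y : Cum k A) : (x + y).n = x.n + y.n := rfl
@[simp] theorem neg_c (x : Cum k A) : (-x).c = -x.c := rfl
@[simp] theorem neg_d (x : Cum k A) : (-x).d = -x.d := rfl
@[simp] theorem neg_a (x : Cum k A) : (-x).a = -x.a := rfl
@[simp] theorem neg_n (x : Cum k A) : (-x).n = -x.n := rfl
@[simp] theorem mul_c (x y : Cum k A) : (x * y).c = x.c * y.c := rfl
@[simp] theorem mul_d (x y : Cum k A) : (x * y).d = x.c * y.d + x.d * y.c := rfl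
@[simp] theorem mul_a (x y : Cum k A) : (x * y).a = x.a * y.a := rfl
@[simp] theorem mul_n (x y : Cum k A) : (x * y).n = x.a • y.n + y.c • x.n := rfl
@[simp] theorem smul_c (t : k) (x : Cum k A) : (t • x).c = t * x.c := rfl
@[simp] theorem smul_d (t : k) (x : Cum k A) : (t • x).d = t * x.d := rfl
@[simp] theorem smul_a (t : k) (x : Cum k A) : (t • x).a = t • x.a := rfl
@[simp] theorem smul_n (t : k) (x : Cum k A) : (t • x).n = t • x.n := rfl

instance : Ring (Cum k A) where
  add_assoc x y z := by ext <;> simp [add_assoc]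
  zero_add x := by ext <;> simp
  add_zero x := by ext <;> simp
  add_comm x y := by ext <;> simp [add_comm]
  neg_add_cancel x := by ext <;> simp
  nsmul := nsmulRec
  zsmul := zsmulRec
  mul_assoc x y z := by
    ext
    · simp [mul_assoc]
    · simp only [mul_d, mul_c]
      ring
    · simp [mul_assoc]
    · simp only [mul_n, mul_a, mul_c, smul_add, mul_smul]
      rw [smul_comm x.a z.c y.n, smul_comm y.c z.c x.n]
      abel
  one_mul x := by ext <;> simp
  mul_one x := by ext <;> simp
  left_distrib x y z := by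
    ext
    · simp [mul_add]
    · simp only [mul_d, add_d, add_c]
      ring
    · simp [mul_add]
    · simp only [mul_n, add_n, add_c, smul_add, add_smul]
      abel
  right_distrib x y z := by
    ext
    · simp [add_mul]
    · simp only [mul_d, add_d, add_c]
      ring
    · simp [add_mul]
    · simp only [mul_n, add_n, add_a, smul_add, add_smul]
      abel
  zero_mul x := by ext <;> simp
  mul_zero x := by ext <;> simp

@[simp] theorem sub_c (x y : Cum k A) : (x - y).c = x.c - y.c := by
  rw [sub_eq_add_neg, add_c, neg_c, ← sub_eq_add_neg]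
@[simp] theorem sub_d (x y : Cum k A) : (x - y).d = x.d - y.d := by
  rw [sub_eq_add_neg, add_d, neg_d, ← sub_eq_add_neg]
@[simp] theorem sub_a (x y : Cum k A) : (x - y).a = x.a - y.a := by
  rw [sub_eq_add_neg, add_a, neg_a, ← sub_eq_add_neg]
@[simp] theorem sub_n (x y : Cum k A) : (x - y).n = x.n - y.n := by
  rw [sub_eq_add_neg, add_n, neg_n, ← sub_eq_add_neg]

instance : Algebra k (Cum k A) where
  algebraMap :=
    { toFun := fun t => ⟨t, 0, algebraMap k A t, 0⟩
      map_one' := by ext <;> simp
      map_mul' := fun s t => by ext <;> simp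
      map_zero' := by ext <;> simp
      map_add' := fun s t => by ext <;> simp }
  commutes' := fun t x => by
    ext
    · simp [mul_comm]
    · simp [mul_comm]
    · simp [Algebra.commutes]
    · simp
  smul_def' := fun t x => by
    ext
    · simp
    · simp
    · simp [Algebra.smul_def]
    · simp

/-- The linear bijection with the product of the four components. -/
def equivProd (k A : Type u) [Field k] [Ring A] [Algebra k A] :
    Cum k A ≃ₗ[k] (k × k × A × (A ⧸ opRad A)) where
  toFun x := (x.c, x.d, x.a, x.n)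
  invFun p := ⟨p.1, p.2.1, p.2.2.1, p.2.2.2⟩
  map_add' _ _ := rfl
  map_smul' _ _ := rfl
  left_inv _ := rfl
  right_inv _ := rfl

instance [Module.Finite k A] : Module.Finite k (Cum k A) :=
  Module.Finite.equiv (equivProd k A).symm

/-- The projection onto the algebra component. -/
def proj (k A : Type u) [Field k] [Ring A] [Algebra k A] : Cum k A →+* A where
  toFun x := x.a
  map_one' := rfl
  map_mul' _ _ := rfl
  map_zero' := rfl
  map_add' _ _ := rfl

@[simp] theorem proj_apply (x : Cum k A) : proj k A x = x.a := rfl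

theorem proj_surjective : Function.Surjective (proj k A) := fun a => ⟨⟨0, 0, a, 0⟩, rfl⟩

end Cum

end Vale.Agent.Lib.P176
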