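import Mathlib

/-!
Basic vocabulary for the Igusa-Todorov argument: projective dimension of unbundled modules,
pull-back of `Ext` classes along linear maps, short exact sequences of linear maps, retracts
and stable isomorphism.
-/

universe u

namespace Vale.Agent.Lib.P176

open CategoryTheory Abelian

variable {R : Type u} [Ring R]

/-- `X` has projective dimension `< n`. -/
abbrev PdLT (R : Type u) [Ring R] (X : Type u) [AddCommGroup X] [Module R X] (n : ℕ) : Prop :=
  HasProjectiveDimensionLT (ModuleCat.of R X) n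

section Pull

variable {A B C : Type u} [AddCommGroup A] [Module R A] [AddCommGroup B] [Module R B]
  [AddCommGroup C] [Module R C] {N : ModuleCat.{u} R} {i : ℕ}

/-- Pull back an `Ext` class along a linear map in the first variable. -/
noncomputable def pull (φ : A →ₗ[R] B) (x : Ext (ModuleCat.of R B) N i) :
    Ext (ModuleCat.of R A) N i :=
  (Ext.mk₀ (ModuleCat.ofHom φ)).comp x (zero_add i)

theorem pull_comp (φ : B →ₗ[R] C) (ψ : A →ₗ[R] B) (x : Ext (ModuleCat.of R C) N i) :
    pull (φ ∘ₗ ψ) x = pull ψ (pull φ x) := by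
  unfold pull
  rw [ModuleCat.ofHom_comp, Ext.mk₀_comp_mk₀_assoc]

theorem pull_id (x : Ext (ModuleCat.of R A) N i) : pull (LinearMap.id : A →ₗ[R] A) x = x := by
  unfold pull
  rw [ModuleCat.ofHom_id, Ext.mk₀_id_comp]

theorem pull_add (φ ψ : A →ₗ[R] B) (x : Ext (ModuleCat.of R B) N i) :
    pull (φ + ψ) x = pull φ x + pull ψ x := by
  unfold pull
  have h : ModuleCat.ofHom (φ + ψ) = ModuleCat.ofHom φ + ModuleCat.ofHom ψ := rfl
  rw [h, Ext.mk₀_add, Ext.add_comp]

theorem pull_zero_map (x : Ext (ModuleCat.of R B) N i) : pull (0 : A →ₗ[R] B) x = 0 := by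
  unfold pull
  have h : ModuleCat.ofHom (0 : A →ₗ[R] B) = 0 := rfl
  rw [h, Ext.mk₀_zero, Ext.zero_comp]

theorem pull_zero (φ : A →ₗ[R] B) : pull φ (0 : Ext (ModuleCat.of R B) N i) = 0 := by
  unfold pull
  rw [Ext.comp_zero]

theorem pull_sum {κ : Type} [Fintype κ] (φ : κ → (A →ₗ[R] B)) (x : Ext (ModuleCat.of R B) N i) :
    pull (∑ l, φ l) x = ∑ l, pull (φ l) x := by
  unfold pull
  have h : ModuleCat.ofHom (∑ l, φ l) = ∑ l, ModuleCat.ofHom (φ l) := by
    ext a
    simp
  rw [h, Ext.mk₀_sum, Ext.sum_comp]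

/-- A map factoring through a projective module acts as zero on `Ext` in positive degree. -/
theorem pull_through_projective {Q : Type u} [AddCommGroup Q] [Module R Q] [Module.Projective R Q]
    (φ : A →ₗ[R] Q) (ψ : Q →ₗ[R] B) (hi : 1 ≤ i) (x : Ext (ModuleCat.of R B) N i) :
    pull (ψ ∘ₗ φ) x = 0 := by
  rw [pull_comp]
  obtain ⟨j, rfl⟩ : ∃ j, i = j + 1 := ⟨i - 1, by omega⟩
  have hproj : Projective (ModuleCat.of R Q) := (IsProjective.iff_projective Q).mp inferInstance
  have h0 : pull ψ x = 0 := Ext.eq_zero_of_projective _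
  rw [h0, pull_zero]

theorem pdLT_iff {n : ℕ} :
    PdLT R A n ↔ ∀ (i : ℕ), n ≤ i → ∀ (N : ModuleCat.{u} R) (x : Ext (ModuleCat.of R A) N i),
      x = 0 := by
  unfold PdLT
  rw [hasProjectiveDimensionLT_iff]

theorem PdLT.mono {n m : ℕ} (h : PdLT R A n) (hnm : n ≤ m) : PdLT R A m :=
  hasProjectiveDimensionLT_of_ge _ n m hnm

theorem PdLT.of_equiv {n : ℕ} (e : A ≃ₗ[R] B) (h : PdLT R A n) : PdLT R B n :=
  hasProjectiveDimensionLT_of_iso e.toModuleIso n

theorem pdLT_one_iff : PdLT R A 1 ↔ Module.Projective R A := by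
  unfold PdLT
  rw [← projective_iff_hasProjectiveDimensionLT_one, ← IsProjective.iff_projective]

theorem pdLT_of_projective [Module.Projective R A] {n : ℕ} (hn : 1 ≤ n) : PdLT R A n :=
  (pdLT_one_iff.mpr inferInstance).mono hn

end Pull

section Retract

variable {A B C : Type u} [AddCommGroup A] [Module R A] [AddCommGroup B] [Module R B]
  [AddCommGroup C] [Module R C]

/-- `Z` is a retract (direct summand up to isomorphism) of `N`. -/
def Retr (R : Type u) [Ring R] (Z N : Type u) [AddCommGroup Z] [Module R Z] [AddCommGroup N]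
    [Module R N] : Prop :=
  ∃ (α : Z →ₗ[R] N) (β : N →ₗ[R] Z), β ∘ₗ α = LinearMap.id

theorem Retr.refl : Retr R A A := ⟨LinearMap.id, LinearMap.id, rfl⟩

theorem Retr.trans (h₁ : Retr R A B) (h₂ : Retr R B C) : Retr R A C := by
  obtain ⟨α₁, β₁, h₁⟩ := h₁
  obtain ⟨α₂, β₂, h₂⟩ := h₂
  refine ⟨α₂ ∘ₗ α₁, β₁ ∘ₗ β₂, ?_⟩
  ext a
  have e₂ := LinearMap.congr_fun h₂ (α₁ a)
  have e₁ := LinearMap.congr_fun h₁ a
  simp only [LinearMap.comp_apply, LinearMap.id_apply] at e₁ e₂ ⊢
  rw [e₂, e₁]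

theorem Retr.of_equiv (e : A ≃ₗ[R] B) : Retr R A B :=
  ⟨e.toLinearMap, e.symm.toLinearMap, by ext a; simp⟩

theorem Retr.fst : Retr R A (A × B) :=
  ⟨LinearMap.inl R A B, LinearMap.fst R A B, by ext a; simp⟩

theorem Retr.snd : Retr R B (A × B) :=
  ⟨LinearMap.inr R A B, LinearMap.snd R A B, by ext a; simp⟩

theorem Retr.pdLT {n : ℕ} (h : Retr R A B) (hB : PdLT R B n) : PdLT R A n := by
  obtain ⟨α, β, hαβ⟩ := h
  have hr : Retract (ModuleCat.of R A) (ModuleCat.of R B) :=
    ⟨ModuleCat.ofHom α, ModuleCat.ofHom β, by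
      rw [← ModuleCat.ofHom_comp, hαβ, ModuleCat.ofHom_id]⟩
  exact hr.hasProjectiveDimensionLT n

theorem Retr.finite (h : Retr R A B) [Module.Finite R B] : Module.Finite R A := by
  obtain ⟨α, β, hαβ⟩ := h
  refine Module.Finite.of_surjective β ?_
  intro a
  exact ⟨α a, LinearMap.congr_fun hαβ a⟩

/-- A finite product has projective dimension `< n` if all factors do. -/
theorem pdLT_pi {κ : Type} [Fintype κ] [DecidableEq κ] (X : κ → Type u)
    [∀ l, AddCommGroup (X l)] [∀ l, Module R (X l)] {n : ℕ} (h : ∀ l, PdLT R (X l) n) :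
    PdLT R (∀ l, X l) n := by
  rw [pdLT_iff]
  intro i hi N x
  have hid : (LinearMap.id : (∀ l, X l) →ₗ[R] (∀ l, X l)) =
      ∑ l, (LinearMap.single R X l) ∘ₗ (LinearMap.proj l) := by
    ext v l'
    simp [Finset.sum_apply]
  rw [← pull_id x, hid, pull_sum]
  apply Finset.sum_eq_zero
  intro l _
  rw [pull_comp]
  have h0 : pull (LinearMap.single R X l) x = 0 := (pdLT_iff.mp (h l)) i hi N _
  rw [h0, pull_zero]

theorem pdLT_prod {n : ℕ} (hA : PdLT R A n) (hB : PdLT R B n) : PdLT R (A × B) n := by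
  rw [pdLT_iff]
  intro i hi N x
  have hid : (LinearMap.id : (A × B) →ₗ[R] (A × B)) =
      (LinearMap.inl R A B) ∘ₗ (LinearMap.fst R A B) +
        (LinearMap.inr R A B) ∘ₗ (LinearMap.snd R A B) := by
    ext v <;> simp
  rw [← pull_id x, hid, pull_add, pull_comp, pull_comp]
  have h1 : pull (LinearMap.inl R A B) x = 0 := (pdLT_iff.mp hA) i hi N _
  have h2 : pull (LinearMap.inr R A B) x = 0 := (pdLT_iff.mp hB) i hi N _
  rw [h1, h2, pull_zero, pull_zero, add_zero]

end Retract

section Ses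

variable {A B C : Type u} [AddCommGroup A] [Module R A] [AddCommGroup B] [Module R B]
  [AddCommGroup C] [Module R C]

/-- A short exact sequence `0 → A → B → C → 0` of linear maps. -/
structure SES (R : Type u) [Ring R] (A B C : Type u) [AddCommGroup A] [Module R A]
    [AddCommGroup B] [Module R B] [AddCommGroup C] [Module R C] where
  /-- the injection -/
  f : A →ₗ[R] B
  /-- the surjection -/
  g : B →ₗ[R] C
  inj : Function.Injective f
  surj : Function.Surjective g
  exact : Function.Exact f g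

/-- The associated short complex of module objects. -/
abbrev SES.sc (S : SES R A B C) : ShortComplex (ModuleCat.{u} R) :=
  ModuleCat.shortComplexOfCompEqZero S.f S.g S.exact.linearMap_comp_eq_zero

theorem SES.shortExact (S : SES R A B C) : S.sc.ShortExact :=
  ModuleCat.shortComplex_shortExact _ S.exact S.inj S.surj

theorem SES.pdLT_mid (S : SES R A B C) {n : ℕ} (hA : PdLT R A n) (hC : PdLT R C n) :
    PdLT R B n :=
  S.shortExact.hasProjectiveDimensionLT_X₂ n hA hC

theorem SES.pdLT_right (S : SES R A B C) {n : ℕ} (hA : PdLT R A n) (hB : PdLT R B (n + 1)) :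
    PdLT R C (n + 1) :=
  S.shortExact.hasProjectiveDimensionLT_X₃ n hA hB

theorem SES.pdLT_left (S : SES R A B C) {n : ℕ} (hB : PdLT R B n) (hC : PdLT R C (n + 1)) :
    PdLT R A n :=
  S.shortExact.hasProjectiveDimensionLT_X₁ n hB hC

variable {N : ModuleCat.{u} R} {i : ℕ}

theorem SES.pull_f_injective (S : SES R A B C)
    (hC : ∀ x : Ext (ModuleCat.of R C) N i, x = 0) (y : Ext (ModuleCat.of R B) N i)
    (hy : pull S.f y = 0) : y = 0 := by
  obtain ⟨x₁, hx₁⟩ := Ext.contravariant_sequence_exact₂ S.shortExact N y hy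
  rw [← hx₁, hC x₁, Ext.comp_zero]

theorem SES.pull_f_surjective (S : SES R A B C)
    (hC : ∀ x : Ext (ModuleCat.of R C) N (i + 1), x = 0) (x : Ext (ModuleCat.of R A) N i) :
    ∃ y : Ext (ModuleCat.of R B) N i, pull S.f y = x := by
  exact Ext.contravariant_sequence_exact₁ S.shortExact N x (add_comm 1 i) (hC _)

theorem SES.ext_right_zero (S : SES R A B C)
    (hinj : ∀ y : Ext (ModuleCat.of R B) N (i + 1), pull S.f y = 0 → y = 0)
    (hsurj : ∀ x : Ext (ModuleCat.of R A) N i, ∃ y : Ext (ModuleCat.of R B) N i, pull S.f y = x)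
    (x₃ : Ext (ModuleCat.of R C) N (i + 1)) : x₃ = 0 := by
  have h1 : (Ext.mk₀ S.sc.g).comp x₃ (zero_add (i + 1)) = 0 := by
    apply hinj
    unfold pull
    have hz : ModuleCat.ofHom S.f ≫ S.sc.g = 0 := S.sc.zero
    rw [Ext.mk₀_comp_mk₀_assoc, hz, Ext.mk₀_zero, Ext.zero_comp]
  obtain ⟨x₁, hx₁⟩ := Ext.contravariant_sequence_exact₃ S.shortExact N x₃ h1 (add_comm 1 i)
  obtain ⟨y, hy⟩ := hsurj x₁
  rw [← hx₁, ← hy]
  unfold pull
  exact S.shortExact.extClass_comp_assoc y

/-- Transport a short exact sequence along isomorphisms of the outer terms. -/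
def SES.congr {A' C' : Type u} [AddCommGroup A'] [Module R A'] [AddCommGroup C'] [Module R C']
    (S : SES R A B C) (eA : A ≃ₗ[R] A') (eC : C ≃ₗ[R] C') : SES R A' B C' where
  f := S.f ∘ₗ eA.symm.toLinearMap
  g := eC.toLinearMap ∘ₗ S.g
  inj := S.inj.comp eA.symm.injective
  surj := eC.surjective.comp S.surj
  exact := by
    intro b
    constructor
    · intro hb
      have hb' : S.g b = 0 := by
        have : eC (S.g b) = 0 := hb
        simpa using this
      obtain ⟨a, rfl⟩ := (S.exact b).mp hb'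
      exact ⟨eA a, by simp⟩
    · rintro ⟨a', rfl⟩
      have : S.g (S.f (eA.symm a')) = 0 := (S.exact _).mpr ⟨_, rfl⟩
      simp [this]

/-- Transport a short exact sequence along an isomorphism of the middle term. -/
def SES.congrMid {B' : Type u} [AddCommGroup B'] [Module R B'] (S : SES R A B C)
    (eB : B ≃ₗ[R] B') : SES R A B' C where
  f := eB.toLinearMap ∘ₗ S.f
  g := S.g ∘ₗ eB.symm.toLinearMap
  inj := eB.injective.comp S.inj
  surj := S.surj.comp eB.symm.surjective
  exact := by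
    intro b
    constructor
    · intro hb
      have hb' : S.g (eB.symm b) = 0 := hb
      obtain ⟨a, ha⟩ := (S.exact _).mp hb'
      exact ⟨a, by simp [ha]⟩
    · rintro ⟨a, rfl⟩
      have : S.g (S.f a) = 0 := (S.exact _).mpr ⟨_, rfl⟩
      simp [this]

/-- The split sequence of a product. -/
def SES.ofProd (A B : Type u) [AddCommGroup A] [Module R A] [AddCommGroup B] [Module R B] :
    SES R A (A × B) B where
  f := LinearMap.inl R A B
  g := LinearMap.snd R A B
  inj := LinearMap.inl_injective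
  surj := LinearMap.snd_surjective
  exact := by
    intro p
    constructor
    · intro hp
      exact ⟨p.1, Prod.ext rfl (by simpa using hp.symm)⟩
    · rintro ⟨a, rfl⟩
      simp

/-- The sequence of a submodule and its quotient. -/
def SES.ofSub (X : Submodule R B) : SES R X B (B ⧸ X) where
  f := X.subtype
  g := X.mkQ
  inj := X.injective_subtype
  surj := X.mkQ_surjective
  exact := LinearMap.exact_subtype_mkQ X

/-- The sequence of a surjection and its kernel. -/
def SES.ofSurj (π : B →ₗ[R] C) (hπ : Function.Surjective π) : SES R (LinearMap.ker π) B C where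
  f := (LinearMap.ker π).subtype
  g := π
  inj := (LinearMap.ker π).injective_subtype
  surj := hπ
  exact := by
    intro b
    constructor
    · intro hb
      exact ⟨⟨b, hb⟩, rfl⟩
    · rintro ⟨a, rfl⟩
      exact a.2

/-- A short exact sequence ending in a projective module splits. -/
theorem SES.exists_equiv_prod (S : SES R A B C) [Module.Projective R C] :
    Nonempty (B ≃ₗ[R] (A × C)) := by
  obtain ⟨s, hs⟩ := Module.projective_lifting_property S.g LinearMap.id S.surj
  have hs' : ∀ c, S.g (s c) = c := fun c => LinearMap.congr_fun hs c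
  let Φ : (A × C) →ₗ[R] B := S.f.coprod s
  have hinj : Function.Injective Φ := by
    rw [← LinearMap.ker_eq_bot, LinearMap.ker_eq_bot']
    rintro ⟨a, c⟩ h
    have h1 : S.f a + s c = 0 := by simpa [Φ] using h
    have h2 : S.g (S.f a + s c) = 0 := by rw [h1, map_zero]
    have h3 : S.g (S.f a) = 0 := (S.exact _).mpr ⟨_, rfl⟩
    rw [map_add, h3, zero_add, hs'] at h2
    subst h2
    rw [map_zero, add_zero] at h1
    have h4 : a = 0 := S.inj (by rw [h1, map_zero])
    rw [h4]
    rfl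
  have hsurj : Function.Surjective Φ := by
    intro b
    have hb : S.g (b - s (S.g b)) = 0 := by rw [map_sub, hs', sub_self]
    obtain ⟨a, ha⟩ := (S.exact _).mp hb
    refine ⟨(a, S.g b), ?_⟩
    simp [Φ, ha]
  exact ⟨(LinearEquiv.ofBijective Φ ⟨hinj, hsurj⟩).symm⟩

end Ses

section Stable

variable {A B C D : Type u} [AddCommGroup A] [Module R A] [AddCommGroup B] [Module R B]
  [AddCommGroup C] [Module R C] [AddCommGroup D] [Module R D]

/-- Stable isomorphism: isomorphic after adding finitely generated projective summands. -/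
def StIso (R : Type u) [Ring R] (X Y : Type u) [AddCommGroup X] [Module R X] [AddCommGroup Y]
    [Module R Y] : Prop :=
  ∃ (Q Q' : ModuleCat.{u} R), Module.Projective R Q ∧ Module.Finite R Q ∧
    Module.Projective R Q' ∧ Module.Finite R Q' ∧ Nonempty ((X × Q) ≃ₗ[R] (Y × Q'))

theorem StIso.of_equiv (e : A ≃ₗ[R] B) : StIso R A B :=
  ⟨ModuleCat.of R PUnit, ModuleCat.of R PUnit, inferInstance, inferInstance, inferInstance,
    inferInstance, ⟨LinearEquiv.prodCongr e (LinearEquiv.refl R _)⟩⟩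

theorem StIso.refl : StIso R A A := StIso.of_equiv (LinearEquiv.refl R A)

theorem StIso.symm (h : StIso R A B) : StIso R B A := by
  obtain ⟨Q, Q', h1, h2, h3, h4, ⟨e⟩⟩ := h
  exact ⟨Q', Q, h3, h4, h1, h2, ⟨e.symm⟩⟩

theorem StIso.trans (h₁ : StIso R A B) (h₂ : StIso R B C) : StIso R A C := by
  obtain ⟨Q₁, Q₁', h1, h2, h3, h4, ⟨e₁⟩⟩ := h₁
  obtain ⟨Q₂, Q₂', k1, k2, k3, k4, ⟨e₂⟩⟩ := h₂
  refine ⟨ModuleCat.of R (Q₁ × Q₂), ModuleCat.of R (Q₁' × Q₂'), ?_, ?_, ?_, ?_, ⟨?_⟩⟩
  · exact inferInstanceAs (Module.Projective R (Q₁ × Q₂))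
  · exact inferInstanceAs (Module.Finite R (Q₁ × Q₂))
  · exact inferInstanceAs (Module.Projective R (Q₁' × Q₂'))
  · exact inferInstanceAs (Module.Finite R (Q₁' × Q₂'))
  · -- `A × (Q₁ × Q₂) ≃ (A × Q₁) × Q₂ ≃ (B × Q₁') × Q₂ ≃ (B × Q₂) × Q₁' ≃ (C × Q₂') × Q₁'`
    have s1 : (A × (Q₁ × Q₂)) ≃ₗ[R] ((A × Q₁) × Q₂) := (LinearEquiv.prodAssoc R A Q₁ Q₂).symm
    have s2 : ((A × Q₁) × Q₂) ≃ₗ[R] ((B × Q₁') × Q₂) :=
      LinearEquiv.prodCongr e₁ (LinearEquiv.refl R _)
    have s3 : ((B × Q₁') × Q₂) ≃ₗ[R] ((B × Q₂) × Q₁') :=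
      (LinearEquiv.prodAssoc R B Q₁' Q₂).trans
        ((LinearEquiv.prodCongr (LinearEquiv.refl R B) (LinearEquiv.prodComm R Q₁' Q₂)).trans
          (LinearEquiv.prodAssoc R B Q₂ Q₁').symm)
    have s4 : ((B × Q₂) × Q₁') ≃ₗ[R] ((C × Q₂') × Q₁') :=
      LinearEquiv.prodCongr e₂ (LinearEquiv.refl R _)
    have s5 : ((C × Q₂') × Q₁') ≃ₗ[R] (C × (Q₁' × Q₂')) :=
      (LinearEquiv.prodAssoc R C Q₂' Q₁').trans
        (LinearEquiv.prodCongr (LinearEquiv.refl R C) (LinearEquiv.prodComm R Q₂' Q₁'))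
    exact s1.trans (s2.trans (s3.trans (s4.trans s5)))

theorem StIso.prod (h₁ : StIso R A B) (h₂ : StIso R C D) : StIso R (A × C) (B × D) := by
  obtain ⟨Q₁, Q₁', h1, h2, h3, h4, ⟨e₁⟩⟩ := h₁
  obtain ⟨Q₂, Q₂', k1, k2, k3, k4, ⟨e₂⟩⟩ := h₂
  refine ⟨ModuleCat.of R (Q₁ × Q₂), ModuleCat.of R (Q₁' × Q₂'), ?_, ?_, ?_, ?_, ⟨?_⟩⟩
  · exact inferInstanceAs (Module.Projective R (Q₁ × Q₂))
  · exact inferInstanceAs (Module.Finite R (Q₁ × Q₂))
  · exact inferInstanceAs (Module.Projective R (Q₁' × Q₂'))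
  · exact inferInstanceAs (Module.Finite R (Q₁' × Q₂'))
  · have s1 : ((A × C) × (Q₁ × Q₂)) ≃ₗ[R] ((A × Q₁) × (C × Q₂)) :=
      LinearEquiv.prodProdProdComm R A C Q₁ Q₂
    have s2 : ((A × Q₁) × (C × Q₂)) ≃ₗ[R] ((B × Q₁') × (D × Q₂')) := LinearEquiv.prodCongr e₁ e₂
    have s3 : ((B × Q₁') × (D × Q₂')) ≃ₗ[R] ((B × D) × (Q₁' × Q₂')) :=
      LinearEquiv.prodProdProdComm R B Q₁' D Q₂'
    exact s1.trans (s2.trans s3)

/-- Adding a finitely generated projective summand does not change the stable class. -/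
theorem StIso.prod_projective (P : Type u) [AddCommGroup P] [Module R P] [Module.Projective R P]
    [Module.Finite R P] : StIso R (A × P) A :=
  ⟨ModuleCat.of R PUnit, ModuleCat.of R P, inferInstance, inferInstance,
    inferInstanceAs (Module.Projective R P), inferInstanceAs (Module.Finite R P),
    ⟨LinearEquiv.prodUnique⟩⟩

theorem StIso.pdLT {n : ℕ} (h : StIso R A B) (hn : 1 ≤ n) (hA : PdLT R A n) : PdLT R B n := by
  obtain ⟨Q, Q', h1, h2, h3, h4, ⟨e⟩⟩ := h
  have hQ : PdLT R Q n := pdLT_of_projective hn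
  have h5 : PdLT R (B × Q') n := (pdLT_prod hA hQ).of_equiv e
  exact Retr.fst.pdLT h5

theorem StIso.finite (h : StIso R A B) [Module.Finite R A] : Module.Finite R B := by
  obtain ⟨Q, Q', h1, h2, h3, h4, ⟨e⟩⟩ := h
  have h5 : Module.Finite R (B × Q') := Module.Finite.equiv e
  exact Module.Finite.of_surjective (LinearMap.fst R B Q') LinearMap.fst_surjective

/-- A retract of a module is a retract of any stably isomorphic module with a projective
summand added. -/
theorem StIso.retr {Z : Type u} [AddCommGroup Z] [Module R Z] (h : StIso R A B)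
    (hZ : Retr R Z A) :
    ∃ Q' : ModuleCat.{u} R, Module.Projective R Q' ∧ Module.Finite R Q' ∧ Retr R Z (B × Q') := by
  obtain ⟨Q, Q', h1, h2, h3, h4, ⟨e⟩⟩ := h
  exact ⟨Q', h3, h4, hZ.trans (Retr.fst.trans (Retr.of_equiv e))⟩

end Stable

end Vale.Agent.Lib.P176
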