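import Mathlib
import Vale.Agent.Lib.P195.GPres
import Vale.Agent.Lib.P176.ITBasic

/-!
Rings in which every element killing the annihilator of the radical lies in the radical:
finitely generated modules of finite projective dimension are projective.
-/

universe u

namespace Vale.Agent.Lib.P176

open Vale.Agent.Lib.P195

/-- An element annihilating the radical from the left kills the radical layer of any module. -/
theorem cumkasch_kill (S : Type u) [Ring S] {P : Type u} [AddCommGroup P] [Module S P]
    (x : S) (hx : ∀ j ∈ Ring.jacobson S, x * j = 0) {v : P} (hv : v ∈ radSub S P) :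
    x • v = 0 := by
  refine Submodule.smul_induction_on hv ?_ ?_
  · intro a ha m _
    rw [smul_smul, hx a ha, zero_smul]
  · intro y z hy hz
    rw [smul_add, hy, hz, add_zero]

/-- Under the annihilator condition, a finitely generated projective submodule of the radical
layer of a module is zero. -/
theorem cumkasch_eq_bot (S : Type u) [Ring S]
    (hK : ∀ r : S, (∀ x : S, (∀ j ∈ Ring.jacobson S, x * j = 0) → x * r = 0) →
      r ∈ Ring.jacobson S)
    {P : Type u} [AddCommGroup P] [Module S P] (K : Submodule S P) (hKP : K ≤ radSub S P)
    [Module.Projective S K] [Module.Finite S K] : K = ⊥ := by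
  obtain ⟨s, hs⟩ := (Module.projective_def' (R := S) (P := K)).1 inferInstance
  have hcoef : ∀ (v : K) (i : K), s v i ∈ Ring.jacobson S := by
    intro v i
    apply hK
    intro x hx
    have h0 : x • v = 0 := by
      apply Subtype.ext
      rw [Submodule.coe_smul, Submodule.coe_zero]
      exact cumkasch_kill S x hx (hKP v.2)
    have h1 : x • s v = 0 := by rw [← map_smul, h0, map_zero]
    have h2 := DFunLike.congr_fun h1 i
    simpa using h2
  have htop : (⊤ : Submodule S K) ≤ Ring.jacobson S • (⊤ : Submodule S K) := by
    intro v _
    have hv : v = Finsupp.linearCombination S id (s v) := by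
      have := LinearMap.congr_fun hs v
      simpa using this.symm
    rw [hv, Finsupp.linearCombination_apply]
    apply Submodule.sum_mem
    intro i _
    exact Submodule.smul_mem_smul (hcoef v i) Submodule.mem_top
  have hbot : (⊤ : Submodule S K) = ⊥ :=
    Submodule.FG.eq_bot_of_le_jacobson_smul Module.Finite.fg_top htop
  rw [eq_bot_iff]
  intro v hv
  have hmem : (⟨v, hv⟩ : K) ∈ (⊤ : Submodule S K) := Submodule.mem_top
  rw [hbot] at hmem
  have h0 : (⟨v, hv⟩ : K) = 0 := (Submodule.mem_bot S).1 hmem
  exact (Submodule.mem_bot S).2 (congrArg Subtype.val h0)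

/-- Let `S` be a left artinian ring with radical `J` such that every `r` with `x * r = 0` for
all `x` with `x * J = 0` lies in `J`.  Then a finitely generated left `S`-module of finite
projective dimension is projective. -/
theorem kasch_pdLT_one (S : Type u) [Ring S] [IsArtinianRing S]
    (hK : ∀ r : S, (∀ x : S, (∀ j ∈ Ring.jacobson S, x * j = 0) → x * r = 0) →
      r ∈ Ring.jacobson S)
    (M : Type u) [AddCommGroup M] [Module S M] [Module.Finite S M] (d : ℕ)
    (h : PdLT S M d) : PdLT S M 1 := by
  induction d generalizing M with
  | zero => exact h.mono (Nat.zero_le 1)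
  | succ e ih =>
    rcases Nat.eq_zero_or_pos e with he | he
    · subst he
      exact h
    · obtain ⟨p⟩ := exists_projPres (R := S) (N := M)
      have hP : PdLT S p.P e := pdLT_of_projective he
      have hKer : PdLT S (LinearMap.ker p.π) e := (SES.ofSurj p.π p.surj).pdLT_left hP h
      have hfin : Module.Finite S (LinearMap.ker p.π) := inferInstance
      have hproj : Module.Projective S (LinearMap.ker p.π) :=
        pdLT_one_iff.1 (ih (LinearMap.ker p.π) hKer)
      have hbot : LinearMap.ker p.π = ⊥ := cumkasch_eq_bot S hK (LinearMap.ker p.π) p.min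
      have hinj : Function.Injective p.π := LinearMap.ker_eq_bot.1 hbot
      exact PdLT.of_equiv (LinearEquiv.ofBijective p.π ⟨hinj, p.surj⟩)
        (pdLT_of_projective le_rfl)

end Vale.Agent.Lib.P176
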