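import Mathlib
import Vale.Agent.Lib.P176.ITBasic

/-!
Projective dimension along a surjective ring homomorphism `ρ : B → A` for which `A` is a
projective `B`-module: an `A`-module has the same projective dimension over `A` and over `B`.
-/

universe u

namespace Vale.Agent.Lib.P176

open CategoryTheory

section CumPdMaps

variable {A B : Type u} [Ring A] [Ring B] (ρ : B →+* A)
  {Y Z : Type u} [AddCommGroup Y] [Module A Y] [Module B Y] [AddCommGroup Z] [Module A Z]
  [Module B Z]

/-- An `A`-linear map between `A`-modules with compatible `B`-structures is `B`-linear. -/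
def cumpdToB (hY : ∀ (b : B) (y : Y), b • y = ρ b • y) (hZ : ∀ (b : B) (z : Z), b • z = ρ b • z)
    (f : Y →ₗ[A] Z) : Y →ₗ[B] Z where
  toFun := f
  map_add' := f.map_add
  map_smul' := fun b y => by
    rw [hY, f.map_smul, RingHom.id_apply, hZ]

theorem cumpdToB_apply (hY : ∀ (b : B) (y : Y), b • y = ρ b • y)
    (hZ : ∀ (b : B) (z : Z), b • z = ρ b • z) (f : Y →ₗ[A] Z) (y : Y) :
    cumpdToB ρ hY hZ f y = f y := rfl

/-- If `ρ` is surjective, a `B`-linear map between `A`-modules with compatible `B`-structures is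
`A`-linear. -/
def cumpdToA (hρ : Function.Surjective ρ) (hY : ∀ (b : B) (y : Y), b • y = ρ b • y)
    (hZ : ∀ (b : B) (z : Z), b • z = ρ b • z) (g : Y →ₗ[B] Z) : Y →ₗ[A] Z where
  toFun := g
  map_add' := g.map_add
  map_smul' := fun a y => by
    obtain ⟨b, rfl⟩ := hρ a
    rw [← hY, g.map_smul, RingHom.id_apply]
    exact hZ b (g y)

theorem cumpdToA_apply (hρ : Function.Surjective ρ) (hY : ∀ (b : B) (y : Y), b • y = ρ b • y)
    (hZ : ∀ (b : B) (z : Z), b • z = ρ b • z) (g : Y →ₗ[B] Z) (y : Y) :
    cumpdToA ρ hρ hY hZ g y = g y := rfl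

end CumPdMaps

section CumPdMain

variable {A B : Type u} [Ring A] [Ring B] (ρ : B →+* A)

theorem cumpd_finsupp_compat [Module B A] (hA : ∀ (b : B) (a : A), b • a = ρ b * a)
    (X : Type u) (b : B) (f : X →₀ A) : b • f = ρ b • f := by
  ext x
  rw [Finsupp.smul_apply, Finsupp.smul_apply, hA, smul_eq_mul]

theorem cumpd_finsupp_projective [Module B A] [Module.Projective B A] (X : Type u) :
    Module.Projective B (X →₀ A) := by
  classical
  exact Module.Projective.of_equiv' (finsuppLequivDFinsupp (ι := X) (M := A) B).symm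

theorem cumpd_projective_iff (hρ : Function.Surjective ρ) [Module B A]
    (hA : ∀ (b : B) (a : A), b • a = ρ b * a) [Module.Projective B A]
    (X : Type u) [AddCommGroup X] [Module A X] [Module B X]
    (hX : ∀ (b : B) (x : X), b • x = ρ b • x) :
    Module.Projective A X ↔ Module.Projective B X := by
  have hF : ∀ (b : B) (f : X →₀ A), b • f = ρ b • f := cumpd_finsupp_compat ρ hA X
  have hFp : Module.Projective B (X →₀ A) := cumpd_finsupp_projective X
  constructor
  · intro hP
    obtain ⟨s, hs⟩ := Module.projective_def'.mp hP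
    refine Module.Projective.of_split (cumpdToB ρ hX hF s)
      (cumpdToB ρ hF hX (Finsupp.linearCombination A id)) ?_
    ext x
    have := LinearMap.congr_fun hs x
    simpa [cumpdToB_apply] using this
  · intro hP
    refine Module.Projective.of_lifting_property'' ?_
    intro f hf
    obtain ⟨h, hh⟩ := Module.projective_lifting_property (cumpdToB ρ hF hX f)
      (LinearMap.id : X →ₗ[B] X) hf
    refine ⟨cumpdToA ρ hρ hX hF h, ?_⟩
    ext x
    have := LinearMap.congr_fun hh x
    simpa [cumpdToA_apply, cumpdToB_apply] using this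

theorem cumpd_zero_iff (R : Type u) [Ring R] (X : Type u) [AddCommGroup X] [Module R X] :
    PdLT R X 0 ↔ Subsingleton X := by
  unfold PdLT
  rw [hasProjectiveDimensionLT_zero_iff_isZero, ModuleCat.isZero_iff_subsingleton]

theorem cumpd_step [Module B A]
    (X : Type u) [AddCommGroup X] [Module A X] [Module B X]
    (hX : ∀ (b : B) (x : X), b • x = ρ b • x)
    (K : Type u) [AddCommGroup K] [Module A K] [Module B K]
    (hK : ∀ (b : B) (k : K), b • k = ρ b • k)
    (F : Type u) [AddCommGroup F] [Module A F] [Module B F]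
    (hF : ∀ (b : B) (f : F), b • f = ρ b • f)
    [Module.Projective A F] [Module.Projective B F]
    (S : SES A K F X) (e : ℕ) (ih : PdLT A K (e + 1) ↔ PdLT B K (e + 1)) :
    PdLT A X (e + 1 + 1) ↔ PdLT B X (e + 1 + 1) := by
  have SB : SES B K F X :=
    ⟨cumpdToB ρ hK hF S.f, cumpdToB ρ hF hX S.g, S.inj, S.surj, S.exact⟩
  have hFA : PdLT A F (e + 1) := pdLT_of_projective (by omega)
  have hFA' : PdLT A F (e + 1 + 1) := pdLT_of_projective (by omega)
  have hFB : PdLT B F (e + 1) := pdLT_of_projective (by omega)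
  have hFB' : PdLT B F (e + 1 + 1) := pdLT_of_projective (by omega)
  constructor
  · intro h
    exact SB.pdLT_right (ih.mp (S.pdLT_left hFA h)) hFB'
  · intro h
    exact S.pdLT_right (ih.mpr (SB.pdLT_left hFB h)) hFA'

theorem cumpd_aux (hρ : Function.Surjective ρ) [Module B A]
    (hA : ∀ (b : B) (a : A), b • a = ρ b * a) [Module.Projective B A] (d : ℕ) :
    ∀ (X : Type u) [AddCommGroup X] [Module A X] [Module B X]
      (_ : ∀ (b : B) (x : X), b • x = ρ b • x), PdLT A X d ↔ PdLT B X d := by
  induction d with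
  | zero =>
    intro X _ _ _ _
    rw [cumpd_zero_iff, cumpd_zero_iff]
  | succ d ih =>
    intro X _ _ _ hX
    rcases Nat.eq_zero_or_pos d with hd | hd
    · subst hd
      rw [zero_add, pdLT_one_iff, pdLT_one_iff]
      exact cumpd_projective_iff ρ hρ hA X hX
    · obtain ⟨e, rfl⟩ : ∃ e, d = e + 1 := ⟨d - 1, by omega⟩
      have hF : ∀ (b : B) (f : X →₀ A), b • f = ρ b • f := cumpd_finsupp_compat ρ hA X
      have hFp : Module.Projective B (X →₀ A) := cumpd_finsupp_projective X
      let π : (X →₀ A) →ₗ[A] X := Finsupp.linearCombination A id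
      have hπ : Function.Surjective π := fun x => ⟨Finsupp.single x 1, by simp [π]⟩
      let instK : @Module B (LinearMap.ker π) _ AddCommGroup.toAddCommMonoid :=
        Module.compHom (LinearMap.ker π) ρ
      have hK : ∀ (b : B) (k : LinearMap.ker π), b • k = ρ b • k := fun _ _ => rfl
      exact cumpd_step ρ X hX (LinearMap.ker π) hK (X →₀ A) hF (SES.ofSurj π hπ) e
        (ih (LinearMap.ker π) hK)

end CumPdMain

/-- Let `ρ : B → A` be a surjective ring homomorphism such that `A`, as a left `B`-module via
`ρ`, is projective.  For an `A`-module `X`, regarded as a `B`-module via `ρ`, the projective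
dimension over `A` is `< d` if and only if the projective dimension over `B` is `< d`. -/
theorem pdLT_restrict_iff {A B : Type u} [Ring A] [Ring B] (ρ : B →+* A)
    (hρ : Function.Surjective ρ) [Module B A] (hA : ∀ (b : B) (a : A), b • a = ρ b * a)
    [Module.Projective B A] (X : Type u) [AddCommGroup X] [Module A X] [Module B X]
    (hX : ∀ (b : B) (x : X), b • x = ρ b • x) (d : ℕ) :
    PdLT A X d ↔ PdLT B X d :=
  cumpd_aux ρ hρ hA d X hX

end Vale.Agent.Lib.P176
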