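import Mathlib
import Vale.Agent.Lib.P176.CumAlg

/-!
The radical of the opposite of the auxiliary algebra, the annihilator condition, and
projectivity of `A` over the auxiliary algebra.
-/

universe u

namespace Vale.Agent.Lib.P176

open MulOpposite

variable {k A : Type u} [Field k] [Ring A] [Algebra k A]

/-- Membership in the radical of the opposite ring, in terms of right inverses. -/
theorem cum_op_mem_jacobson_iff {R : Type u} [Ring R] (x : R) :
    op x ∈ Ring.jacobson Rᵐᵒᵖ ↔ ∀ y : R, ∃ z : R, x * y * z + z - 1 = 0 := by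
  rw [← Ideal.jacobson_bot, Ideal.mem_jacobson_iff]
  simp only [Ideal.mem_bot]
  constructor
  · intro h y
    obtain ⟨z, hz⟩ := h (op y)
    refine ⟨unop z, ?_⟩
    have h1 := congrArg unop hz
    simp only [unop_sub, unop_add, unop_mul, unop_op, unop_one, unop_zero] at h1
    rw [mul_assoc]
    exact h1
  · intro h y
    obtain ⟨z, hz⟩ := h (unop y)
    refine ⟨op z, ?_⟩
    apply unop_injective
    simp only [unop_sub, unop_add, unop_mul, unop_op, unop_one, unop_zero]
    rw [← mul_assoc]
    exact hz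

/-- An element of the ideal `opRad A` plus one has a right inverse. -/
theorem cum_exists_right_inv {a : A} (ha : a ∈ opRad A) : ∃ u : A, a * u + u = 1 := by
  obtain ⟨z, hz⟩ := (cum_op_mem_jacobson_iff a).mp ha 1
  refine ⟨z, ?_⟩
  rw [mul_one] at hz
  exact sub_eq_zero.mp hz

/-- The radical of the opposite of the auxiliary algebra. -/
theorem cum_mem_jacobson_iff (x : Cum k A) :
    op x ∈ Ring.jacobson (Cum k A)ᵐᵒᵖ ↔ x.c = 0 ∧ x.a ∈ opRad A := by
  rw [cum_op_mem_jacobson_iff]
  constructor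
  · intro h
    refine ⟨?_, ?_⟩
    · by_contra hc
      obtain ⟨z, hz⟩ := h ⟨-x.c⁻¹, 0, 0, 0⟩
      have h1 := congrArg Cum.c hz
      simp only [Cum.sub_c, Cum.add_c, Cum.mul_c, Cum.one_c, Cum.zero_c] at h1
      have h3 : x.c * -x.c⁻¹ = -1 := by
        rw [mul_neg, mul_inv_cancel₀ hc]
      rw [h3] at h1
      have h4 : (-1 : k) * z.c + z.c - 1 = -1 := by ring
      rw [h4] at h1
      exact one_ne_zero (neg_eq_zero.mp h1)
    · rw [mem_opRad, cum_op_mem_jacobson_iff]
      intro y
      obtain ⟨z, hz⟩ := h ⟨0, 0, y, 0⟩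
      refine ⟨z.a, ?_⟩
      have h1 := congrArg Cum.a hz
      simp only [Cum.sub_a, Cum.add_a, Cum.mul_a, Cum.one_a, Cum.zero_a] at h1
      exact h1
  · rintro ⟨hc, ha⟩ y
    obtain ⟨w, hw⟩ : ∃ w : Cum k A, w = x * y := ⟨_, rfl⟩
    have hwc : w.c = 0 := by rw [hw, Cum.mul_c, hc, zero_mul]
    have hwa : w.a ∈ opRad A := by
      rw [hw]
      exact opRad_mul_mem ha _
    obtain ⟨u, hu⟩ := cum_exists_right_inv hwa
    refine ⟨⟨1, -w.d, u, -(u • w.n)⟩, ?_⟩
    rw [← hw]
    ext
    · simp [hwc]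
    · simp [hwc]
    · simp only [Cum.sub_a, Cum.add_a, Cum.mul_a, Cum.one_a, Cum.zero_a]
      rw [hu, sub_self]
    · simp only [Cum.sub_n, Cum.add_n, Cum.mul_n, Cum.one_n, Cum.zero_n, sub_zero, one_smul,
        smul_neg]
      have h5 : w.a • u • w.n + u • w.n = w.n := by
        rw [← mul_smul, ← add_smul, hu, one_smul]
      have h6 : w.a • u • w.n = w.n - u • w.n := eq_sub_of_add_eq h5
      rw [h6]
      abel

/-- The annihilator condition for the opposite of the auxiliary algebra. -/
theorem cum_kasch (r : (Cum k A)ᵐᵒᵖ)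
    (h : ∀ x : (Cum k A)ᵐᵒᵖ, (∀ j ∈ Ring.jacobson (Cum k A)ᵐᵒᵖ, x * j = 0) → x * r = 0) :
    r ∈ Ring.jacobson (Cum k A)ᵐᵒᵖ := by
  have hr : r = op (unop r) := rfl
  rw [hr, cum_mem_jacobson_iff]
  refine ⟨?_, ?_⟩
  · have h1 := h (op ⟨0, 1, 0, 0⟩) (by
      intro j hj
      have hj' : j = op (unop j) := rfl
      rw [hj', cum_mem_jacobson_iff] at hj
      apply unop_injective
      rw [unop_mul, unop_op, unop_zero]
      ext <;> simp [hj.1])
    have h2 := congrArg (fun w => (unop w).d) h1
    simpa using h2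
  · have h1 := h (op ⟨0, 0, 0, Submodule.Quotient.mk 1⟩) (by
      intro j hj
      have hj' : j = op (unop j) := rfl
      rw [hj', cum_mem_jacobson_iff] at hj
      apply unop_injective
      rw [unop_mul, unop_op, unop_zero]
      ext
      · simp
      · simp
      · simp
      · simp only [Cum.mul_n, Cum.zero_n, zero_smul, add_zero]
        rw [← Submodule.Quotient.mk_smul, smul_eq_mul, mul_one]
        exact (Submodule.Quotient.mk_eq_zero _).mpr hj.2)
    have h2 := congrArg (fun w => (unop w).n) h1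
    simp only [unop_mul, unop_op, unop_zero, Cum.mul_n, Cum.zero_n, zero_smul, add_zero] at h2
    rw [← Submodule.Quotient.mk_smul, smul_eq_mul, mul_one] at h2
    exact (Submodule.Quotient.mk_eq_zero _).mp h2

end Vale.Agent.Lib.P176
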