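import Mathlib
import Vale.Agent.Lib.P176.CumRad
import Vale.Agent.Lib.P176.CumKasch
import Vale.Agent.Lib.P176.CumPd

/-!
The finitistic dimension conjecture for finite-dimensional algebras over a field `k` is
equivalent to left-right symmetry of finiteness of the finitistic dimension.
-/

universe u

namespace Vale.Agent.Lib.P176

open CategoryTheory MulOpposite

/-- `A` as a module over the auxiliary algebra, through the projection. -/
@[reducible] def cumModule (k A : Type u) [Field k] [Ring A] [Algebra k A] :
    Module (Cum k A) A :=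
  Module.compHom A (Cum.proj k A)

/-- `A` is a projective module over the auxiliary algebra. -/
theorem cum_projective (k A : Type u) [Field k] [Ring A] [Algebra k A] :
    @Module.Projective (Cum k A) _ A _ (cumModule k A) := by
  let _ := cumModule k A
  have hA : ∀ (b : Cum k A) (a : A), b • a = b.a * a := fun _ _ => rfl
  let σ : A →ₗ[Cum k A] Cum k A :=
    { toFun := fun a => ⟨0, 0, a, 0⟩
      map_add' := fun a b => by ext <;> simp
      map_smul' := fun b a => by
        ext
        · simp
        · simp
        · simp [hA]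
        · simp }
  let π : Cum k A →ₗ[Cum k A] A :=
    { toFun := fun x => x.a
      map_add' := fun _ _ => rfl
      map_smul' := fun _ _ => rfl }
  exact Module.Projective.of_split σ π (LinearMap.ext fun _ => rfl)

/-- The finitistic dimension conjecture for all finite-dimensional `k`-algebras is equivalent
to: finiteness of the finitistic dimension of the opposite algebra implies finiteness of the
finitistic dimension of the algebra. -/
theorem findim_symmetry (k : Type u) [Field k] :
    (∀ (A : Type u) [Ring A] [Algebra k A] [Module.Finite k A],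
      ∃ N : ℕ, ∀ M : ModuleCat.{u} A, Module.Finite A M →
        (∃ d : ℕ, HasProjectiveDimensionLT M d) → HasProjectiveDimensionLT M N) ↔
    (∀ (B : Type u) [Ring B] [Algebra k B] [Module.Finite k B],
      (∃ N : ℕ, ∀ M : ModuleCat.{u} Bᵐᵒᵖ, Module.Finite Bᵐᵒᵖ M →
        (∃ d : ℕ, HasProjectiveDimensionLT M d) → HasProjectiveDimensionLT M N) →
      ∃ N : ℕ, ∀ M : ModuleCat.{u} B, Module.Finite B M →
        (∃ d : ℕ, HasProjectiveDimensionLT M d) → HasProjectiveDimensionLT M N) := by
  constructor
  · intro h B _ _ _ _
    exact h B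
  · intro h A _ _ _
    have hop : ∃ N : ℕ, ∀ M : ModuleCat.{u} (Cum k A)ᵐᵒᵖ, Module.Finite (Cum k A)ᵐᵒᵖ M →
        (∃ d : ℕ, HasProjectiveDimensionLT M d) → HasProjectiveDimensionLT M N := by
      have : IsArtinianRing (Cum k A)ᵐᵒᵖ := IsArtinianRing.of_finite k _
      refine ⟨1, fun M hfin hd => ?_⟩
      obtain ⟨d, hd⟩ := hd
      exact kasch_pdLT_one (Cum k A)ᵐᵒᵖ cum_kasch M d hd
    obtain ⟨N, hN⟩ := h (Cum k A) hop
    refine ⟨N, fun M hfin hd => ?_⟩
    obtain ⟨d, hd⟩ := hd
    let _ := cumModule k A
    have := cum_projective k A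
    let _ : Module (Cum k A) M := Module.compHom M (Cum.proj k A)
    have hX : ∀ (b : Cum k A) (x : M), b • x = Cum.proj k A b • x := fun _ _ => rfl
    have hA : ∀ (b : Cum k A) (a : A), b • a = Cum.proj k A b * a := fun _ _ => rfl
    have : IsScalarTower (Cum k A) A M := ⟨fun b a m => by rw [hA, hX, mul_smul]⟩
    have : Module.Finite (Cum k A) A := by
      let π : Cum k A →ₗ[Cum k A] A :=
        { toFun := fun x => x.a
          map_add' := fun _ _ => rfl
          map_smul' := fun _ _ => rfl }
      exact Module.Finite.of_surjective π (fun a => ⟨⟨0, 0, a, 0⟩, rfl⟩)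
    have : Module.Finite (Cum k A) M := Module.Finite.trans A M
    have h1 : PdLT (Cum k A) M d :=
      (pdLT_restrict_iff (Cum.proj k A) Cum.proj_surjective hA M hX d).mp hd
    have h2 : PdLT (Cum k A) M N := hN (ModuleCat.of (Cum k A) M) inferInstance ⟨d, h1⟩
    exact (pdLT_restrict_iff (Cum.proj k A) Cum.proj_surjective hA M hX N).mpr h2

end Vale.Agent.Lib.P176
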