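import Mathlib

/-!
The delooping-level bound for the finitistic dimension, in its left-module (cosyzygy) form:
if for every simple module `T` some cosyzygy `Σ^m T` with `m ≤ n` is a direct summand of
`Σ^(m+1) X ⊞ Q` with `Q` injective, then every finitely generated module of finite projective
dimension has projective dimension at most `n`.

The lemmas `exists_lift_of_epi`-style finite-length reduction and
`hasProjectiveDimensionLT_of_finite` follow the file of helper77 on simple images.
-/

universe u

namespace Vale.Agent.Lib.P176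

open CategoryTheory Abelian Limits

variable {A : Type u} [Ring A]

/-- The short complex `0 → Z^j → I^j → Z^(j+1) → 0` of an injective resolution, where `Z^j` is
the kernel of the differential `I^j → I^(j+1)`. -/
noncomputable def cosyzSC {T : ModuleCat.{u} A} (I : InjectiveResolution T) (j : ℕ) :
    ShortComplex (ModuleCat.{u} A) :=
  ShortComplex.mk (kernel.ι (I.cocomplex.d j (j + 1)))
    (kernel.lift (I.cocomplex.d (j + 1) (j + 2)) (I.cocomplex.d j (j + 1)) (I.complex_d_comp j))
    (by
      apply (cancel_mono (kernel.ι (I.cocomplex.d (j + 1) (j + 2)))).mp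
      simp)

theorem cosyzSC_shortExact {T : ModuleCat.{u} A} (I : InjectiveResolution T) (j : ℕ) :
    (cosyzSC I j).ShortExact := by
  have hepi : Epi (cosyzSC I j).g := (I.exact_succ j).epi_kernelLift
  have hmono : Mono (cosyzSC I j).f := by
    dsimp [cosyzSC]
    infer_instance
  have hex : (cosyzSC I j).Exact := by
    apply ShortComplex.exact_of_f_is_kernel
    exact isKernelOfComp (f := (cosyzSC I j).g) (kernel.ι (I.cocomplex.d (j + 1) (j + 2)))
      (I.cocomplex.d j (j + 1)) (kernelIsKernel (I.cocomplex.d j (j + 1))) (cosyzSC I j).zero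
      (by simp [cosyzSC])
  exact { exact := hex }


/-- One step up an injective coresolution: a nonzero class in `Ext M X₁ (i+1)` comes from a
nonzero class in `Ext M X₃ i` when the middle term is injective. -/
theorem exists_ne_zero_up {S : ShortComplex (ModuleCat.{u} A)} (hS : S.ShortExact)
    (hinj : Injective S.X₂) (M : ModuleCat.{u} A) (i : ℕ)
    (h : ∃ x : Ext M S.X₁ (i + 1), x ≠ 0) : ∃ y : Ext M S.X₃ i, y ≠ 0 := by
  obtain ⟨x, hx⟩ := h
  have h0 : x.comp (Ext.mk₀ S.f) (add_zero (i + 1)) = 0 := Ext.eq_zero_of_injective _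
  obtain ⟨y, hy⟩ := Ext.covariant_sequence_exact₁ M hS x h0 rfl
  refine ⟨y, ?_⟩
  rintro rfl
  rw [Ext.zero_comp] at hy
  exact hx hy.symm

/-- One step down: in positive degree, a nonzero class in `Ext M X₃ i` gives a nonzero class in
`Ext M X₁ (i+1)` when the middle term is injective. -/
theorem exists_ne_zero_down {S : ShortComplex (ModuleCat.{u} A)} (hS : S.ShortExact)
    (hinj : Injective S.X₂) (M : ModuleCat.{u} A) (i : ℕ) (hi : 1 ≤ i)
    (h : ∃ y : Ext M S.X₃ i, y ≠ 0) : ∃ x : Ext M S.X₁ (i + 1), x ≠ 0 := by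
  obtain ⟨y, hy⟩ := h
  refine ⟨y.comp hS.extClass rfl, ?_⟩
  intro h0
  obtain ⟨z, hz⟩ := Ext.covariant_sequence_exact₃ M hS y rfl h0
  obtain ⟨i', rfl⟩ : ∃ i', i = i' + 1 := ⟨i - 1, by omega⟩
  have hz0 : z = 0 := Ext.eq_zero_of_injective _
  rw [hz0, Ext.zero_comp] at hz
  exact hy hz.symm

/-- Nonvanishing passes from a retract to the ambient object. -/
theorem exists_ne_zero_of_retract {X Y : ModuleCat.{u} A} (r : Retract X Y)
    (M : ModuleCat.{u} A) (i : ℕ) (h : ∃ x : Ext M X i, x ≠ 0) : ∃ y : Ext M Y i, y ≠ 0 := by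
  obtain ⟨x, hx⟩ := h
  refine ⟨x.comp (Ext.mk₀ r.i) (add_zero i), ?_⟩
  intro h0
  apply hx
  have h1 : (x.comp (Ext.mk₀ r.i) (add_zero i)).comp (Ext.mk₀ r.r) (add_zero i) = x := by
    rw [Ext.comp_assoc_of_third_deg_zero, Ext.mk₀_comp_mk₀, r.retract, Ext.comp_mk₀_id]
  rw [← h1, h0, Ext.zero_comp]

/-- In positive degree an injective summand carries no `Ext`. -/
theorem exists_ne_zero_of_biprod {C Q : ModuleCat.{u} A} (hQ : Injective Q)
    (M : ModuleCat.{u} A) (i : ℕ) (hi : 1 ≤ i) (h : ∃ y : Ext M (C ⊞ Q) i, y ≠ 0) :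
    ∃ z : Ext M C i, z ≠ 0 := by
  obtain ⟨y, hy⟩ := h
  refine ⟨y.comp (Ext.mk₀ biprod.fst) (add_zero i), ?_⟩
  intro h0
  apply hy
  obtain ⟨i', rfl⟩ : ∃ i', i = i' + 1 := ⟨i - 1, by omega⟩
  have h2 : y.comp (Ext.mk₀ (biprod.snd : C ⊞ Q ⟶ Q)) (add_zero (i' + 1)) = 0 :=
    Ext.eq_zero_of_injective _
  have h1 : y = y.comp (Ext.mk₀ (𝟙 (C ⊞ Q))) (add_zero (i' + 1)) := (Ext.comp_mk₀_id y).symm
  rw [h1, ← biprod.total, Ext.mk₀_add, Ext.comp_add, ← Ext.mk₀_comp_mk₀, ← Ext.mk₀_comp_mk₀,
    ← Ext.comp_assoc_of_third_deg_zero, ← Ext.comp_assoc_of_third_deg_zero, h0, h2,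
    Ext.zero_comp, Ext.zero_comp, add_zero]

/-- The module itself is the zeroth cosyzygy. -/
noncomputable def cosyzZeroIso {T : ModuleCat.{u} A} (I : InjectiveResolution T) :
    T ≅ kernel (I.cocomplex.d 0 1) :=
  IsLimit.conePointUniqueUpToIso I.isLimitKernelFork (limit.isLimit _)

theorem up_chain {T : ModuleCat.{u} A} (I : InjectiveResolution T) (M : ModuleCat.{u} A) :
    ∀ (m i k : ℕ), k = i + m → (∃ x : Ext M (kernel (I.cocomplex.d 0 1)) k, x ≠ 0) →
      ∃ y : Ext M (kernel (I.cocomplex.d m (m + 1))) i, y ≠ 0 := by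
  intro m
  induction m with
  | zero =>
    intro i k hk h
    subst hk
    exact h
  | succ m ih =>
    intro i k hk h
    have h1 := ih (i + 1) k (by omega) h
    exact exists_ne_zero_up (cosyzSC_shortExact I m) (I.injective m) M i h1

theorem down_chain {T : ModuleCat.{u} A} (I : InjectiveResolution T) (M : ModuleCat.{u} A) :
    ∀ (m i k : ℕ), 1 ≤ i → k = i + m →
      (∃ y : Ext M (kernel (I.cocomplex.d m (m + 1))) i, y ≠ 0) →
      ∃ x : Ext M (kernel (I.cocomplex.d 0 1)) k, x ≠ 0 := by
  intro m
  induction m with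
  | zero =>
    intro i k _ hk h
    subst hk
    exact h
  | succ m ih =>
    intro i k hi hk h
    have h1 := exists_ne_zero_down (cosyzSC_shortExact I m) (I.injective m) M i hi h
    exact ih (i + 1) k (by omega) (by omega) h1

/-- The key step: a nonzero top-degree class with values in a simple module whose `m`-th
cosyzygy is a stable retract of an `(m+1)`-st cosyzygy bounds the degree by `m`. -/
theorem le_of_cosyzygy_retract {M T X Q : ModuleCat.{u} A} {d m : ℕ}
    (hM : HasProjectiveDimensionLT M (d + 1)) (I : InjectiveResolution T)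
    (I' : InjectiveResolution X) (hQ : Injective Q)
    (r : Retract (kernel (I.cocomplex.d m (m + 1)))
      (kernel (I'.cocomplex.d (m + 1) (m + 2)) ⊞ Q))
    (x : Ext M T d) (hx : x ≠ 0) : d ≤ m := by
  by_contra hdm
  have h0 : ∃ y : Ext M (kernel (I.cocomplex.d 0 1)) d, y ≠ 0 :=
    exists_ne_zero_of_retract (Retract.ofIso (cosyzZeroIso I)) M d ⟨x, hx⟩
  have h1 := up_chain I M m (d - m) d (by omega) h0
  have h2 := exists_ne_zero_of_retract r M (d - m) h1
  have h3 := exists_ne_zero_of_biprod hQ M (d - m) (by omega) h2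
  have h4 := down_chain I' M (m + 1) (d - m) (d + 1) (by omega) (by omega) h3
  obtain ⟨y, hy⟩ := exists_ne_zero_of_retract (Retract.ofIso (cosyzZeroIso I').symm) M (d + 1) h4
  exact hy (Ext.eq_zero_of_hasProjectiveDimensionLT y (d + 1) le_rfl)


/-- A bound valid for nonzero top-degree classes with simple coefficients is valid for
coefficients of finite length. -/
theorem le_of_isFiniteLength_of_simple {c : ℕ} {M : ModuleCat.{u} A} {d : ℕ}
    (hs : ∀ S : ModuleCat.{u} A, IsSimpleModule A S → ∀ x : Ext M S d, x ≠ 0 → d ≤ c)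
    (X : Type u) [AddCommGroup X] [Module A X] (hX : IsFiniteLength A X)
    (x : Ext M (ModuleCat.of A X) d) (hx : x ≠ 0) : d ≤ c := by
  induction hX with
  | @of_subsingleton X _ _ hsub =>
    exfalso
    apply hx
    have hz : Limits.IsZero (ModuleCat.of A X) := ModuleCat.isZero_of_subsingleton _
    rw [← x.comp_mk₀_id, hz.eq_zero_of_tgt (𝟙 _), Ext.mk₀_zero, Ext.comp_zero]
  | @of_simple_quotient X _ _ Y hsimple hY ih =>
    have hSE : (ModuleCat.shortComplexOfCompEqZero Y.subtype Y.mkQ
        (LinearMap.exact_subtype_mkQ Y).linearMap_comp_eq_zero).ShortExact :=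
      ModuleCat.shortComplex_shortExact _ (LinearMap.exact_subtype_mkQ Y)
        Y.injective_subtype (Submodule.mkQ_surjective Y)
    by_cases hxg : x.comp (Ext.mk₀ (ModuleCat.ofHom Y.mkQ)) (add_zero d) = 0
    · obtain ⟨y, hy⟩ := Ext.covariant_sequence_exact₂ M hSE x hxg
      apply ih y
      rintro rfl
      rw [Ext.zero_comp] at hy
      exact hx hy.symm
    · exact hs (ModuleCat.of A (X ⧸ Y)) hsimple _ hxg

/-- Over a left Noetherian ring, a finitely generated module `M` has projective dimension
at most `n` as soon as `Ext M X (n + 1)` vanishes for all finitely generated `X`. -/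
theorem hasProjectiveDimensionLT_of_finite_ext [IsNoetherianRing A] (n : ℕ) :
    ∀ (M : ModuleCat.{u} A), Module.Finite A M →
      (∀ (X : Type u) [AddCommGroup X] [Module A X], Module.Finite A X →
        ∀ x : Ext M (ModuleCat.of A X) (n + 1), x = 0) →
      HasProjectiveDimensionLT M (n + 1) := by
  induction n with
  | zero =>
    intro M hfin hvan
    obtain ⟨m, f, hf⟩ := Module.Finite.exists_fin' A M
    have hSE := LinearMap.shortExact_shortComplexKer hf
    have hK : Module.Finite A (LinearMap.ker f) := inferInstance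
    obtain ⟨s, hs⟩ := Ext.covariant_sequence_exact₃ M hSE (Ext.mk₀ (𝟙 M)) (rfl : 0 + 1 = 1)
      (hvan _ hK _)
    obtain ⟨φ, rfl⟩ := (Ext.mk₀_bijective _ _).2 s
    rw [Ext.mk₀_comp_mk₀] at hs
    have hφ : φ ≫ (LinearMap.shortComplexKer f).g = 𝟙 M := (Ext.mk₀_bijective _ _).1 hs
    have hproj : Projective (LinearMap.shortComplexKer f).X₂ :=
      ModuleCat.projective_of_free (Pi.basisFun A (Fin m))
    have hr : Retract M (LinearMap.shortComplexKer f).X₂ := ⟨φ, _, hφ⟩
    exact hr.hasProjectiveDimensionLT 1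
  | succ n ih =>
    intro M hfin hvan
    obtain ⟨m, f, hf⟩ := Module.Finite.exists_fin' A M
    have hSE := LinearMap.shortExact_shortComplexKer hf
    have hK : Module.Finite A (LinearMap.ker f) := inferInstance
    have hproj : Projective (LinearMap.shortComplexKer f).X₂ :=
      ModuleCat.projective_of_free (Pi.basisFun A (Fin m))
    have h1 : HasProjectiveDimensionLT (LinearMap.shortComplexKer f).X₁ (n + 1) := by
      apply ih _ hK
      intro X _ _ hX x
      obtain ⟨x₂, hx₂⟩ := Ext.contravariant_sequence_exact₁ hSE _ x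
        (by omega : 1 + (n + 1) = n + 1 + 1) (hvan X hX _)
      rw [← hx₂, Ext.eq_zero_of_projective x₂, Ext.comp_zero]
    exact hSE.hasProjectiveDimensionLT_X₃ (n + 1) h1 inferInstance

/-- Over a left Artinian ring: if every nonzero top-degree class with simple coefficients lives
in degree at most `c`, then a finitely generated module of finite projective dimension has
projective dimension at most `c`. -/
theorem hasProjectiveDimensionLE_of_simple_bound [IsArtinianRing A] (c : ℕ)
    (M : ModuleCat.{u} A) (hfin : Module.Finite A M)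
    (hs : ∀ d : ℕ, HasProjectiveDimensionLT M (d + 1) →
      ∀ S : ModuleCat.{u} A, IsSimpleModule A S → ∀ x : Ext M S d, x ≠ 0 → d ≤ c)
    (n : ℕ) (hM : HasProjectiveDimensionLE M n) : HasProjectiveDimensionLE M c := by
  have key : ∀ m : ℕ, c + 1 ≤ m → HasProjectiveDimensionLT M (m + 1) →
      HasProjectiveDimensionLT M m := by
    intro m hm hMm
    obtain ⟨m', rfl⟩ : ∃ m', m = m' + 1 := ⟨m - 1, by omega⟩
    apply hasProjectiveDimensionLT_of_finite_ext m' M hfin
    intro X _ _ hX x
    by_contra hx
    have hfl : IsFiniteLength A X := isFiniteLength_iff_isNoetherian_isArtinian.mpr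
      ⟨inferInstance, inferInstance⟩
    have := le_of_isFiniteLength_of_simple (hs (m' + 1) hMm) X hfl x hx
    omega
  have down : ∀ k : ℕ, HasProjectiveDimensionLT M (c + 1 + k) →
      HasProjectiveDimensionLT M (c + 1) := by
    intro k
    induction k with
    | zero => exact fun hk => hk
    | succ k ih => exact fun hk => ih (key (c + 1 + k) (by omega) hk)
  by_cases hn : n ≤ c
  · exact hasProjectiveDimensionLT_of_ge M (n + 1) (c + 1) (by omega)
  · have hM' : HasProjectiveDimensionLT M (c + 1 + (n - c)) := by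
      have : c + 1 + (n - c) = n + 1 := by omega
      rw [this]
      exact hM
    exact down (n - c) hM'

/-- **Delooping-level bound, cosyzygy form.**  Let `A` be a left Artinian ring and `n : ℕ`.
Suppose that for every simple module `T` there are `m ≤ n`, a module `X`, injective resolutions
of `T` and `X` and an injective module `Q` such that the `m`-th cosyzygy of `T` is a retract of
the direct sum of the `(m+1)`-st cosyzygy of `X` and `Q`.  Then every finitely generated module
of finite projective dimension has projective dimension at most `n`. -/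
theorem findim_le_of_cosyzygy_delooping (A : Type u) [Ring A] [IsArtinianRing A] (n : ℕ)
    (h : ∀ T : ModuleCat.{u} A, IsSimpleModule A T →
      ∃ (m : ℕ) (X Q : ModuleCat.{u} A) (I : InjectiveResolution T) (I' : InjectiveResolution X),
        m ≤ n ∧ Injective Q ∧
        Nonempty (Retract (kernel (I.cocomplex.d m (m + 1)))
          (kernel (I'.cocomplex.d (m + 1) (m + 2)) ⊞ Q)))
    (M : ModuleCat.{u} A) (hfin : Module.Finite A M) (d : ℕ)
    (hM : HasProjectiveDimensionLE M d) : HasProjectiveDimensionLE M n := by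
  refine hasProjectiveDimensionLE_of_simple_bound n M hfin ?_ d hM
  intro e hMe T hT x hx
  obtain ⟨m, X, Q, I, I', hmn, hQ, ⟨r⟩⟩ := h T hT
  exact le_trans (le_of_cosyzygy_retract hMe I I' hQ r x hx) hmn

end Vale.Agent.Lib.P176
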