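import Mathlib

/-!
The vector-space dual of a right module over a finite-dimensional algebra, as a left module.

`A` is an algebra over a field `k`.  A right `A`-module is a module `M` over `Aᵐᵒᵖ`; it is assumed
to carry a compatible `k`-vector-space structure (`IsScalarTower k Aᵐᵒᵖ M`).  Its dual
`RDual k A M` is the space of `k`-linear functionals on `M` with the left `A`-action
`(a • f) x = f (op a • x)`.
-/

universe u

namespace Vale.Agent.Lib.P176

open MulOpposite

variable (k : Type u) [Field k] (A : Type u) [Ring A] [Algebra k A]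

/-- The `k`-dual of a right `A`-module, a type synonym of the space of functionals. -/
def RDual (M : Type u) [AddCommGroup M] [Module k M] : Type u := M →ₗ[k] k

namespace RDual

variable {k A}
variable {M : Type u} [AddCommGroup M] [Module k M] [Module Aᵐᵒᵖ M] [IsScalarTower k Aᵐᵒᵖ M]
variable {M' : Type u} [AddCommGroup M'] [Module k M'] [Module Aᵐᵒᵖ M'] [IsScalarTower k Aᵐᵒᵖ M']
variable {M'' : Type u} [AddCommGroup M''] [Module k M''] [Module Aᵐᵒᵖ M'']
  [IsScalarTower k Aᵐᵒᵖ M'']

instance : AddCommGroup (RDual k M) := inferInstanceAs (AddCommGroup (M →ₗ[k] k))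

/-- The functional underlying an element of the dual. -/
def toFun' (f : RDual k M) : M →ₗ[k] k := f

/-- The element of the dual given by a functional. -/
def of (f : M →ₗ[k] k) : RDual k M := f

@[simp] theorem toFun'_of (f : M →ₗ[k] k) : toFun' (of f) = f := rfl

@[simp] theorem of_toFun' (f : RDual k M) : of (toFun' f) = f := rfl

theorem ext' {f g : RDual k M} (h : ∀ x, toFun' f x = toFun' g x) : f = g :=
  LinearMap.ext h

@[simp] theorem toFun'_add (f g : RDual k M) (x : M) :
    toFun' (f + g) x = toFun' f x + toFun' g x := rfl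

@[simp] theorem toFun'_zero (x : M) : toFun' (0 : RDual k M) x = 0 := rfl

/-- Right multiplication by `a` as a `k`-linear endomorphism. -/
def rmul (a : A) : M →ₗ[k] M := DistribSMul.toLinearMap k M (op a)

@[simp] theorem rmul_apply (a : A) (x : M) : rmul (k := k) a x = op a • x := rfl

instance : Module A (RDual k M) where
  smul a f := of ((toFun' f).comp (rmul a))
  one_smul f := by
    apply ext'
    intro x
    show toFun' f (op (1 : A) • x) = toFun' f x
    rw [op_one, one_smul]
  mul_smul a b f := by
    apply ext'
    intro x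
    show toFun' f (op (a * b) • x) = toFun' f (op b • op a • x)
    rw [op_mul, mul_smul]
  smul_zero a := by
    apply ext'
    intro x
    rfl
  smul_add a f g := by
    apply ext'
    intro x
    rfl
  add_smul a b f := by
    apply ext'
    intro x
    show toFun' f (op (a + b) • x) = toFun' f (op a • x) + toFun' f (op b • x)
    rw [op_add, add_smul, map_add]
  zero_smul f := by
    apply ext'
    intro x
    show toFun' f (op (0 : A) • x) = 0
    rw [op_zero, zero_smul, map_zero]

@[simp] theorem toFun'_smul (a : A) (f : RDual k M) (x : M) :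
    toFun' (a • f) x = toFun' f (op a • x) := rfl

/-- The transpose of a map of right modules, a map of left modules between the duals. -/
def map (φ : M →ₗ[Aᵐᵒᵖ] M') : RDual k M' →ₗ[A] RDual k M where
  toFun f := of ((toFun' f).comp (φ.restrictScalars k))
  map_add' f g := rfl
  map_smul' a f := by
    apply ext'
    intro x
    show toFun' f (op a • φ x) = toFun' f (φ (op a • x))
    rw [φ.map_smul]

@[simp] theorem toFun'_map (φ : M →ₗ[Aᵐᵒᵖ] M') (f : RDual k M') (x : M) :
    toFun' (map (A := A) φ f) x = toFun' f (φ x) := rfl

theorem map_comp (φ : M →ₗ[Aᵐᵒᵖ] M') (ψ : M' →ₗ[Aᵐᵒᵖ] M'') :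
    map (k := k) (ψ ∘ₗ φ) = (map φ) ∘ₗ (map ψ) := rfl

theorem map_id : map (k := k) (LinearMap.id : M →ₗ[Aᵐᵒᵖ] M) = LinearMap.id := rfl

end RDual

end Vale.Agent.Lib.P176
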