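import Mathlib
import Vale.Agent.Lib.P176.DellDual

/-!
Exactness of the duality `RDual`: it turns a short exact sequence of right modules into a short
exact sequence of left modules.
-/

universe u

namespace Vale.Agent.Lib.P176

open MulOpposite

variable {k : Type u} [Field k] {A : Type u} [Ring A] [Algebra k A]
variable {K : Type u} [AddCommGroup K] [Module k K] [Module Aᵐᵒᵖ K] [IsScalarTower k Aᵐᵒᵖ K]
variable {F : Type u} [AddCommGroup F] [Module k F] [Module Aᵐᵒᵖ F] [IsScalarTower k Aᵐᵒᵖ F]
variable {M : Type u} [AddCommGroup M] [Module k M] [Module Aᵐᵒᵖ M] [IsScalarTower k Aᵐᵒᵖ M]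

/-- The transpose of a surjection is injective. -/
theorem RDual.map_injective (π : F →ₗ[Aᵐᵒᵖ] M) (hπ : Function.Surjective π) :
    Function.Injective (RDual.map (k := k) π) := by
  intro f g hfg
  apply RDual.ext'
  intro y
  obtain ⟨x, rfl⟩ := hπ y
  have h := congrArg (fun e => RDual.toFun' e x) hfg
  exact h

/-- The transpose of an injection is surjective (functionals extend, `k` being a field). -/
theorem RDual.map_surjective (ι : K →ₗ[Aᵐᵒᵖ] F) (hι : Function.Injective ι) :
    Function.Surjective (RDual.map (k := k) ι) := by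
  intro g
  have hker : LinearMap.ker (ι.restrictScalars k) = ⊥ := by
    rw [LinearMap.ker_eq_bot]
    exact hι
  obtain ⟨r, hr⟩ := LinearMap.exists_leftInverse_of_injective (ι.restrictScalars k) hker
  have hr' : ∀ x : K, r (ι x) = x := fun x => congrArg (fun e : K →ₗ[k] K => e x) hr
  refine ⟨RDual.of ((RDual.toFun' g).comp r), ?_⟩
  apply RDual.ext'
  intro x
  show RDual.toFun' g (r (ι x)) = RDual.toFun' g x
  rw [hr' x]

/-- The transposed sequence is exact in the middle. -/
theorem RDual.map_exact (ι : K →ₗ[Aᵐᵒᵖ] F) (π : F →ₗ[Aᵐᵒᵖ] M) (hπ : Function.Surjective π)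
    (h : Function.Exact ι π) :
    Function.Exact (RDual.map (k := k) π) (RDual.map (k := k) ι) := by
  intro y
  constructor
  · intro hy
    have hrange : LinearMap.range (π.restrictScalars k) = ⊤ := by
      rw [LinearMap.range_eq_top]
      exact hπ
    obtain ⟨s, hs⟩ := LinearMap.exists_rightInverse_of_surjective (π.restrictScalars k) hrange
    have hs' : ∀ m : M, π (s m) = m := fun m => congrArg (fun e : M →ₗ[k] M => e m) hs
    refine ⟨RDual.of ((RDual.toFun' y).comp s), ?_⟩
    apply RDual.ext'
    intro x
    show RDual.toFun' y (s (π x)) = RDual.toFun' y x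
    have h1 : π (s (π x) - x) = 0 := by
      rw [map_sub, hs', sub_self]
    obtain ⟨z, hz⟩ := (h _).mp h1
    have h2 : RDual.toFun' y (ι z) = 0 := congrArg (fun e => RDual.toFun' e z) hy
    rw [hz, map_sub] at h2
    exact sub_eq_zero.mp h2
  · rintro ⟨f, rfl⟩
    apply RDual.ext'
    intro x
    show RDual.toFun' f (π (ι x)) = 0
    rw [h.apply_apply_eq_zero, map_zero]

end Vale.Agent.Lib.P176
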