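import Mathlib
import Vale.Agent.Lib.P176.DellDual

/-!
The dual of a finitely generated free right module is an injective left module.
-/

universe u

namespace Vale.Agent.Lib.P176

open MulOpposite

variable {k : Type u} [Field k] {A : Type u} [Ring A] [Algebra k A]

/-- The action of a scalar of `k`, through `A`, on the dual. -/
theorem delldualinj_algebraMap_smul {M : Type u} [AddCommGroup M] [Module k M] [Module Aᵐᵒᵖ M]
    [IsScalarTower k Aᵐᵒᵖ M] (c : k) (f : RDual k M) (x : M) :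
    RDual.toFun' (algebraMap k A c • f) x = c * RDual.toFun' f x := by
  rw [RDual.toFun'_smul, ← MulOpposite.algebraMap_apply, algebraMap_smul, map_smul, smul_eq_mul]

/-- A functional on `A` extending the `l`-th coordinate of a map from a left ideal to the
dual of the free module. -/
theorem delldualinj_extend (m : ℕ) (I : Ideal A) (g : I →ₗ[A] RDual k (Fin m → Aᵐᵒᵖ))
    (l : Fin m) :
    ∃ Ψ : A →ₗ[k] k, ∀ (a : A) (ha : a ∈ I),
      Ψ a = RDual.toFun' (g ⟨a, ha⟩) (Pi.single l (1 : Aᵐᵒᵖ)) := by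
  classical
  let ψ : (I.restrictScalars k) →ₗ[k] k :=
    { toFun := fun i => RDual.toFun' (g ⟨i.1, i.2⟩) (Pi.single l (1 : Aᵐᵒᵖ))
      map_add' := by
        intro i j
        have h1 : (⟨(i + j).1, (i + j).2⟩ : I) = ⟨i.1, i.2⟩ + ⟨j.1, j.2⟩ := rfl
        rw [h1, map_add, RDual.toFun'_add]
      map_smul' := by
        intro c i
        have h1 : (⟨(c • i).1, (c • i).2⟩ : I) = algebraMap k A c • (⟨i.1, i.2⟩ : I) := by
          apply Subtype.ext
          show c • i.1 = algebraMap k A c * i.1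
          rw [Algebra.smul_def]
        rw [h1, map_smul, delldualinj_algebraMap_smul]
        rfl }
  obtain ⟨Ψ, hΨ⟩ := LinearMap.exists_extend ψ
  refine ⟨Ψ, fun a ha => ?_⟩
  have h2 := congrArg (fun f => f ⟨a, ha⟩) hΨ
  exact h2

/-- The dual of the free right module of rank `m` is injective. -/
theorem RDual.injective_pi (m : ℕ) : Module.Injective A (RDual k (Fin m → Aᵐᵒᵖ)) := by
  classical
  apply Module.Baer.injective
  intro I g
  choose Ψ hΨ using fun l : Fin m => delldualinj_extend m I g l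
  let φ : RDual k (Fin m → Aᵐᵒᵖ) := RDual.of
    (∑ l, (Ψ l) ∘ₗ (MulOpposite.opLinearEquiv k : A ≃ₗ[k] Aᵐᵒᵖ).symm.toLinearMap ∘ₗ
      (LinearMap.proj l : (Fin m → Aᵐᵒᵖ) →ₗ[k] Aᵐᵒᵖ))
  have hφ : ∀ y : Fin m → Aᵐᵒᵖ, RDual.toFun' φ y = ∑ l, Ψ l (unop (y l)) := by
    intro y
    simp [φ, LinearMap.sum_apply]
  refine ⟨LinearMap.toSpanSingleton A _ φ, fun a ha => ?_⟩
  apply RDual.ext'
  intro y
  rw [LinearMap.toSpanSingleton_apply, RDual.toFun'_smul, hφ]
  have hy : y = ∑ l, y l • (Pi.single l (1 : Aᵐᵒᵖ) : Fin m → Aᵐᵒᵖ) := by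
    funext j
    simp [Finset.sum_apply, Pi.single_apply]
  conv_rhs => rw [hy, map_sum]
  apply Finset.sum_congr rfl
  intro l _
  have h1 : unop ((op a • y) l) = unop (y l) * a := by simp
  rw [h1, hΨ l _ (I.mul_mem_left _ ha)]
  have h2 : (⟨unop (y l) * a, I.mul_mem_left _ ha⟩ : I) = unop (y l) • (⟨a, ha⟩ : I) := rfl
  rw [h2, map_smul, RDual.toFun'_smul, op_unop]

end Vale.Agent.Lib.P176
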