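import Mathlib
import Vale.Agent.Lib.P176.DellDual

/-!
A finitely generated right module over a finite-dimensional algebra whose dual is an injective
left module is projective.
-/

universe u

namespace Vale.Agent.Lib.P176

open MulOpposite

variable {k : Type u} [Field k] {A : Type u} [Ring A] [Algebra k A] [Module.Finite k A]
variable {M : Type u} [AddCommGroup M] [Module k M] [Module Aᵐᵒᵖ M] [IsScalarTower k Aᵐᵒᵖ M]

omit [Module.Finite k A] in
/-- The element of the dual given by a scalar multiple of a functional is the multiple by the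
image of the scalar in the algebra. -/
theorem delldualproj_of_smul {N : Type u} [AddCommGroup N] [Module k N] [Module Aᵐᵒᵖ N]
    [IsScalarTower k Aᵐᵒᵖ N] (c : k) (g : N →ₗ[k] k) :
    RDual.of (c • g) = algebraMap k A c • RDual.of g := by
  apply RDual.ext'
  intro y
  rw [RDual.toFun'_smul, RDual.toFun'_of, RDual.toFun'_of, ← MulOpposite.algebraMap_apply,
    algebraMap_smul, LinearMap.smul_apply, map_smul]

omit [Module.Finite k A] in
/-- Evaluation of a multiple by the image of a scalar. -/
theorem delldualproj_toFun'_algebraMap_smul {N : Type u} [AddCommGroup N] [Module k N]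
    [Module Aᵐᵒᵖ N] [IsScalarTower k Aᵐᵒᵖ N] (c : k) (f : RDual k N) (x : N) :
    RDual.toFun' (algebraMap k A c • f) x = c • RDual.toFun' f x := by
  rw [RDual.toFun'_smul, ← MulOpposite.algebraMap_apply, algebraMap_smul, map_smul]

/-- If the dual of a finitely generated right module is injective, the module is projective. -/
theorem projective_of_injective_rdual [Module.Finite Aᵐᵒᵖ M]
    (h : Module.Injective A (RDual k M)) : Module.Projective Aᵐᵒᵖ M := by
  obtain ⟨m, π, hπ⟩ := Module.Finite.exists_fin' Aᵐᵒᵖ M
  have hfinop : Module.Finite k Aᵐᵒᵖ := Module.Finite.equiv (MulOpposite.opLinearEquiv k)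
  have hfinF : Module.Finite k (Fin m → Aᵐᵒᵖ) := inferInstance
  -- the transpose of the presentation is injective
  have hT : Function.Injective (RDual.map (k := k) (A := A) π) := by
    intro f g hfg
    apply RDual.ext'
    intro x
    obtain ⟨y, rfl⟩ := hπ x
    have := congrArg (fun q => RDual.toFun' q y) hfg
    simpa using this
  obtain ⟨ρ, hρ⟩ := h.out (RDual.map (k := k) (A := A) π) hT LinearMap.id
  -- the functional on the dual of the free module attached to a point
  let L : M → ((Fin m → Aᵐᵒᵖ) →ₗ[k] k) →ₗ[k] k := fun x =>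
    { toFun := fun g => RDual.toFun' (ρ (RDual.of g)) x
      map_add' := by
        intro g g'
        have : RDual.of (g + g') = RDual.of g + RDual.of g' := rfl
        rw [this, map_add, RDual.toFun'_add]
      map_smul' := by
        intro c g
        rw [delldualproj_of_smul (A := A), map_smul, delldualproj_toFun'_algebraMap_smul]
        rfl }
  let σ : M → (Fin m → Aᵐᵒᵖ) := fun x => (Module.evalEquiv k (Fin m → Aᵐᵒᵖ)).symm (L x)
  have hσ : ∀ (x : M) (g : (Fin m → Aᵐᵒᵖ) →ₗ[k] k), g (σ x) = RDual.toFun' (ρ (RDual.of g)) x := by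
    intro x g
    exact Module.apply_evalEquiv_symm_apply k (Fin m → Aᵐᵒᵖ) g (L x)
  have hsep : ∀ v w : (Fin m → Aᵐᵒᵖ), (∀ g : (Fin m → Aᵐᵒᵖ) →ₗ[k] k, g v = g w) → v = w := by
    intro v w hvw
    rw [← sub_eq_zero]
    apply (Module.forall_dual_apply_eq_zero_iff k (v - w)).mp
    intro g
    rw [map_sub, sub_eq_zero]
    exact hvw g
  have hadd : ∀ x y, σ (x + y) = σ x + σ y := by
    intro x y
    apply hsep
    intro g
    rw [map_add, hσ, hσ, hσ, map_add]
  have hsmul : ∀ (b : Aᵐᵒᵖ) (x : M), σ (b • x) = b • σ x := by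
    intro b x
    apply hsep
    intro g
    have h1 : g (σ (b • x)) = RDual.toFun' (ρ (RDual.of g)) (op (unop b) • x) := by
      rw [hσ, op_unop]
    have h2 : g (b • σ x) = (RDual.toFun' (unop b • RDual.of g)) (σ x) := by
      rw [RDual.toFun'_smul, op_unop, RDual.toFun'_of]
    rw [h1, h2, hσ, RDual.of_toFun',
      show ρ (unop b • RDual.of g) = unop b • ρ (RDual.of g) from map_smul ρ _ _,
      RDual.toFun'_smul]
  let σ' : M →ₗ[Aᵐᵒᵖ] (Fin m → Aᵐᵒᵖ) :=
    { toFun := σ
      map_add' := hadd
      map_smul' := hsmul }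
  have hsplit : π ∘ₗ σ' = LinearMap.id := by
    apply LinearMap.ext
    intro x
    show π (σ x) = x
    rw [← sub_eq_zero]
    apply (Module.forall_dual_apply_eq_zero_iff k (π (σ x) - x)).mp
    intro f
    have h1 : f (π (σ x)) = (f.comp (π.restrictScalars k)) (σ x) := rfl
    have h2 : RDual.of (f.comp (π.restrictScalars k)) = RDual.map (k := k) (A := A) π (RDual.of f) :=
      rfl
    rw [map_sub, h1, hσ, h2, hρ]
    simp
  exact Module.Projective.of_split σ' π hsplit

end Vale.Agent.Lib.P176
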