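import Mathlib
import Vale.Agent.Lib.P176.Dell

/-!
The delooping-level bound in its syzygy form: if for every simple module `S` some syzygy
`Ω^m S` with `m ≤ n` is a direct summand of `Ω^(m+1) X ⊞ Q` with `Q` projective, then every
module of finite injective dimension has injective dimension at most `n`.
-/

universe u

namespace Vale.Agent.Lib.P176

open CategoryTheory Abelian Limits

variable {A : Type u} [Ring A]

/-- The short complex `0 → Ω^(j+1) → P_j → Ω^j → 0` of a projective resolution, where `Ω^j` is
the cokernel of the differential `P_(j+1) → P_j`. -/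
noncomputable def syzSC {T : ModuleCat.{u} A} (P : ProjectiveResolution T) (j : ℕ) :
    ShortComplex (ModuleCat.{u} A) :=
  ShortComplex.mk
    (cokernel.desc (P.complex.d (j + 2) (j + 1)) (P.complex.d (j + 1) j)
      (P.complex.d_comp_d (j + 2) (j + 1) j))
    (cokernel.π (P.complex.d (j + 1) j))
    (by
      apply (cancel_epi (cokernel.π (P.complex.d (j + 2) (j + 1)))).mp
      simp)

theorem syzSC_shortExact {T : ModuleCat.{u} A} (P : ProjectiveResolution T) (j : ℕ) :
    (syzSC P j).ShortExact := by
  have hmono : Mono (syzSC P j).f := (P.exact_succ j).mono_cokernelDesc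
  have hepi : Epi (syzSC P j).g := by
    dsimp [syzSC]
    infer_instance
  have hex : (syzSC P j).Exact := by
    apply ShortComplex.exact_of_g_is_cokernel
    exact isCokernelOfComp (f := (syzSC P j).f) (cokernel.π (P.complex.d (j + 2) (j + 1)))
      (P.complex.d (j + 1) j) (cokernelIsCokernel (P.complex.d (j + 1) j)) (syzSC P j).zero
      (by simp [syzSC])
  exact { exact := hex }

/-- One step up a projective resolution: a nonzero class in `Ext X₃ N (1+i)` comes from a
nonzero class in `Ext X₁ N i` when the middle term is projective. -/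
theorem exists_ne_zero_up_left {S : ShortComplex (ModuleCat.{u} A)} (hS : S.ShortExact)
    (hproj : Projective S.X₂) (N : ModuleCat.{u} A) (i : ℕ)
    (h : ∃ x : Ext S.X₃ N (i + 1), x ≠ 0) : ∃ y : Ext S.X₁ N i, y ≠ 0 := by
  obtain ⟨x, hx⟩ := h
  have h0 : (Ext.mk₀ S.g).comp x (zero_add (i + 1)) = 0 := Ext.eq_zero_of_projective _
  obtain ⟨y, hy⟩ := Ext.contravariant_sequence_exact₃ hS N x h0 (add_comm 1 i)
  refine ⟨y, ?_⟩
  rintro rfl
  rw [Ext.comp_zero] at hy
  exact hx hy.symm

/-- One step down: in positive degree, a nonzero class in `Ext X₁ N i` gives a nonzero class in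
`Ext X₃ N (i+1)` when the middle term is projective. -/
theorem exists_ne_zero_down_left {S : ShortComplex (ModuleCat.{u} A)} (hS : S.ShortExact)
    (hproj : Projective S.X₂) (N : ModuleCat.{u} A) (i : ℕ) (hi : 1 ≤ i)
    (h : ∃ y : Ext S.X₁ N i, y ≠ 0) : ∃ x : Ext S.X₃ N (i + 1), x ≠ 0 := by
  obtain ⟨y, hy⟩ := h
  refine ⟨hS.extClass.comp y (add_comm 1 i), ?_⟩
  intro h0
  obtain ⟨z, hz⟩ := Ext.contravariant_sequence_exact₁ hS N y (add_comm 1 i) h0
  obtain ⟨i', rfl⟩ : ∃ i', i = i' + 1 := ⟨i - 1, by omega⟩
  have hz0 : z = 0 := Ext.eq_zero_of_projective _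
  rw [hz0, Ext.comp_zero] at hz
  exact hy hz.symm

/-- Nonvanishing passes from a retract to the ambient object (first variable). -/
theorem exists_ne_zero_of_retract_left {X Y : ModuleCat.{u} A} (r : Retract X Y)
    (N : ModuleCat.{u} A) (i : ℕ) (h : ∃ x : Ext X N i, x ≠ 0) : ∃ y : Ext Y N i, y ≠ 0 := by
  obtain ⟨x, hx⟩ := h
  refine ⟨(Ext.mk₀ r.r).comp x (zero_add i), ?_⟩
  intro h0
  apply hx
  have h1 : (Ext.mk₀ r.i).comp ((Ext.mk₀ r.r).comp x (zero_add i)) (zero_add i) = x := by
    rw [← Ext.comp_assoc_of_second_deg_zero, Ext.mk₀_comp_mk₀, r.retract, Ext.mk₀_id_comp]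
  rw [← h1, h0, Ext.comp_zero]

/-- In positive degree a projective summand carries no `Ext`. -/
theorem exists_ne_zero_of_biprod_left {C Q : ModuleCat.{u} A} (hQ : Projective Q)
    (N : ModuleCat.{u} A) (i : ℕ) (hi : 1 ≤ i) (h : ∃ y : Ext (C ⊞ Q) N i, y ≠ 0) :
    ∃ z : Ext C N i, z ≠ 0 := by
  obtain ⟨y, hy⟩ := h
  refine ⟨(Ext.mk₀ biprod.inl).comp y (zero_add i), ?_⟩
  intro h0
  apply hy
  obtain ⟨i', rfl⟩ : ∃ i', i = i' + 1 := ⟨i - 1, by omega⟩
  have h2 : (Ext.mk₀ (biprod.inr : Q ⟶ C ⊞ Q)).comp y (zero_add (i' + 1)) = 0 :=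
    Ext.eq_zero_of_projective _
  have h1 : y = (Ext.mk₀ (𝟙 (C ⊞ Q))).comp y (zero_add (i' + 1)) := (Ext.mk₀_id_comp y).symm
  rw [h1, ← biprod.total, Ext.mk₀_add, Ext.add_comp, ← Ext.mk₀_comp_mk₀, ← Ext.mk₀_comp_mk₀,
    Ext.comp_assoc_of_second_deg_zero, Ext.comp_assoc_of_second_deg_zero, h0, h2,
    Ext.comp_zero, Ext.comp_zero, add_zero]

/-- The module itself is the zeroth syzygy. -/
noncomputable def syzZeroIso {T : ModuleCat.{u} A} (P : ProjectiveResolution T) :
    cokernel (P.complex.d 1 0) ≅ T :=
  IsColimit.coconePointUniqueUpToIso (colimit.isColimit _) P.isColimitCokernelCofork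

theorem up_chain_left {T : ModuleCat.{u} A} (P : ProjectiveResolution T) (N : ModuleCat.{u} A) :
    ∀ (m i k : ℕ), k = i + m → (∃ x : Ext (cokernel (P.complex.d 1 0)) N k, x ≠ 0) →
      ∃ y : Ext (cokernel (P.complex.d (m + 1) m)) N i, y ≠ 0 := by
  intro m
  induction m with
  | zero =>
    intro i k hk h
    subst hk
    exact h
  | succ m ih =>
    intro i k hk h
    have h1 := ih (i + 1) k (by omega) h
    exact exists_ne_zero_up_left (syzSC_shortExact P m) (P.projective m) N i h1

theorem down_chain_left {T : ModuleCat.{u} A} (P : ProjectiveResolution T)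
    (N : ModuleCat.{u} A) :
    ∀ (m i k : ℕ), 1 ≤ i → k = i + m →
      (∃ y : Ext (cokernel (P.complex.d (m + 1) m)) N i, y ≠ 0) →
      ∃ x : Ext (cokernel (P.complex.d 1 0)) N k, x ≠ 0 := by
  intro m
  induction m with
  | zero =>
    intro i k _ hk h
    subst hk
    exact h
  | succ m ih =>
    intro i k hi hk h
    have h1 := exists_ne_zero_down_left (syzSC_shortExact P m) (P.projective m) N i hi h
    exact ih (i + 1) k (by omega) (by omega) h1

/-- The key step: a nonzero top-degree class from a simple module whose `m`-th syzygy is a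
stable retract of an `(m+1)`-st syzygy bounds the degree by `m`. -/
theorem le_of_syzygy_retract {N T X Q : ModuleCat.{u} A} {d m : ℕ}
    (hN : HasInjectiveDimensionLT N (d + 1)) (P : ProjectiveResolution T)
    (P' : ProjectiveResolution X) (hQ : Projective Q)
    (r : Retract (cokernel (P.complex.d (m + 1) m))
      (cokernel (P'.complex.d (m + 2) (m + 1)) ⊞ Q))
    (x : Ext T N d) (hx : x ≠ 0) : d ≤ m := by
  by_contra hdm
  have h0 : ∃ y : Ext (cokernel (P.complex.d 1 0)) N d, y ≠ 0 :=
    exists_ne_zero_of_retract_left (Retract.ofIso (syzZeroIso P).symm) N d ⟨x, hx⟩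
  have h1 := up_chain_left P N m (d - m) d (by omega) h0
  have h2 := exists_ne_zero_of_retract_left r N (d - m) h1
  have h3 := exists_ne_zero_of_biprod_left hQ N (d - m) (by omega) h2
  have h4 := down_chain_left P' N (m + 1) (d - m) (d + 1) (by omega) (by omega) h3
  obtain ⟨y, hy⟩ := exists_ne_zero_of_retract_left (Retract.ofIso (syzZeroIso P')) N (d + 1) h4
  exact hy (Ext.eq_zero_of_hasInjectiveDimensionLT y (d + 1) le_rfl)


/-- A bound valid for nonzero top-degree classes out of simple modules is valid for modules of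
finite length in the first variable. -/
theorem le_of_isFiniteLength_of_simple_left {c : ℕ} {N : ModuleCat.{u} A} {d : ℕ}
    (hs : ∀ S : ModuleCat.{u} A, IsSimpleModule A S → ∀ x : Ext S N d, x ≠ 0 → d ≤ c)
    (X : Type u) [AddCommGroup X] [Module A X] (hX : IsFiniteLength A X)
    (x : Ext (ModuleCat.of A X) N d) (hx : x ≠ 0) : d ≤ c := by
  induction hX with
  | @of_subsingleton X _ _ hsub =>
    exfalso
    apply hx
    have hz : Limits.IsZero (ModuleCat.of A X) := ModuleCat.isZero_of_subsingleton _
    rw [← x.mk₀_id_comp, hz.eq_zero_of_src (𝟙 _), Ext.mk₀_zero, Ext.zero_comp]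
  | @of_simple_quotient X _ _ Y hsimple hY ih =>
    have hSE : (ModuleCat.shortComplexOfCompEqZero Y.subtype Y.mkQ
        (LinearMap.exact_subtype_mkQ Y).linearMap_comp_eq_zero).ShortExact :=
      ModuleCat.shortComplex_shortExact _ (LinearMap.exact_subtype_mkQ Y)
        Y.injective_subtype (Submodule.mkQ_surjective Y)
    by_cases hxf : (Ext.mk₀ (ModuleCat.ofHom Y.subtype)).comp x (zero_add d) = 0
    · obtain ⟨y, hy⟩ := Ext.contravariant_sequence_exact₂ hSE N x hxf
      apply hs (ModuleCat.of A (X ⧸ Y)) hsimple y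
      rintro rfl
      rw [Ext.comp_zero] at hy
      exact hx hy.symm
    · exact ih _ hxf

/-- A module `N` has injective dimension at most `n` as soon as `Ext X N (n + 1)` vanishes for
all finitely generated `X` (Baer's criterion and dimension shifting). -/
theorem hasInjectiveDimensionLT_of_finite_ext (n : ℕ) :
    ∀ (N : ModuleCat.{u} A),
      (∀ (X : Type u) [AddCommGroup X] [Module A X], Module.Finite A X →
        ∀ x : Ext (ModuleCat.of A X) N (n + 1), x = 0) →
      HasInjectiveDimensionLT N (n + 1) := by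
  induction n with
  | zero =>
    intro N hvan
    have hbaer : Module.Baer A N := by
      intro I g
      have hSE : (ModuleCat.shortComplexOfCompEqZero I.subtype I.mkQ
          (LinearMap.exact_subtype_mkQ I).linearMap_comp_eq_zero).ShortExact :=
        ModuleCat.shortComplex_shortExact _ (LinearMap.exact_subtype_mkQ I)
          I.injective_subtype (Submodule.mkQ_surjective I)
      have hfin : Module.Finite A (A ⧸ I) := inferInstance
      obtain ⟨x₂, hx₂⟩ := Ext.contravariant_sequence_exact₁ hSE N
        (Ext.mk₀ (ModuleCat.ofHom g)) (rfl : 1 + 0 = 1) (hvan _ hfin _)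
      obtain ⟨φ, rfl⟩ := (Ext.mk₀_bijective _ _).2 x₂
      rw [Ext.mk₀_comp_mk₀] at hx₂
      have hφ := (Ext.mk₀_bijective _ _).1 hx₂
      refine ⟨φ.hom, fun x mem => ?_⟩
      have h := congrArg (fun ψ => ψ.hom (⟨x, mem⟩ : I)) hφ
      exact h
    have hinj : Module.Injective A N := hbaer.injective
    have hobj : Injective (ModuleCat.of A N) := (Module.injective_iff_injective_object A N).mp hinj
    have hobj' : Injective N := hobj
    infer_instance
  | succ n ih =>
    intro N hvan
    obtain ⟨p⟩ := EnoughInjectives.presentation N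
    have hmono : Mono p.f := p.mono
    have hJ : Injective p.J := p.injective
    have hSE : (ShortComplex.mk p.f (cokernel.π p.f) (cokernel.condition p.f)).ShortExact :=
      { exact := ShortComplex.exact_cokernel p.f }
    have h3 : HasInjectiveDimensionLT (cokernel p.f) (n + 1) := by
      apply ih
      intro X _ _ hX y
      obtain ⟨z, hz⟩ := Ext.covariant_sequence_exact₃ (ModuleCat.of A X) hSE y
        (rfl : n + 1 + 1 = n + 1 + 1) (hvan X hX _)
      have hz0 : z = 0 := Ext.eq_zero_of_injective _
      rw [← hz, hz0, Ext.zero_comp]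
    exact (hSE.hasInjectiveDimensionLT_X₃_iff n hJ).mp h3

/-- Over a left Artinian ring: if every nonzero top-degree class out of a simple module lives in
degree at most `c`, then a module of finite injective dimension has injective dimension at most
`c`. -/
theorem hasInjectiveDimensionLE_of_simple_bound [IsArtinianRing A] (c : ℕ)
    (N : ModuleCat.{u} A)
    (hs : ∀ d : ℕ, HasInjectiveDimensionLT N (d + 1) →
      ∀ S : ModuleCat.{u} A, IsSimpleModule A S → ∀ x : Ext S N d, x ≠ 0 → d ≤ c)
    (n : ℕ) (hN : HasInjectiveDimensionLE N n) : HasInjectiveDimensionLE N c := by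
  have key : ∀ m : ℕ, c + 1 ≤ m → HasInjectiveDimensionLT N (m + 1) →
      HasInjectiveDimensionLT N m := by
    intro m hm hNm
    obtain ⟨m', rfl⟩ : ∃ m', m = m' + 1 := ⟨m - 1, by omega⟩
    apply hasInjectiveDimensionLT_of_finite_ext m' N
    intro X _ _ hX x
    by_contra hx
    have hfl : IsFiniteLength A X := isFiniteLength_iff_isNoetherian_isArtinian.mpr
      ⟨inferInstance, inferInstance⟩
    have := le_of_isFiniteLength_of_simple_left (hs (m' + 1) hNm) X hfl x hx
    omega
  have down : ∀ k : ℕ, HasInjectiveDimensionLT N (c + 1 + k) →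
      HasInjectiveDimensionLT N (c + 1) := by
    intro k
    induction k with
    | zero => exact fun hk => hk
    | succ k ih => exact fun hk => ih (key (c + 1 + k) (by omega) hk)
  by_cases hn : n ≤ c
  · exact hasInjectiveDimensionLT_of_ge N (n + 1) (c + 1) (by omega)
  · have hN' : HasInjectiveDimensionLT N (c + 1 + (n - c)) := by
      have : c + 1 + (n - c) = n + 1 := by omega
      rw [this]
      exact hN
    exact down (n - c) hN'

/-- **Delooping-level bound, syzygy form.**  Let `A` be a left Artinian ring and `n : ℕ`.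
Suppose that for every simple module `S` there are `m ≤ n`, a module `X`, projective resolutions
of `S` and `X` and a projective module `Q` such that the `m`-th syzygy of `S` is a retract of the
direct sum of the `(m+1)`-st syzygy of `X` and `Q`.  Then every module of finite injective
dimension has injective dimension at most `n`. -/
theorem fininjdim_le_of_syzygy_delooping (A : Type u) [Ring A] [IsArtinianRing A] (n : ℕ)
    (h : ∀ S : ModuleCat.{u} A, IsSimpleModule A S →
      ∃ (m : ℕ) (X Q : ModuleCat.{u} A) (P : ProjectiveResolution S)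
        (P' : ProjectiveResolution X),
        m ≤ n ∧ Projective Q ∧
        Nonempty (Retract (cokernel (P.complex.d (m + 1) m))
          (cokernel (P'.complex.d (m + 2) (m + 1)) ⊞ Q)))
    (N : ModuleCat.{u} A) (d : ℕ)
    (hN : HasInjectiveDimensionLE N d) : HasInjectiveDimensionLE N n := by
  refine hasInjectiveDimensionLE_of_simple_bound n N ?_ d hN
  intro e hNe S hS x hx
  obtain ⟨m, X, Q, P, P', hmn, hQ, ⟨r⟩⟩ := h S hS
  exact le_trans (le_of_syzygy_retract hNe P P' hQ r x hx) hmn

end Vale.Agent.Lib.P176
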