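import Mathlib
import Vale.Agent.Lib.P176.DellSyz
import Vale.Agent.Lib.P176.DellDual
import Vale.Agent.Lib.P176.DellDualExact
import Vale.Agent.Lib.P176.DellDualInj
import Vale.Agent.Lib.P176.DellDualProj

/-!
The delooping-level bound for the opposite algebra: for a finite-dimensional algebra `A` over a
field, if the delooping level of `A` (computed with simple left modules) is at most `n`, then every
finitely generated right module of finite projective dimension has projective dimension at most
`n`.
-/

universe u

namespace Vale.Agent.Lib.P176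

open CategoryTheory Abelian Limits MulOpposite

variable {k : Type u} [Field k] {A : Type u} [Ring A] [Algebra k A]

/-- The dual of a finitely generated projective right module is an injective left module. -/
theorem injective_rdual_of_projective (M : Type u) [AddCommGroup M] [Module k M]
    [Module Aᵐᵒᵖ M] [IsScalarTower k Aᵐᵒᵖ M] [Module.Finite Aᵐᵒᵖ M]
    [Module.Projective Aᵐᵒᵖ M] : Module.Injective A (RDual k M) := by
  obtain ⟨m, π, hπ⟩ := Module.Finite.exists_fin' Aᵐᵒᵖ M
  obtain ⟨s, hs⟩ := Module.projective_lifting_property π LinearMap.id hπ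
  have hF : Module.Injective A (RDual k (Fin m → Aᵐᵒᵖ)) := RDual.injective_pi m
  constructor
  intro X Y _ _ _ _ f hf g
  obtain ⟨h₀, hh₀⟩ := hF.out f hf ((RDual.map (k := k) π) ∘ₗ g)
  refine ⟨(RDual.map (k := k) s) ∘ₗ h₀, fun x => ?_⟩
  show RDual.map s (h₀ (f x)) = g x
  rw [hh₀]
  show (RDual.map s ∘ₗ RDual.map π) (g x) = g x
  rw [← RDual.map_comp, hs, RDual.map_id]
  rfl

theorem isNoetherianRing_op [Module.Finite k A] : IsNoetherianRing Aᵐᵒᵖ := by
  have hfin : Module.Finite k Aᵐᵒᵖ := Module.Finite.equiv (MulOpposite.opLinearEquiv k)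
  have h1 : IsNoetherian k Aᵐᵒᵖ := inferInstance
  exact isNoetherian_of_tower k h1

/-- Projective dimension of a finitely generated right module equals injective dimension of its
dual. -/
theorem pdLT_iff_idLT_rdual [Module.Finite k A] : ∀ (n : ℕ) (M : Type u) [AddCommGroup M]
    [Module k M] [Module Aᵐᵒᵖ M] [IsScalarTower k Aᵐᵒᵖ M] [Module.Finite Aᵐᵒᵖ M],
    HasProjectiveDimensionLT (ModuleCat.of Aᵐᵒᵖ M) (n + 1) ↔
      HasInjectiveDimensionLT (ModuleCat.of A (RDual k M)) (n + 1) := by
  intro n
  induction n with
  | zero =>
    intro M _ _ _ _ _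
    rw [← projective_iff_hasProjectiveDimensionLT_one, ← injective_iff_hasInjectiveDimensionLT_one,
      ← IsProjective.iff_projective, ← Module.injective_iff_injective_object]
    exact ⟨fun h => injective_rdual_of_projective M, fun h => projective_of_injective_rdual h⟩
  | succ n ih =>
    intro M _ _ _ _ _
    obtain ⟨m, π, hπ⟩ := Module.Finite.exists_fin' Aᵐᵒᵖ M
    have hSE := LinearMap.shortExact_shortComplexKer hπ
    have hproj : Projective (LinearMap.shortComplexKer π).X₂ :=
      ModuleCat.projective_of_free (Pi.basisFun Aᵐᵒᵖ (Fin m))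
    have hnoeth : IsNoetherianRing Aᵐᵒᵖ := isNoetherianRing_op (k := k)
    have hK : Module.Finite Aᵐᵒᵖ (LinearMap.ker π) := inferInstance
    have hex : Function.Exact (LinearMap.ker π).subtype π := fun x => by simp
    have hcomp : (RDual.map (k := k) (LinearMap.ker π).subtype).comp (RDual.map (k := k) π) = 0 :=
      (RDual.map_exact (LinearMap.ker π).subtype π hπ hex).linearMap_comp_eq_zero
    have hD : (ModuleCat.shortComplexOfCompEqZero (RDual.map (k := k) π)
        (RDual.map (k := k) (LinearMap.ker π).subtype) hcomp).ShortExact :=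
      ModuleCat.shortComplex_shortExact _ (RDual.map_exact (LinearMap.ker π).subtype π hπ hex)
        (RDual.map_injective π hπ)
        (RDual.map_surjective (LinearMap.ker π).subtype (LinearMap.ker π).injective_subtype)
    have hJ : Injective (ModuleCat.of A (RDual k (Fin m → Aᵐᵒᵖ))) :=
      (Module.injective_iff_injective_object _ _).mp (RDual.injective_pi m)
    exact (hSE.hasProjectiveDimensionLT_X₃_iff n hproj).trans
      ((ih (LinearMap.ker π)).trans (hD.hasInjectiveDimensionLT_X₃_iff n hJ))

/-- **Delooping-level bound for the opposite algebra.**  Let `A` be a finite-dimensional algebra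
over a field `k` and `n : ℕ`.  Suppose that for every simple left `A`-module `S` there are
`m ≤ n`, a module `X`, projective resolutions of `S` and `X` and a projective module `Q` such that
the `m`-th syzygy of `S` is a retract of the direct sum of the `(m+1)`-st syzygy of `X` and `Q`.
Then every finitely generated right `A`-module of finite projective dimension has projective
dimension at most `n`. -/
theorem findim_op_le_dell (k : Type u) [Field k] (A : Type u) [Ring A] [Algebra k A]
    [Module.Finite k A] (n : ℕ)
    (h : ∀ S : ModuleCat.{u} A, IsSimpleModule A S →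
      ∃ (m : ℕ) (X Q : ModuleCat.{u} A) (P : ProjectiveResolution S)
        (P' : ProjectiveResolution X),
        m ≤ n ∧ Projective Q ∧
        Nonempty (Retract (cokernel (P.complex.d (m + 1) m))
          (cokernel (P'.complex.d (m + 2) (m + 1)) ⊞ Q)))
    (M : ModuleCat.{u} Aᵐᵒᵖ) (hfin : Module.Finite Aᵐᵒᵖ M) (d : ℕ)
    (hM : HasProjectiveDimensionLE M d) : HasProjectiveDimensionLE M n := by
  let _ : Module k M := Module.compHom M (algebraMap k Aᵐᵒᵖ)
  have _ : IsScalarTower k Aᵐᵒᵖ M := ⟨fun c a x => by
    show (c • a) • x = algebraMap k Aᵐᵒᵖ c • (a • x)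
    rw [Algebra.smul_def, mul_smul]⟩
  have _ : IsArtinianRing A := IsArtinianRing.of_finite k A
  have h1 : HasInjectiveDimensionLE (ModuleCat.of A (RDual k M)) d :=
    (pdLT_iff_idLT_rdual d M).mp hM
  have h2 := fininjdim_le_of_syzygy_delooping A n h _ d h1
  exact (pdLT_iff_idLT_rdual n M).mpr h2

end Vale.Agent.Lib.P176
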