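import Mathlib
import Vale.Agent.Lib.P176.ITBasic

/-!
The Fitting argument at the heart of the Igusa-Todorov theorem.
-/

universe u

namespace Vale.Agent.Lib.P176

open CategoryTheory Abelian

variable {R : Type u} [Ring R]

/-- A one-sided inverse modulo a map through a projective module gives a one-sided inverse on
`Ext` in positive degrees. -/
theorem itfit_pull_inv {A B Q : Type u} [AddCommGroup A] [Module R A] [AddCommGroup B]
    [Module R B] [AddCommGroup Q] [Module R Q] [Module.Projective R Q]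
    (a : A →ₗ[R] B) (b : B →ₗ[R] A) (φ : A →ₗ[R] Q) (ψ : Q →ₗ[R] A)
    (hab : b ∘ₗ a + ψ ∘ₗ φ = LinearMap.id) {N : ModuleCat.{u} R} {i : ℕ} (hi : 1 ≤ i)
    (x : Ext (ModuleCat.of R A) N i) : pull a (pull b x) = x := by
  have h1 := pull_add (b ∘ₗ a) (ψ ∘ₗ φ) x
  rw [hab, pull_id, pull_comp, pull_through_projective φ ψ hi x, add_zero] at h1
  exact h1.symm

/-- The two maps extracted from an isomorphism of products compose to the identity up to a map
through the second factor. -/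
theorem itfit_theta {W Y Q Q' : Type u} [AddCommGroup W] [Module R W] [AddCommGroup Y]
    [Module R Y] [AddCommGroup Q] [Module R Q] [AddCommGroup Q'] [Module R Q']
    (θ : (W × Q) ≃ₗ[R] (Y × Q')) :
    ((LinearMap.fst R W Q) ∘ₗ θ.symm.toLinearMap ∘ₗ (LinearMap.inl R Y Q')) ∘ₗ
        ((LinearMap.fst R Y Q') ∘ₗ θ.toLinearMap ∘ₗ (LinearMap.inl R W Q)) +
      ((LinearMap.fst R W Q) ∘ₗ θ.symm.toLinearMap ∘ₗ (LinearMap.inr R Y Q')) ∘ₗ
        ((LinearMap.snd R Y Q') ∘ₗ θ.toLinearMap ∘ₗ (LinearMap.inl R W Q)) = LinearMap.id := by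
  ext w
  simp only [LinearMap.add_apply, LinearMap.comp_apply, LinearEquiv.coe_coe, LinearMap.inl_apply,
    LinearMap.inr_apply, LinearMap.fst_apply, LinearMap.snd_apply, LinearMap.id_apply]
  rw [← Prod.fst_add, ← map_add]
  have e : (((θ (w, 0)).1, (0 : Q')) + ((0 : Y), (θ (w, 0)).2) : Y × Q') = θ (w, 0) := by
    ext <;> simp
  rw [e, LinearEquiv.symm_apply_apply]

/-- A stable isomorphism induces mutually inverse bijections on `Ext` in positive degrees. -/
theorem itfit_stiso_pull {W Y : Type u} [AddCommGroup W] [Module R W] [AddCommGroup Y]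
    [Module R Y] (hst : StIso R W Y) :
    ∃ (h : W →ₗ[R] Y) (h' : Y →ₗ[R] W),
      (∀ (N : ModuleCat.{u} R) (i : ℕ), 1 ≤ i → ∀ x : Ext (ModuleCat.of R W) N i,
        pull h (pull h' x) = x) ∧
      (∀ (N : ModuleCat.{u} R) (i : ℕ), 1 ≤ i → ∀ y : Ext (ModuleCat.of R Y) N i,
        pull h' (pull h y) = y) := by
  obtain ⟨Q, Q', hQp, hQf, hQ'p, hQ'f, ⟨θ⟩⟩ := hst
  refine ⟨(LinearMap.fst R Y Q') ∘ₗ θ.toLinearMap ∘ₗ (LinearMap.inl R W Q),
    (LinearMap.fst R W Q) ∘ₗ θ.symm.toLinearMap ∘ₗ (LinearMap.inl R Y Q'), ?_, ?_⟩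
  · intro N i hi x
    exact itfit_pull_inv _ _ _ _ (itfit_theta θ) hi x
  · intro N i hi y
    have h2 := itfit_theta θ.symm
    rw [LinearEquiv.symm_symm] at h2
    exact itfit_pull_inv _ _ _ _ h2 hi y

section Powers

variable {Y : Type u} [AddCommGroup Y] [Module R Y] {N : ModuleCat.{u} R} {i : ℕ}

theorem itfit_pow_inj (g : Y →ₗ[R] Y)
    (hinj : ∀ x : Ext (ModuleCat.of R Y) N i, pull g x = 0 → x = 0) (k : ℕ) :
    ∀ x : Ext (ModuleCat.of R Y) N i, pull (g ^ k) x = 0 → x = 0 := by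
  induction k with
  | zero =>
    intro x hx
    have h1 : pull (g ^ 0) x = x := pull_id x
    rw [h1] at hx
    exact hx
  | succ k ih =>
    intro x hx
    have h1 : g ^ (k + 1) = (g ^ k) ∘ₗ g := pow_succ g k
    rw [h1, pull_comp] at hx
    exact ih x (hinj _ hx)

theorem itfit_pow_surj (g : Y →ₗ[R] Y)
    (hsurj : ∀ z : Ext (ModuleCat.of R Y) N i, ∃ x : Ext (ModuleCat.of R Y) N i, pull g x = z)
    (k : ℕ) :
    ∀ z : Ext (ModuleCat.of R Y) N i, ∃ x : Ext (ModuleCat.of R Y) N i, pull (g ^ k) x = z := by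
  induction k with
  | zero =>
    intro z
    exact ⟨z, pull_id z⟩
  | succ k ih =>
    intro z
    obtain ⟨x1, hx1⟩ := hsurj z
    obtain ⟨x, hx⟩ := ih x1
    refine ⟨x, ?_⟩
    have h1 : g ^ (k + 1) = (g ^ k) ∘ₗ g := pow_succ g k
    rw [h1, pull_comp, hx, hx1]

theorem itfit_inj_of_pow (g : Y →ₗ[R] Y) (k : ℕ)
    (hinj : ∀ x : Ext (ModuleCat.of R Y) N i, pull (g ^ (k + 1)) x = 0 → x = 0) :
    ∀ x : Ext (ModuleCat.of R Y) N i, pull g x = 0 → x = 0 := by
  intro x hx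
  apply hinj
  have h1 : g ^ (k + 1) = g ∘ₗ (g ^ k) := pow_succ' g k
  rw [h1, pull_comp, hx, pull_zero]

theorem itfit_surj_of_pow (g : Y →ₗ[R] Y) (k : ℕ)
    (hsurj : ∀ z : Ext (ModuleCat.of R Y) N i, ∃ x : Ext (ModuleCat.of R Y) N i,
      pull (g ^ (k + 1)) x = z) :
    ∀ z : Ext (ModuleCat.of R Y) N i, ∃ x : Ext (ModuleCat.of R Y) N i, pull g x = z := by
  intro z
  obtain ⟨x, hx⟩ := hsurj z
  refine ⟨pull (g ^ k) x, ?_⟩
  have h1 : g ^ (k + 1) = (g ^ k) ∘ₗ g := pow_succ g k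
  rw [h1, pull_comp] at hx
  exact hx

/-- A bijective endomorphism acts bijectively on `Ext`. -/
theorem itfit_equiv_inj (E : Y →ₗ[R] Y) (hE : Function.Bijective E) :
    ∀ x : Ext (ModuleCat.of R Y) N i, pull E x = 0 → x = 0 := by
  intro x hx
  have h1 : E ∘ₗ (LinearEquiv.ofBijective E hE).symm.toLinearMap = LinearMap.id := by
    ext y
    simp
  have h2 := pull_comp E (LinearEquiv.ofBijective E hE).symm.toLinearMap x
  rw [h1, pull_id, hx, pull_zero] at h2
  exact h2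

theorem itfit_equiv_surj (E : Y →ₗ[R] Y) (hE : Function.Bijective E) :
    ∀ z : Ext (ModuleCat.of R Y) N i, ∃ x : Ext (ModuleCat.of R Y) N i, pull E x = z := by
  intro z
  have h1 : (LinearEquiv.ofBijective E hE).symm.toLinearMap ∘ₗ E = LinearMap.id := by
    ext y
    simp
  have h2 := pull_comp (LinearEquiv.ofBijective E hE).symm.toLinearMap E z
  rw [h1, pull_id] at h2
  exact ⟨_, h2.symm⟩

end Powers

/-- For an endomorphism `G` with complementary kernel and range, adding the projection onto the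
kernel gives an injective endomorphism. -/
theorem itfit_inj {Y : Type u} [AddCommGroup Y] [Module R Y] (G : Y →ₗ[R] Y)
    (hc : IsCompl (LinearMap.ker G) (LinearMap.range G)) :
    Function.Injective
      (G + (LinearMap.ker G).subtype ∘ₗ (LinearMap.ker G).projectionOnto (LinearMap.range G) hc) := by
  rw [← LinearMap.ker_eq_bot, LinearMap.ker_eq_bot']
  intro y hy
  have hy' : G y + (((LinearMap.ker G).projectionOnto (LinearMap.range G) hc y : LinearMap.ker G)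
      : Y) = 0 := hy
  have h1 : G y = - (((LinearMap.ker G).projectionOnto (LinearMap.range G) hc y : LinearMap.ker G)
      : Y) := eq_neg_of_add_eq_zero_left hy'
  have h2 : G y ∈ LinearMap.ker G ⊓ LinearMap.range G := by
    refine ⟨?_, ⟨y, rfl⟩⟩
    rw [h1]
    exact (LinearMap.ker G).neg_mem (Subtype.mem _)
  have h3 : G y = 0 := by
    rw [hc.disjoint.eq_bot] at h2
    exact (Submodule.mem_bot R).1 h2
  have h5 : y ∈ LinearMap.ker G := h3
  have h6 := Submodule.projectionOnto_apply_of_mem_left hc h5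
  rw [h6, h3, zero_add] at hy'
  exact hy'

theorem fitting_core {Y W C : Type u} [AddCommGroup Y] [Module R Y] [AddCommGroup W] [Module R W]
    [AddCommGroup C] [Module R C] [IsArtinian R Y] [IsNoetherian R Y] (S : SES R Y W C)
    (hst : StIso R W Y) (r : ℕ) (hC : PdLT R C r) :
    ∃ Z : Submodule R Y, Retr R Z Y ∧ PdLT R Z (max r 1) ∧
      ∀ D : ℕ, 1 ≤ D → PdLT R Z D → PdLT R C (D + 1) := by
  obtain ⟨h, h', hh1, hh2⟩ := itfit_stiso_pull hst
  have pull_g : ∀ (N : ModuleCat.{u} R) (i : ℕ) (x : Ext (ModuleCat.of R Y) N i),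
      pull (h ∘ₗ S.f) x = pull S.f (pull h x) := fun N i x => pull_comp h S.f x
  have g_surj_of : ∀ (N : ModuleCat.{u} R) (i : ℕ), 1 ≤ i →
      (∀ z : Ext (ModuleCat.of R Y) N i, ∃ y : Ext (ModuleCat.of R W) N i, pull S.f y = z) →
      ∀ z : Ext (ModuleCat.of R Y) N i, ∃ x : Ext (ModuleCat.of R Y) N i,
        pull (h ∘ₗ S.f) x = z := by
    intro N i hi hsurj z
    obtain ⟨w, hw⟩ := hsurj z
    refine ⟨pull h' w, ?_⟩
    rw [pull_g, hh1 N i hi w, hw]
  have f_inj_of : ∀ (N : ModuleCat.{u} R) (i : ℕ), 1 ≤ i →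
      (∀ x : Ext (ModuleCat.of R Y) N i, pull (h ∘ₗ S.f) x = 0 → x = 0) →
      ∀ y : Ext (ModuleCat.of R W) N i, pull S.f y = 0 → y = 0 := by
    intro N i hi hinj w hw
    have h1 := hh1 N i hi w
    have h2 : pull (h ∘ₗ S.f) (pull h' w) = 0 := by rw [pull_g, h1, hw]
    have h3 := hinj _ h2
    rw [h3, pull_zero] at h1
    exact h1.symm
  have f_surj_of : ∀ (N : ModuleCat.{u} R) (i : ℕ),
      (∀ z : Ext (ModuleCat.of R Y) N i, ∃ x : Ext (ModuleCat.of R Y) N i,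
        pull (h ∘ₗ S.f) x = z) →
      ∀ z : Ext (ModuleCat.of R Y) N i, ∃ y : Ext (ModuleCat.of R W) N i, pull S.f y = z := by
    intro N i hsurj z
    obtain ⟨x, hx⟩ := hsurj z
    exact ⟨pull h x, by rw [← pull_g, hx]⟩
  obtain ⟨k0, hk0⟩ := Filter.eventually_atTop.1
    (LinearMap.eventually_isCompl_ker_pow_range_pow (h ∘ₗ S.f))
  have hc := hk0 (k0 + 1) (Nat.le_succ k0)
  have hpj : ((LinearMap.ker ((h ∘ₗ S.f) ^ (k0 + 1))).projectionOnto
      (LinearMap.range ((h ∘ₗ S.f) ^ (k0 + 1))) hc) ∘ₗ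
      (LinearMap.ker ((h ∘ₗ S.f) ^ (k0 + 1))).subtype = LinearMap.id :=
    Submodule.projectionOnto_comp_subtype hc
  refine ⟨LinearMap.ker ((h ∘ₗ S.f) ^ (k0 + 1)), ⟨_, _, hpj⟩, ?_, ?_⟩
  · rw [pdLT_iff]
    intro i hi N x
    have hr : r ≤ i := le_trans (le_max_left _ _) hi
    have h1 : 1 ≤ i := le_trans (le_max_right _ _) hi
    have hsurj_g := g_surj_of N i h1
      (fun z => S.pull_f_surjective (fun c => pdLT_iff.mp hC (i + 1) (by omega) N c) z)
    obtain ⟨y', hy'⟩ := itfit_pow_surj (h ∘ₗ S.f) hsurj_g (k0 + 1)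
      (pull ((LinearMap.ker ((h ∘ₗ S.f) ^ (k0 + 1))).projectionOnto
        (LinearMap.range ((h ∘ₗ S.f) ^ (k0 + 1))) hc) x)
    have hx : x = pull (LinearMap.ker ((h ∘ₗ S.f) ^ (k0 + 1))).subtype
        (pull ((LinearMap.ker ((h ∘ₗ S.f) ^ (k0 + 1))).projectionOnto
          (LinearMap.range ((h ∘ₗ S.f) ^ (k0 + 1))) hc) x) := by
      rw [← pull_comp, hpj, pull_id]
    rw [hx, ← hy', ← pull_comp]
    have hz : ((h ∘ₗ S.f) ^ (k0 + 1)) ∘ₗ (LinearMap.ker ((h ∘ₗ S.f) ^ (k0 + 1))).subtype = 0 := by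
      ext z
      exact z.2
    rw [hz, pull_zero_map]
  · intro D hD hZ
    have hEinj := itfit_inj ((h ∘ₗ S.f) ^ (k0 + 1)) hc
    have hEbij := IsArtinian.bijective_of_injective_endomorphism _ hEinj
    have hpullE : ∀ (N : ModuleCat.{u} R) (i : ℕ), D ≤ i → ∀ x : Ext (ModuleCat.of R Y) N i,
        pull ((h ∘ₗ S.f) ^ (k0 + 1) + (LinearMap.ker ((h ∘ₗ S.f) ^ (k0 + 1))).subtype ∘ₗ
          (LinearMap.ker ((h ∘ₗ S.f) ^ (k0 + 1))).projectionOnto
            (LinearMap.range ((h ∘ₗ S.f) ^ (k0 + 1))) hc) x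
        = pull ((h ∘ₗ S.f) ^ (k0 + 1)) x := by
      intro N i hi x
      rw [pull_add, pull_comp]
      have h0 : pull (LinearMap.ker ((h ∘ₗ S.f) ^ (k0 + 1))).subtype x = 0 :=
        pdLT_iff.mp hZ i hi N _
      rw [h0, pull_zero, add_zero]
    have ginj : ∀ (N : ModuleCat.{u} R) (i : ℕ), D ≤ i → ∀ x : Ext (ModuleCat.of R Y) N i,
        pull (h ∘ₗ S.f) x = 0 → x = 0 := by
      intro N i hi
      apply itfit_inj_of_pow (h ∘ₗ S.f) k0
      intro x hx
      rw [← hpullE N i hi x] at hx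
      exact itfit_equiv_inj _ hEbij x hx
    have gsurj : ∀ (N : ModuleCat.{u} R) (i : ℕ), D ≤ i → ∀ z : Ext (ModuleCat.of R Y) N i,
        ∃ x : Ext (ModuleCat.of R Y) N i, pull (h ∘ₗ S.f) x = z := by
      intro N i hi
      apply itfit_surj_of_pow (h ∘ₗ S.f) k0
      intro z
      obtain ⟨x, hx⟩ := itfit_equiv_surj _ hEbij z
      exact ⟨x, by rw [← hpullE N i hi x, hx]⟩
    rw [pdLT_iff]
    intro i hi N x₃
    obtain ⟨i', rfl⟩ : ∃ i', i = i' + 1 := ⟨i - 1, by omega⟩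
    have hi' : D ≤ i' := by omega
    exact S.ext_right_zero
      (f_inj_of N (i' + 1) (by omega) (ginj N (i' + 1) (by omega)))
      (f_surj_of N i' (gsurj N i' hi')) x₃

end Vale.Agent.Lib.P176
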