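import Mathlib
import Vale.Agent.Lib.P176.ITBasic

/-!
Indecomposable modules (definition only).
-/

universe u

namespace Vale.Agent.Lib.P176

/-- Indecomposable module: nontrivial, and in every internal direct sum decomposition one of the
two summands is zero. -/
def Indec (R : Type u) [Ring R] (M : Type u) [AddCommGroup M] [Module R M] : Prop :=
  Nontrivial M ∧ ∀ A B : Submodule R M, IsCompl A B → A = ⊥ ∨ B = ⊥

end Vale.Agent.Lib.P176
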