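import Mathlib
import Vale.Agent.Lib.P176.ITBasic
import Vale.Agent.Lib.P176.ITIndec

/-!
Fitting's lemma for indecomposable modules of finite length: every endomorphism is bijective or
nilpotent, and the endomorphism ring is local (a finite sum of endomorphisms equal to the
identity has a bijective summand).
-/

universe u

namespace Vale.Agent.Lib.P176

variable {R : Type u} [Ring R] {M : Type u} [AddCommGroup M] [Module R M]

theorem Indec.bijective_or_nilpotent [IsArtinian R M] [IsNoetherian R M] (h : Indec R M)
    (f : M →ₗ[R] M) : Function.Bijective f ∨ ∃ n : ℕ, f ^ n = 0 := by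
  obtain ⟨n, hn⟩ := Filter.eventually_atTop.1 (LinearMap.eventually_isCompl_ker_pow_range_pow f)
  have hc := hn (n + 1) (Nat.le_succ n)
  rcases h.2 _ _ hc with hker | hrange
  · left
    have hrange : LinearMap.range (f ^ (n + 1)) = ⊤ := by
      have := hc.sup_eq_top
      rwa [hker, bot_sup_eq] at this
    constructor
    · intro x y hxy
      have hpow : (f ^ (n + 1)) x = (f ^ (n + 1)) y := by
        rw [pow_succ, Module.End.mul_apply, Module.End.mul_apply, hxy]
      exact LinearMap.ker_eq_bot.1 hker hpow
    · intro y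
      have hy : y ∈ LinearMap.range (f ^ (n + 1)) := by
        rw [hrange]
        exact Submodule.mem_top
      obtain ⟨x, hx⟩ := hy
      refine ⟨(f ^ n) x, ?_⟩
      rw [← hx, pow_succ', Module.End.mul_apply]
  · right
    exact ⟨n + 1, LinearMap.range_eq_bot.1 hrange⟩

/-- if a sum of two endomorphisms of an indecomposable module of finite length is invertible,
then one of them is invertible -/
theorem itksa_isUnit_add [IsArtinian R M] [IsNoetherian R M] (h : Indec R M)
    (f g : Module.End R M) (hu : IsUnit (f + g)) : IsUnit f ∨ IsUnit g := by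
  obtain ⟨u, hu'⟩ := hu
  have hsum : f * (↑u⁻¹ : Module.End R M) + g * (↑u⁻¹ : Module.End R M) = 1 := by
    rw [← add_mul, ← hu', Units.mul_inv]
  have hf : f = (f * (↑u⁻¹ : Module.End R M)) * (u : Module.End R M) := by
    rw [mul_assoc, Units.inv_mul, mul_one]
  have hg : g = (g * (↑u⁻¹ : Module.End R M)) * (u : Module.End R M) := by
    rw [mul_assoc, Units.inv_mul, mul_one]
  rcases h.bijective_or_nilpotent (f * (↑u⁻¹ : Module.End R M)) with hb | ⟨n, hn⟩
  · left
    have h1 : IsUnit (f * (↑u⁻¹ : Module.End R M)) := (Module.End.isUnit_iff _).2 hb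
    rw [hf]
    exact h1.mul u.isUnit
  · right
    have hnil : IsNilpotent (f * (↑u⁻¹ : Module.End R M)) := ⟨n, hn⟩
    have h1 : IsUnit (g * (↑u⁻¹ : Module.End R M)) := by
      have e : g * (↑u⁻¹ : Module.End R M) = 1 - f * (↑u⁻¹ : Module.End R M) := by
        rw [← hsum]
        abel
      rw [e]
      exact hnil.isUnit_one_sub
    rw [hg]
    exact h1.mul u.isUnit

/-- an invertible finite sum of endomorphisms of an indecomposable module of finite length has
an invertible summand -/
theorem itksa_isUnit_sum [IsArtinian R M] [IsNoetherian R M] (h : Indec R M)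
    {κ : Type} [DecidableEq κ] (f : κ → Module.End R M) (s : Finset κ) :
    IsUnit (∑ l ∈ s, f l) → ∃ l ∈ s, IsUnit (f l) := by
  induction s using Finset.induction_on with
  | empty =>
    intro h0
    exfalso
    rw [Finset.sum_empty] at h0
    have hb := (Module.End.isUnit_iff (0 : Module.End R M)).1 h0
    have := h.1
    obtain ⟨x, y, hxy⟩ := exists_pair_ne M
    exact hxy (hb.1 (by simp))
  | insert a s ha ih =>
    intro hsum
    rw [Finset.sum_insert ha] at hsum
    rcases itksa_isUnit_add h _ _ hsum with h1 | h2
    · exact ⟨a, Finset.mem_insert_self a s, h1⟩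
    · obtain ⟨l, hl, hlu⟩ := ih h2
      exact ⟨l, Finset.mem_insert_of_mem hl, hlu⟩

theorem Indec.exists_bijective_of_sum_eq_id [IsArtinian R M] [IsNoetherian R M] (h : Indec R M)
    {κ : Type} [Fintype κ] (f : κ → (M →ₗ[R] M)) (hsum : ∑ l, f l = LinearMap.id) :
    ∃ l, Function.Bijective (f l) := by
  classical
  have hu : IsUnit (∑ l ∈ (Finset.univ : Finset κ), f l) := by
    rw [hsum]
    exact (Module.End.isUnit_iff _).2 Function.bijective_id
  obtain ⟨l, _, hl⟩ := itksa_isUnit_sum h f Finset.univ hu
  exact ⟨l, (Module.End.isUnit_iff _).1 hl⟩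

end Vale.Agent.Lib.P176
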