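import Mathlib
import Vale.Agent.Lib.P176.ITBasic
import Vale.Agent.Lib.P176.ITIndec
import Vale.Agent.Lib.P176.ITKSa

/-!
Retracts and indecomposable modules: an indecomposable module of finite length that is a retract
of a finite product is a retract of one of the factors; a nontrivial retract of an indecomposable
module is isomorphic to it.
-/

universe u

namespace Vale.Agent.Lib.P176

variable {R : Type u} [Ring R] {Z : Type u} [AddCommGroup Z] [Module R Z]

theorem Indec.retr_pi [IsArtinian R Z] [IsNoetherian R Z] (h : Indec R Z) {κ : Type} [Fintype κ]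
    (X : κ → Type u) [∀ l, AddCommGroup (X l)] [∀ l, Module R (X l)]
    (hr : Retr R Z (∀ l, X l)) : ∃ l, Retr R Z (X l) := by
  classical
  obtain ⟨α, β, hαβ⟩ := hr
  let f : κ → (Z →ₗ[R] Z) :=
    fun l => β ∘ₗ (LinearMap.single R X l) ∘ₗ (LinearMap.proj l) ∘ₗ α
  have hid : (LinearMap.id : (∀ l, X l) →ₗ[R] (∀ l, X l)) =
      ∑ l, (LinearMap.single R X l) ∘ₗ (LinearMap.proj l) := by
    ext v l'
    simp [Finset.sum_apply]
  have hsum : ∑ l, f l = LinearMap.id := by
    ext z
    have h1 := LinearMap.congr_fun hαβ z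
    simp only [LinearMap.comp_apply, LinearMap.id_apply] at h1
    have h3 : ∑ l, (LinearMap.single R X l) (α z l) = α z := by
      have h4 := LinearMap.congr_fun hid (α z)
      simp only [LinearMap.id_apply, LinearMap.sum_apply, LinearMap.comp_apply] at h4
      exact h4.symm
    have h2 : (∑ l, f l) z = β (∑ l, (LinearMap.single R X l) (α z l)) := by
      rw [LinearMap.sum_apply, map_sum]
      rfl
    rw [h2, h3, h1]
    rfl
  obtain ⟨l, hl⟩ := h.exists_bijective_of_sum_eq_id f hsum
  refine ⟨l, ?_⟩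
  let e : Z ≃ₗ[R] Z := LinearEquiv.ofBijective (f l) hl
  refine ⟨(LinearMap.proj l) ∘ₗ α, e.symm.toLinearMap ∘ₗ β ∘ₗ (LinearMap.single R X l), ?_⟩
  ext z
  simp only [LinearMap.comp_apply, LinearMap.id_apply, LinearEquiv.coe_coe]
  rw [LinearEquiv.symm_apply_eq]
  rfl

theorem Indec.retr_prod [IsArtinian R Z] [IsNoetherian R Z] (h : Indec R Z) {A B : Type u}
    [AddCommGroup A] [Module R A] [AddCommGroup B] [Module R B] (hr : Retr R Z (A × B)) :
    Retr R Z A ∨ Retr R Z B := by
  classical
  obtain ⟨α, β, hαβ⟩ := hr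
  let f : Bool → (Z →ₗ[R] Z) := fun b =>
    if b then β ∘ₗ (LinearMap.inl R A B) ∘ₗ (LinearMap.fst R A B) ∘ₗ α
    else β ∘ₗ (LinearMap.inr R A B) ∘ₗ (LinearMap.snd R A B) ∘ₗ α
  have hsum : ∑ b, f b = LinearMap.id := by
    rw [Fintype.sum_bool]
    ext z
    have h1 := LinearMap.congr_fun hαβ z
    simp only [LinearMap.comp_apply, LinearMap.id_apply] at h1
    have h2 : (f true + f false) z = β ((α z).1, (0 : B)) + β ((0 : A), (α z).2) := rfl
    rw [h2, ← map_add]
    have h3 : ((α z).1, (0 : B)) + ((0 : A), (α z).2) = α z := by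
      ext <;> simp
    rw [h3, h1]
    rfl
  obtain ⟨b, hb⟩ := h.exists_bijective_of_sum_eq_id f hsum
  let e : Z ≃ₗ[R] Z := LinearEquiv.ofBijective (f b) hb
  cases b with
  | true =>
    left
    refine ⟨(LinearMap.fst R A B) ∘ₗ α, e.symm.toLinearMap ∘ₗ β ∘ₗ (LinearMap.inl R A B), ?_⟩
    ext z
    simp only [LinearMap.comp_apply, LinearMap.id_apply, LinearEquiv.coe_coe]
    rw [LinearEquiv.symm_apply_eq]
    rfl
  | false =>
    right
    refine ⟨(LinearMap.snd R A B) ∘ₗ α, e.symm.toLinearMap ∘ₗ β ∘ₗ (LinearMap.inr R A B), ?_⟩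
    ext z
    simp only [LinearMap.comp_apply, LinearMap.id_apply, LinearEquiv.coe_coe]
    rw [LinearEquiv.symm_apply_eq]
    rfl

theorem Indec.equiv_of_retr {N : Type u} [AddCommGroup N] [Module R N] (hN : Indec R N)
    [Nontrivial Z] (hr : Retr R Z N) : Nonempty (Z ≃ₗ[R] N) := by
  obtain ⟨α, β, hαβ⟩ := hr
  have hba : ∀ z, β (α z) = z := fun z => LinearMap.congr_fun hαβ z
  have hcompl : IsCompl (LinearMap.range α) (LinearMap.ker β) := by
    constructor
    · rw [Submodule.disjoint_def]
      intro x hx1 hx2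
      obtain ⟨z, rfl⟩ := hx1
      rw [LinearMap.mem_ker, hba] at hx2
      rw [hx2, map_zero]
    · rw [codisjoint_iff, eq_top_iff]
      intro n _
      rw [Submodule.mem_sup]
      refine ⟨α (β n), LinearMap.mem_range_self α _, n - α (β n), ?_, by abel⟩
      rw [LinearMap.mem_ker, map_sub, hba, sub_self]
  have hsurj : Function.Surjective β := fun z => ⟨α z, hba z⟩
  rcases hN.2 _ _ hcompl with h0 | h0
  · exfalso
    obtain ⟨z1, z2, hz⟩ := exists_pair_ne Z
    apply hz
    have hz1 : α z1 = 0 := by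
      have : α z1 ∈ LinearMap.range α := LinearMap.mem_range_self α z1
      rw [h0] at this
      simpa using this
    have hz2 : α z2 = 0 := by
      have : α z2 ∈ LinearMap.range α := LinearMap.mem_range_self α z2
      rw [h0] at this
      simpa using this
    rw [← hba z1, ← hba z2, hz1, hz2]
  · have hinj : Function.Injective β := LinearMap.ker_eq_bot.mp h0
    exact ⟨(LinearEquiv.ofBijective β ⟨hinj, hsurj⟩).symm⟩

end Vale.Agent.Lib.P176
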