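import Mathlib
import Vale.Agent.Lib.P176.ITBasic
import Vale.Agent.Lib.P176.ITIndec

/-!
Every module of finite length is isomorphic to a finite product of indecomposable modules.
-/

universe u

namespace Vale.Agent.Lib.P176

variable {R : Type u} [Ring R]

/-- the property proved by induction on submodules -/
def itksc_P (M : Type u) [AddCommGroup M] [Module R M] (I : Submodule R M) : Prop :=
  ∃ (κ : Type) (_ : Fintype κ) (N : κ → ModuleCat.{u} R),
    (∀ l, Indec R (N l)) ∧ Nonempty (I ≃ₗ[R] (∀ l, N l))

theorem itksc_bot (M : Type u) [AddCommGroup M] [Module R M] (I : Submodule R M)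
    (hI : Subsingleton I) : itksc_P (R := R) M I := by
  refine ⟨Empty, inferInstance, fun e => e.elim, fun l => l.elim, ⟨?_⟩⟩
  exact
    { toFun := fun _ => 0
      map_add' := fun _ _ => by simp
      map_smul' := fun _ _ => by simp
      invFun := fun _ => 0
      left_inv := fun x => Subsingleton.elim _ _
      right_inv := fun x => Subsingleton.elim _ _ }

theorem itksc_indec (M : Type u) [AddCommGroup M] [Module R M] (I : Submodule R M)
    (hI : Indec R I) : itksc_P (R := R) M I := by
  refine ⟨Unit, inferInstance, fun _ => ModuleCat.of R I, fun _ => hI, ⟨?_⟩⟩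
  exact (LinearEquiv.funUnique Unit R I).symm

theorem itksc_split (M : Type u) [AddCommGroup M] [Module R M] (I : Submodule R M)
    (A B : Submodule R I) (hAB : IsCompl A B)
    (hA : itksc_P (R := R) M (A.map I.subtype)) (hB : itksc_P (R := R) M (B.map I.subtype)) :
    itksc_P (R := R) M I := by
  obtain ⟨κ1, _, N1, h1, ⟨e1⟩⟩ := hA
  obtain ⟨κ2, _, N2, h2, ⟨e2⟩⟩ := hB
  refine ⟨κ1 ⊕ κ2, inferInstance, Sum.elim N1 N2, ?_, ⟨?_⟩⟩
  · intro s
    cases s with
    | inl l => exact h1 l
    | inr l => exact h2 l
  · have eA : A ≃ₗ[R] (∀ l, N1 l) :=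
      (Submodule.equivMapOfInjective I.subtype I.injective_subtype A).trans e1
    have eB : B ≃ₗ[R] (∀ l, N2 l) :=
      (Submodule.equivMapOfInjective I.subtype I.injective_subtype B).trans e2
    have e3 : I ≃ₗ[R] ((∀ l, N1 l) × (∀ l, N2 l)) :=
      (Submodule.prodEquivOfIsCompl A B hAB).symm.trans (LinearEquiv.prodCongr eA eB)
    exact e3.trans
      (LinearEquiv.sumPiEquivProdPi R κ1 κ2
        (fun s => ((Sum.elim N1 N2 s : ModuleCat.{u} R) : Type u))).symm

theorem exists_indec_decomp (M : Type u) [AddCommGroup M] [Module R M] [IsArtinian R M]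
    [IsNoetherian R M] :
    ∃ (κ : Type) (_ : Fintype κ) (N : κ → ModuleCat.{u} R),
      (∀ l, Indec R (N l)) ∧ Nonempty (M ≃ₗ[R] (∀ l, N l)) := by
  have key : ∀ I : Submodule R M, itksc_P (R := R) M I := by
    intro I
    induction I using IsArtinian.induction with
    | _ I ih =>
      by_cases hsub : Subsingleton I
      · exact itksc_bot M I hsub
      · by_cases hind : Indec R I
        · exact itksc_indec M I hind
        · have hnt : Nontrivial I := not_subsingleton_iff_nontrivial.mp hsub
          have hex : ∃ A B : Submodule R I, IsCompl A B ∧ A ≠ ⊥ ∧ B ≠ ⊥ := by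
            by_contra hcon
            apply hind
            refine ⟨hnt, ?_⟩
            intro A B hAB
            by_contra hcon2
            apply hcon
            refine ⟨A, B, hAB, ?_, ?_⟩
            · intro hA
              exact hcon2 (Or.inl hA)
            · intro hB
              exact hcon2 (Or.inr hB)
          obtain ⟨A, B, hAB, hA, hB⟩ := hex
          have hlt : ∀ (C D : Submodule R I), IsCompl C D → D ≠ ⊥ → C.map I.subtype < I := by
            intro C D hCD hD
            refine lt_of_le_of_ne (Submodule.map_subtype_le I C) ?_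
            intro heq
            apply hD
            have hC : C = ⊤ := by
              apply Submodule.map_injective_of_injective I.injective_subtype
              rw [heq, Submodule.map_subtype_top]
            rw [hC] at hCD
            exact eq_bot_of_top_isCompl hCD
          exact itksc_split M I A B hAB (ih _ (hlt A B hAB hB)) (ih _ (hlt B A hAB.symm hA))
  obtain ⟨κ, hκ, N, hN, ⟨e⟩⟩ := key ⊤
  exact ⟨κ, hκ, N, hN, ⟨(Submodule.topEquiv (R := R) (M := M)).symm.trans e⟩⟩

end Vale.Agent.Lib.P176
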