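import Mathlib
import Vale.Agent.Lib.P176.ITBasic
import Vale.Agent.Lib.P176.ITIndec
import Vale.Agent.Lib.P176.ITKSa
import Vale.Agent.Lib.P176.ITKSb
import Vale.Agent.Lib.P176.ITKSc

/-!
A uniform bound for the finite projective dimensions of the retracts of finite direct sums of
copies of finitely many given modules (plus a projective module).
-/

universe u

namespace Vale.Agent.Lib.P176

variable {R : Type u} [Ring R]

/-- every factor of a finite product is a retract of the product -/
theorem itksd_retr_factor {κ : Type} [DecidableEq κ] (X : κ → Type u)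
    [∀ l, AddCommGroup (X l)] [∀ l, Module R (X l)] (l : κ) : Retr R (X l) (∀ l, X l) :=
  ⟨LinearMap.single R X l, LinearMap.proj l, by ext a; simp⟩

/-- a uniform bound for the finite projective dimensions in a finite family of modules -/
theorem itksd_uniform {P : Type} [Fintype P] (M : P → Type u) [∀ p, AddCommGroup (M p)]
    [∀ p, Module R (M p)] :
    ∃ D : ℕ, ∀ p, (∃ r, PdLT R (M p) r) → PdLT R (M p) (D + 1) := by
  classical
  let d : P → ℕ := fun p => if h : ∃ r, PdLT R (M p) r then Nat.find h else 0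
  refine ⟨Finset.univ.sup d, ?_⟩
  intro p hp
  have h1 : PdLT R (M p) (Nat.find hp) := Nat.find_spec hp
  have h2 : d p = Nat.find hp := by
    simp only [d]
    rw [dif_pos hp]
  have h3 : d p ≤ Finset.univ.sup d := Finset.le_sup (Finset.mem_univ p)
  exact h1.mono (by omega)

theorem exists_pd_bound [IsArtinianRing R] [IsNoetherianRing R] {ι : Type} [Fintype ι]
    (U : ι → ModuleCat.{u} R) (hU : ∀ j, Module.Finite R (U j)) :
    ∃ D : ℕ, ∀ (v : ι → ℕ) (Q' : ModuleCat.{u} R) (Z : Type u) [AddCommGroup Z] [Module R Z],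
      Module.Projective R Q' → Module.Finite R Q' →
      Retr R Z ((∀ j, (Fin (v j) → U j)) × Q') → (∃ r, PdLT R Z r) → PdLT R Z (D + 1) := by
  classical
  have := hU
  have hUN : ∀ j, IsNoetherian R (U j) := fun j =>
    isNoetherian_of_isNoetherianRing_of_finite R (U j)
  have hUA : ∀ j, IsArtinian R (U j) := fun j => isArtinian_of_fg_of_artinian'
  choose κ hκ N hN e using fun j => exists_indec_decomp (R := R) (U j)
  have : ∀ j, Fintype (κ j) := hκ
  obtain ⟨D, hD⟩ := itksd_uniform (R := R) (P := Σ j, κ j) (fun p => (N p.1 p.2 : Type u))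
  refine ⟨D, ?_⟩
  intro v Q' Z _ _ hQp hQf hretr hfin
  obtain ⟨r, hr⟩ := hfin
  have := hQf
  have : Module.Finite R ((∀ j, (Fin (v j) → U j)) × Q') := inferInstance
  have hZf : Module.Finite R Z := hretr.finite
  have hZN : IsNoetherian R Z := isNoetherian_of_isNoetherianRing_of_finite R Z
  have hZA : IsArtinian R Z := isArtinian_of_fg_of_artinian'
  obtain ⟨lam, hlam, Z', hZ', ⟨eZ⟩⟩ := exists_indec_decomp (R := R) Z
  have : Fintype lam := hlam
  suffices hsuff : ∀ l, PdLT R (Z' l) (D + 1) from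
    (pdLT_pi (fun l => (Z' l : Type u)) hsuff).of_equiv eZ.symm
  intro l
  have hlZ : Retr R (Z' l) Z :=
    (itksd_retr_factor (fun l => (Z' l : Type u)) l).trans (Retr.of_equiv eZ.symm)
  have hlr : PdLT R (Z' l) r := hlZ.pdLT hr
  have hlS : Retr R (Z' l) ((∀ j, (Fin (v j) → U j)) × Q') := hlZ.trans hretr
  have hlf : Module.Finite R (Z' l) := hlZ.finite
  have hlN : IsNoetherian R (Z' l) := isNoetherian_of_isNoetherianRing_of_finite R (Z' l)
  have hlA : IsArtinian R (Z' l) := isArtinian_of_fg_of_artinian'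
  rcases (hZ' l).retr_prod hlS with h1 | h2
  · obtain ⟨j, hj⟩ := (hZ' l).retr_pi (fun j => (Fin (v j) → U j)) h1
    obtain ⟨_, hj2⟩ := (hZ' l).retr_pi (fun _ : Fin (v j) => (U j : Type u)) hj
    have hj3 : Retr R (Z' l) (∀ i, N j i) := hj2.trans (Retr.of_equiv (e j).some)
    obtain ⟨i, hi⟩ := (hZ' l).retr_pi (fun i => (N j i : Type u)) hj3
    have : Nontrivial (Z' l) := (hZ' l).1
    obtain ⟨eq⟩ := (hN j i).equiv_of_retr hi
    have h4 : PdLT R (N j i) r := hlr.of_equiv eq
    have h5 : PdLT R (N j i) (D + 1) := hD ⟨j, i⟩ ⟨r, h4⟩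
    exact h5.of_equiv eq.symm
  · have h3 : PdLT R (Z' l) 1 := h2.pdLT (pdLT_one_iff.mpr hQp)
    exact h3.mono (by omega)

end Vale.Agent.Lib.P176
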