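import Mathlib
import Vale.Agent.Lib.P176.ITBasic

/-!
Subquotients of a module and the short exact sequences between them; projective dimension
along a finite filtration.
-/

universe u

namespace Vale.Agent.Lib.P176

variable {R : Type u} [Ring R] {N : Type u} [AddCommGroup N] [Module R N]

/-- The subquotient `A / B` of a module, for submodules `B ≤ A`. -/
abbrev SubQ (A B : Submodule R N) : Type u := ↥A ⧸ B.submoduleOf A

theorem pdLT_of_subsingleton (X : Type u) [AddCommGroup X] [Module R X] [Subsingleton X]
    (n : ℕ) : PdLT R X n := by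
  rw [pdLT_iff]
  intro i _ M x
  have hid : (LinearMap.id : X →ₗ[R] X) = 0 := by
    ext a
    exact Subsingleton.elim _ _
  rw [← pull_id x, hid, pull_zero_map]

/-- The sequence `0 → B / C → A / C → A / B → 0` for submodules `C ≤ B ≤ A`. -/
theorem SubQ.ses {A B C : Submodule R N} (hBA : B ≤ A) (hCB : C ≤ B) :
    Nonempty (SES R (SubQ B C) (SubQ A C) (SubQ A B)) := by
  have hf : C.submoduleOf B ≤ (C.submoduleOf A).comap (Submodule.inclusion hBA) := by
    intro x hx
    exact hx
  have hg : C.submoduleOf A ≤ (B.submoduleOf A).comap LinearMap.id := by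
    intro x hx
    exact hCB hx
  refine ⟨{ f := Submodule.mapQ (C.submoduleOf B) (C.submoduleOf A) (Submodule.inclusion hBA) hf
            g := Submodule.mapQ (C.submoduleOf A) (B.submoduleOf A) LinearMap.id hg
            inj := ?_
            surj := ?_
            exact := ?_ }⟩
  · rw [← LinearMap.ker_eq_bot, LinearMap.ker_eq_bot']
    intro y hy
    obtain ⟨x, rfl⟩ := Submodule.Quotient.mk_surjective _ y
    rw [Submodule.mapQ_apply, Submodule.Quotient.mk_eq_zero] at hy
    rw [Submodule.Quotient.mk_eq_zero]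
    exact hy
  · intro y
    obtain ⟨x, rfl⟩ := Submodule.Quotient.mk_surjective _ y
    exact ⟨Submodule.Quotient.mk x, by rw [Submodule.mapQ_apply]; rfl⟩
  · intro y
    obtain ⟨x, rfl⟩ := Submodule.Quotient.mk_surjective _ y
    rw [Submodule.mapQ_apply, LinearMap.id_apply, Submodule.Quotient.mk_eq_zero]
    constructor
    · intro hx
      have hxB : (x : N) ∈ B := hx
      refine ⟨Submodule.Quotient.mk ⟨(x : N), hxB⟩, ?_⟩
      rw [Submodule.mapQ_apply]
      rfl
    · rintro ⟨z, hz⟩
      obtain ⟨w, rfl⟩ := Submodule.Quotient.mk_surjective _ z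
      rw [Submodule.mapQ_apply, Submodule.Quotient.eq] at hz
      have h1 : ((Submodule.inclusion hBA w : A) : N) - (x : N) ∈ C := hz
      have h2 : (x : N) = (w : N) - (((Submodule.inclusion hBA w : A) : N) - (x : N)) := by
        simp
      have h3 : (x : N) ∈ B := by
        rw [h2]
        exact B.sub_mem w.2 (hCB h1)
      exact h3

/-- If all layers of a finite decreasing chain have projective dimension `< a`, so has the
subquotient of its two ends. -/
theorem SubQ.pdLT_chain (G : ℕ → Submodule R N) (hG : Antitone G) (a : ℕ) {p q : ℕ}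
    (hpq : p ≤ q) (h : ∀ i, p ≤ i → i < q → PdLT R (SubQ (G i) (G (i + 1))) a) :
    PdLT R (SubQ (G p) (G q)) a := by
  induction q, hpq using Nat.le_induction with
  | base =>
    have hsub : Subsingleton (SubQ (G p) (G p)) := by
      refine ⟨fun x y => ?_⟩
      obtain ⟨x', rfl⟩ := Submodule.Quotient.mk_surjective _ x
      obtain ⟨y', rfl⟩ := Submodule.Quotient.mk_surjective _ y
      rw [Submodule.Quotient.eq]
      have h1 : ((x' - y' : ↥(G p)) : N) ∈ G p := (x' - y').2
      exact h1
    exact pdLT_of_subsingleton _ a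
  | succ q hpq ih =>
    obtain ⟨S⟩ := SubQ.ses (hG hpq) (hG (Nat.le_succ q))
    exact S.pdLT_mid (h q hpq (Nat.lt_succ_self q))
      (ih (fun i hi hiq => h i hi (Nat.lt_succ_of_lt hiq)))

theorem SubQ.nonempty_equiv {A B : Submodule R N} (hA : A = ⊤) (hB : B = ⊥) :
    Nonempty (SubQ A B ≃ₗ[R] N) := by
  subst hA hB
  have hbot : (⊥ : Submodule R N).submoduleOf ⊤ = ⊥ := by
    ext x
    have h1 : x ∈ (⊥ : Submodule R N).submoduleOf ⊤ ↔ (x : N) ∈ (⊥ : Submodule R N) := Iff.rfl
    rw [h1, Submodule.mem_bot, Submodule.mem_bot]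
    exact Submodule.coe_eq_zero
  exact ⟨(Submodule.quotEquivOfEqBot _ hbot).trans Submodule.topEquiv⟩

theorem SubQ.finite [IsNoetherian R N] (A B : Submodule R N) : Module.Finite R (SubQ A B) := by
  have h1 : IsNoetherian R ↥A := isNoetherian_submodule' A
  have h2 : Module.Finite R ↥A := Module.IsNoetherian.finite R ↥A
  exact Module.Finite.quotient R _

end Vale.Agent.Lib.P176
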