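import Mathlib
import Vale.Agent.Lib.P176.ITBasic
import Vale.Agent.Lib.P176.ITSubQ

/-!
The radical filtration of a module, the radical layers of the ring, and the transfer of
projective dimension from a radical layer of the ring to modules generated by it.
-/

universe u

namespace Vale.Agent.Lib.P176

/-- The radical filtration `J^i • P` of a module. -/
abbrev radF (R : Type u) [Ring R] (P : Type u) [AddCommGroup P] [Module R P] (i : ℕ) :
    Submodule R P :=
  (Ring.jacobson R ^ i) • (⊤ : Submodule R P)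

/-- The `i`-th radical layer `J^i / J^(i+1)` of the ring, as a left module. -/
abbrev RadLayer (R : Type u) [Ring R] (i : ℕ) : Type u :=
  ↥(Ring.jacobson R ^ i) ⧸ (Ring.jacobson R ^ (i + 1)).submoduleOf (Ring.jacobson R ^ i)

variable {R : Type u} [Ring R]

theorem radF_zero (P : Type u) [AddCommGroup P] [Module R P] : radF R P 0 = ⊤ := by
  show (Ring.jacobson R ^ 0) • (⊤ : Submodule R P) = ⊤
  rw [Submodule.pow_zero, Ideal.one_eq_top, Submodule.top_smul]

theorem radF_one (P : Type u) [AddCommGroup P] [Module R P] :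
    radF R P 1 = Ring.jacobson R • (⊤ : Submodule R P) := by
  show (Ring.jacobson R ^ 1) • (⊤ : Submodule R P) = _
  rw [Submodule.pow_one]

theorem radF_succ (P : Type u) [AddCommGroup P] [Module R P] (i : ℕ) :
    radF R P (i + 1) = Ring.jacobson R • radF R P i := by
  rcases Nat.eq_zero_or_pos i with rfl | hi
  · rw [zero_add, radF_one, radF_zero]
  · show (Ring.jacobson R ^ (i + 1)) • (⊤ : Submodule R P)
      = Ring.jacobson R • ((Ring.jacobson R ^ i) • (⊤ : Submodule R P))
    rw [Submodule.pow_succ' _ (Nat.pos_iff_ne_zero.1 hi), ← Ideal.smul_eq_mul,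
      Submodule.smul_assoc]

theorem radF_antitone (P : Type u) [AddCommGroup P] [Module R P] : Antitone (radF R P) := by
  refine antitone_nat_of_succ_le (fun i => ?_)
  rw [radF_succ]
  exact Submodule.smul_le_right

theorem smul_mem_radF_succ {P : Type u} [AddCommGroup P] [Module R P] {i : ℕ} {a : R}
    (ha : a ∈ Ring.jacobson R) {x : P} (hx : x ∈ radF R P i) : a • x ∈ radF R P (i + 1) := by
  rw [radF_succ]
  exact Submodule.smul_mem_smul ha hx

theorem itlay_pow_eq_bot {L : ℕ} (hL : Ring.jacobson R ^ L = ⊥) {i : ℕ} (hi : L ≤ i) :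
    Ring.jacobson R ^ i = ⊥ := by
  induction i, hi using Nat.le_induction with
  | base => exact hL
  | succ n hn ih => rw [Submodule.pow_succ, ih, Submodule.bot_mul]

theorem radF_eq_bot {L : ℕ} (hL : Ring.jacobson R ^ L = ⊥) (P : Type u) [AddCommGroup P]
    [Module R P] {i : ℕ} (hi : L ≤ i) : radF R P i = ⊥ := by
  show (Ring.jacobson R ^ i) • (⊤ : Submodule R P) = ⊥
  rw [itlay_pow_eq_bot hL hi, Submodule.bot_smul]

theorem radLayer_subsingleton {L : ℕ} (hL : Ring.jacobson R ^ L = ⊥) {i : ℕ} (hi : L ≤ i) :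
    Subsingleton (RadLayer R i) := by
  have hJ := itlay_pow_eq_bot hL hi
  have h1 : Subsingleton ↥(Ring.jacobson R ^ i) := by
    refine ⟨fun x y => Subtype.ext ?_⟩
    have hx : (x : R) ∈ (⊥ : Ideal R) := by
      rw [← hJ]
      exact x.2
    have hy : (y : R) ∈ (⊥ : Ideal R) := by
      rw [← hJ]
      exact y.2
    rw [(Submodule.mem_bot R).1 hx, (Submodule.mem_bot R).1 hy]
  exact Function.Surjective.subsingleton (Submodule.mkQ_surjective _)

/-- A module killed by the radical of a semiprimary ring is semisimple. -/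
theorem itlay_semisimple_of_kills [IsSemiprimaryRing R] {X : Type u} [AddCommGroup X]
    [Module R X] (h : ∀ a ∈ Ring.jacobson R, ∀ x : X, a • x = 0) :
    IsSemisimpleModule R X := by
  have h' : Module.IsTorsionBySet R X (Ring.jacobson R : Set R) := by
    intro x a
    exact h a.1 a.2 x
  let _ := h'.module
  exact (h'.semilinearMap.isSemisimpleModule_iff_of_bijective Function.bijective_id).2
    inferInstance

theorem itlay_mul_mem_pow_succ {i : ℕ} {b y : R} (hb : b ∈ Ring.jacobson R)
    (hy : y ∈ Ring.jacobson R ^ i) : b * y ∈ Ring.jacobson R ^ (i + 1) := by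
  rcases Nat.eq_zero_or_pos i with rfl | hi
  · rw [zero_add, Submodule.pow_one]
    exact Ideal.mul_mem_right _ _ hb
  · rw [Submodule.pow_succ' _ (Nat.pos_iff_ne_zero.1 hi), ← Ideal.smul_eq_mul]
    exact Submodule.smul_mem_smul hb hy

/-- The radical layers of the ring are killed by the radical. -/
theorem itlay_radLayer_kills (i : ℕ) :
    ∀ b ∈ Ring.jacobson R, ∀ x : RadLayer R i, b • x = 0 := by
  intro b hb x
  obtain ⟨y, rfl⟩ := Submodule.mkQ_surjective _ x
  rw [← map_smul, Submodule.mkQ_apply, Submodule.Quotient.mk_eq_zero]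
  show b * (y : R) ∈ Ring.jacobson R ^ (i + 1)
  exact itlay_mul_mem_pow_succ hb y.2

/-- A map to a module killed by the radical kills the next step of the radical filtration. -/
theorem itlay_theta_kills {i : ℕ} {P X : Type u} [AddCommGroup P] [Module R P]
    [AddCommGroup X] [Module R X] (hX : ∀ b ∈ Ring.jacobson R, ∀ x : X, b • x = 0)
    (θ : ↥(radF R P i) →ₗ[R] X) {w : P} (hw : w ∈ radF R P i) (hw' : w ∈ radF R P (i + 1)) :
    θ ⟨w, hw⟩ = 0 := by
  have key : Ring.jacobson R • radF R P i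
      ≤ Submodule.map (radF R P i).subtype (LinearMap.ker θ) := by
    rw [Submodule.smul_le]
    intro b hb u hu
    refine ⟨b • ⟨u, hu⟩, ?_, rfl⟩
    show θ (b • ⟨u, hu⟩) = 0
    rw [map_smul]
    exact hX b hb _
  rw [radF_succ] at hw'
  obtain ⟨z, hz, hzw⟩ := key hw'
  have hzeq : z = ⟨w, hw⟩ := Subtype.ext hzw
  rw [← hzeq]
  exact hz

/-- The map from the radical layer of the ring given by an element of the module. -/
theorem itlay_exists_psi {i : ℕ} {P X : Type u} [AddCommGroup P] [Module R P]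
    [AddCommGroup X] [Module R X] (hX : ∀ b ∈ Ring.jacobson R, ∀ x : X, b • x = 0)
    (θ : ↥(radF R P i) →ₗ[R] X) (p : P) :
    ∃ ψ : RadLayer R i →ₗ[R] X, ∀ (x : R) (hx : x ∈ Ring.jacobson R ^ i),
      ∃ hm : x • p ∈ radF R P i, ψ (Submodule.Quotient.mk ⟨x, hx⟩) = θ ⟨x • p, hm⟩ := by
  have hmem : ∀ x : ↥(Ring.jacobson R ^ i),
      ((LinearMap.toSpanSingleton R P p).comp (Ring.jacobson R ^ i).subtype) x
        ∈ radF R P i := by
    intro x
    show (x : R) • p ∈ radF R P i
    exact Submodule.smul_mem_smul x.2 Submodule.mem_top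
  let φ : ↥(Ring.jacobson R ^ i) →ₗ[R] X :=
    θ ∘ₗ (((LinearMap.toSpanSingleton R P p).comp (Ring.jacobson R ^ i).subtype).codRestrict
      (radF R P i) hmem)
  have hker : (Ring.jacobson R ^ (i + 1)).submoduleOf (Ring.jacobson R ^ i)
      ≤ LinearMap.ker φ := by
    intro x hx
    have hx' : (x : R) ∈ Ring.jacobson R ^ (i + 1) := hx
    show θ ⟨(x : R) • p, hmem x⟩ = 0
    exact itlay_theta_kills hX θ _ (Submodule.smul_mem_smul hx' Submodule.mem_top)
  refine ⟨Submodule.liftQ _ φ hker, fun x hx => ⟨hmem ⟨x, hx⟩, ?_⟩⟩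
  rfl

/-- The product of two submodules of a semisimple module is semisimple. -/
theorem itlay_semisimple_prod {X : Type u} [AddCommGroup X] [Module R X]
    [IsSemisimpleModule R X] (W V : Submodule R X) : IsSemisimpleModule R (↥W × ↥V) := by
  let M : Fin 2 → Type u := fun i => ↥((![W, V] : Fin 2 → Submodule R X) i)
  have e : (∀ i, M i) ≃ₗ[R] (↥W × ↥V) := LinearEquiv.piFinTwo R M
  exact (e.toLinearMap.isSemisimpleModule_iff_of_bijective e.bijective).1 inferInstance

/-- A surjective image of a semisimple module is a retract. -/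
theorem itlay_pdLT_of_surj {A B : Type u} [AddCommGroup A] [Module R A] [AddCommGroup B]
    [Module R B] [IsSemisimpleModule R A] (f : A →ₗ[R] B) (hf : Function.Surjective f)
    {n : ℕ} (hA : PdLT R A n) : PdLT R B n := by
  obtain ⟨s, hs⟩ := IsSemisimpleModule.lifting_property f hf LinearMap.id
  exact Retr.pdLT ⟨s, f, hs⟩ hA

/-- If the `i`-th radical layer of the ring has projective dimension `< a`, then so has every
finitely generated module killed by the radical that is an image of `J^i • P` for some `P`. -/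
theorem pdLT_of_radLayer [IsArtinianRing R] {i a : ℕ} (h : PdLT R (RadLayer R i) a)
    {P X : Type u} [AddCommGroup P] [Module R P] [AddCommGroup X] [Module R X]
    [Module.Finite R X] (hX : ∀ b ∈ Ring.jacobson R, ∀ x : X, b • x = 0)
    (θ : ↥(radF R P i) →ₗ[R] X) (hθ : Function.Surjective θ) : PdLT R X a := by
  classical
  have hXss : IsSemisimpleModule R X := itlay_semisimple_of_kills hX
  have hLss : IsSemisimpleModule R (RadLayer R i) :=
    itlay_semisimple_of_kills (itlay_radLayer_kills i)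
  have hNoeth : IsNoetherian R X := inferInstance
  have hne : ({W : Submodule R X | PdLT R ↥W a}).Nonempty := ⟨⊥, pdLT_of_subsingleton _ a⟩
  obtain ⟨W₀, hW₀, hmax⟩ := (wellFounded_gt (α := Submodule R X)).has_min _ hne
  have hV : ∀ ψ : RadLayer R i →ₗ[R] X, LinearMap.range ψ ≤ W₀ := by
    intro ψ
    have h1 : PdLT R ↥(LinearMap.range ψ) a :=
      itlay_pdLT_of_surj ψ.rangeRestrict ψ.surjective_rangeRestrict h
    have hW₀' : PdLT R ↥W₀ a := hW₀
    have h2 : PdLT R ↥(W₀ ⊔ LinearMap.range ψ) a := by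
      have hprod : IsSemisimpleModule R (↥W₀ × ↥(LinearMap.range ψ)) :=
        itlay_semisimple_prod W₀ (LinearMap.range ψ)
      refine itlay_pdLT_of_surj
        ((Submodule.inclusion (le_sup_left : W₀ ≤ W₀ ⊔ LinearMap.range ψ)).coprod
          (Submodule.inclusion (le_sup_right : LinearMap.range ψ ≤ W₀ ⊔ LinearMap.range ψ)))
        ?_ (pdLT_prod hW₀' h1)
      rintro ⟨z, hz⟩
      obtain ⟨w, hw, v, hv, rfl⟩ := Submodule.mem_sup.1 hz
      exact ⟨(⟨w, hw⟩, ⟨v, hv⟩), Subtype.ext (by simp)⟩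
    have h3 : ¬ (W₀ ⊔ LinearMap.range ψ > W₀) := hmax _ h2
    have h4 : W₀ ⊔ LinearMap.range ψ = W₀ := by
      by_contra hne'
      exact h3 (lt_of_le_of_ne le_sup_left (Ne.symm hne'))
    rw [← h4]
    exact le_sup_right
  have hall : ∀ w ∈ radF R P i, ∃ hw : w ∈ radF R P i, θ ⟨w, hw⟩ ∈ W₀ := by
    intro w hw
    refine Submodule.smul_induction_on hw ?_ ?_
    · intro x hx p _
      obtain ⟨ψ, hψ⟩ := itlay_exists_psi hX θ p
      obtain ⟨hm, hψx⟩ := hψ x hx
      refine ⟨hm, ?_⟩
      rw [← hψx]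
      exact hV ψ ⟨_, rfl⟩
    · rintro y z ⟨hy, hy'⟩ ⟨hz, hz'⟩
      refine ⟨Submodule.add_mem _ hy hz, ?_⟩
      have hsum : (⟨y + z, Submodule.add_mem _ hy hz⟩ : ↥(radF R P i)) = ⟨y, hy⟩ + ⟨z, hz⟩ :=
        rfl
      rw [hsum, map_add]
      exact Submodule.add_mem _ hy' hz'
  have htop : W₀ = ⊤ := by
    rw [eq_top_iff]
    intro x _
    obtain ⟨⟨w, hw⟩, rfl⟩ := hθ x
    obtain ⟨hw', h'⟩ := hall w hw
    exact h'
  subst htop
  exact PdLT.of_equiv Submodule.topEquiv hW₀

end Vale.Agent.Lib.P176
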