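import Mathlib
import Vale.Agent.Lib.P176.ITBasic
import Vale.Agent.Lib.P176.ITSubQ
import Vale.Agent.Lib.P176.ITLay

/-!
Layers of the radical filtration of a module and of a submodule with the induced filtration.
-/

universe u

namespace Vale.Agent.Lib.P176

variable {R : Type u} [Ring R]

/-- A module killed by the radical of a semiprimary ring is semisimple. -/
theorem itlayb_semisimple [IsSemiprimaryRing R] {X : Type u} [AddCommGroup X] [Module R X]
    (h : ∀ b ∈ Ring.jacobson R, ∀ x : X, b • x = 0) : IsSemisimpleModule R X := by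
  have h' : Module.IsTorsionBySet R X (Ring.jacobson R : Set R) := by
    intro x a
    exact h a.1 a.2 x
  let _ := h'.module
  exact (h'.semilinearMap.isSemisimpleModule_iff_of_bijective Function.bijective_id).2
    inferInstance

theorem radKills_layer (P : Type u) [AddCommGroup P] [Module R P] (i : ℕ) :
    ∀ b ∈ Ring.jacobson R, ∀ x : SubQ (radF R P i) (radF R P (i + 1)), b • x = 0 := by
  intro b hb x
  obtain ⟨y, rfl⟩ := Submodule.Quotient.mk_surjective _ x
  rw [← Submodule.Quotient.mk_smul, Submodule.Quotient.mk_eq_zero]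
  show ((b • y : ↥(radF R P i)) : P) ∈ radF R P (i + 1)
  rw [Submodule.coe_smul]
  exact smul_mem_radF_succ hb y.2

theorem pdLT_of_radKills [IsArtinianRing R] {a : ℕ} (h : PdLT R (RadLayer R 0) a) (X : Type u)
    [AddCommGroup X] [Module R X] [Module.Finite R X]
    (hX : ∀ b ∈ Ring.jacobson R, ∀ x : X, b • x = 0) : PdLT R X a := by
  refine pdLT_of_radLayer (i := 0) h (P := X) hX (radF R X 0).subtype ?_
  intro x
  refine ⟨⟨x, ?_⟩, rfl⟩
  rw [radF_zero]
  exact Submodule.mem_top

theorem radKills_sublayer {P : Type u} [AddCommGroup P] [Module R P] (K : Submodule R P)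
    (i : ℕ) : ∀ b ∈ Ring.jacobson R,
      ∀ x : SubQ ((radF R P i).submoduleOf K) ((radF R P (i + 1)).submoduleOf K), b • x = 0 := by
  intro b hb x
  obtain ⟨y, rfl⟩ := Submodule.Quotient.mk_surjective _ x
  rw [← Submodule.Quotient.mk_smul, Submodule.Quotient.mk_eq_zero]
  show (((b • y : ↥((radF R P i).submoduleOf K)) : ↥K) : P) ∈ radF R P (i + 1)
  rw [Submodule.coe_smul, Submodule.coe_smul]
  exact smul_mem_radF_succ hb y.2

theorem pdLT_sublayer [IsArtinianRing R] {i a : ℕ} (h : PdLT R (RadLayer R i) a) {P : Type u}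
    [AddCommGroup P] [Module R P] [IsNoetherian R P] (K : Submodule R P) :
    PdLT R (SubQ ((radF R P i).submoduleOf K) ((radF R P (i + 1)).submoduleOf K)) a := by
  have hfin : Module.Finite R (SubQ (radF R P i) (radF R P (i + 1))) := SubQ.finite _ _
  have hX2 : PdLT R (SubQ (radF R P i) (radF R P (i + 1))) a :=
    pdLT_of_radLayer h (radKills_layer P i) (Submodule.mkQ _) (Submodule.mkQ_surjective _)
  have hss : IsSemisimpleModule R (SubQ (radF R P i) (radF R P (i + 1))) :=
    itlayb_semisimple (radKills_layer P i)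
  let ι : ↥((radF R P i).submoduleOf K) →ₗ[R] ↥(radF R P i) :=
    LinearMap.codRestrict (radF R P i) (K.subtype ∘ₗ ((radF R P i).submoduleOf K).subtype)
      (fun x => x.2)
  have hle : ((radF R P (i + 1)).submoduleOf K).submoduleOf ((radF R P i).submoduleOf K) ≤
      ((radF R P (i + 1)).submoduleOf (radF R P i)).comap ι := by
    intro x hx
    exact hx
  let ε : SubQ ((radF R P i).submoduleOf K) ((radF R P (i + 1)).submoduleOf K) →ₗ[R]
      SubQ (radF R P i) (radF R P (i + 1)) :=
    Submodule.mapQ _ _ ι hle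
  have hε : Function.Injective ε := by
    rw [injective_iff_map_eq_zero]
    intro q hq
    obtain ⟨x, rfl⟩ := Submodule.Quotient.mk_surjective _ q
    have h1 : ε (Submodule.Quotient.mk x) = Submodule.Quotient.mk (ι x) := rfl
    rw [h1, Submodule.Quotient.mk_eq_zero] at hq
    rw [Submodule.Quotient.mk_eq_zero]
    exact hq
  obtain ⟨ρ, hρ⟩ := IsSemisimpleModule.extension_property ε hε LinearMap.id
  exact Retr.pdLT ⟨ε, ρ, hρ⟩ hX2

end Vale.Agent.Lib.P176
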