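import Mathlib
import Vale.Agent.Lib.P176.ITBasic

/-!
Syzygies as a relation, Schanuel's lemma in its stable form, the horseshoe lemma, and the
behaviour of projective dimension under passing to syzygies.
-/

universe u

namespace Vale.Agent.Lib.P176

open CategoryTheory Abelian

variable {R : Type u} [Ring R]

section Schanuel

variable {M P P' : Type u} [AddCommGroup M] [Module R M] [AddCommGroup P] [Module R P]
  [AddCommGroup P'] [Module R P']

/-- Schanuel's lemma. -/
theorem schanuel [Module.Projective R P] [Module.Projective R P'] (ρ : P →ₗ[R] M)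
    (ρ' : P' →ₗ[R] M) (hρ : Function.Surjective ρ) (hρ' : Function.Surjective ρ') :
    Nonempty ((LinearMap.ker ρ × P') ≃ₗ[R] (LinearMap.ker ρ' × P)) := by
  obtain ⟨a, ha⟩ := Module.projective_lifting_property ρ ρ' hρ
  obtain ⟨b, hb⟩ := Module.projective_lifting_property ρ' ρ hρ'
  have ha' : ∀ p', ρ (a p') = ρ' p' := fun p' => LinearMap.congr_fun ha p'
  have hb' : ∀ p, ρ' (b p) = ρ p := fun p => LinearMap.congr_fun hb p
  let u : (LinearMap.ker ρ × P') →ₗ[R] P :=
    (LinearMap.ker ρ).subtype ∘ₗ LinearMap.fst R _ _ + a ∘ₗ LinearMap.snd R _ _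
  let v : (LinearMap.ker ρ × P') →ₗ[R] P' := LinearMap.snd R _ _ - b ∘ₗ u
  have hv : ∀ x, v x ∈ LinearMap.ker ρ' := by
    rintro ⟨k, p'⟩
    have hk : ρ (k : P) = 0 := k.2
    simp [v, u, hb', ha', hk]
  let u' : (LinearMap.ker ρ' × P) →ₗ[R] P' :=
    (LinearMap.ker ρ').subtype ∘ₗ LinearMap.fst R _ _ + b ∘ₗ LinearMap.snd R _ _
  let v' : (LinearMap.ker ρ' × P) →ₗ[R] P := LinearMap.snd R _ _ - a ∘ₗ u'
  have hv' : ∀ x, v' x ∈ LinearMap.ker ρ := by
    rintro ⟨k, p⟩
    have hk : ρ' (k : P') = 0 := k.2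
    simp [v', u', hb', ha', hk]
  let Φ : (LinearMap.ker ρ × P') →ₗ[R] (LinearMap.ker ρ' × P) :=
    LinearMap.prod (v.codRestrict _ hv) u
  let Ψ : (LinearMap.ker ρ' × P) →ₗ[R] (LinearMap.ker ρ × P') :=
    LinearMap.prod (v'.codRestrict _ hv') u'
  refine ⟨LinearEquiv.ofLinearMap Φ Ψ ?_ ?_⟩
  · apply LinearMap.ext
    rintro ⟨k, p⟩
    refine Prod.ext (Subtype.ext ?_) ?_
    · simp [Φ, Ψ, u, v, u', v']
    · simp [Φ, Ψ, u, v, u', v']
  · apply LinearMap.ext
    rintro ⟨k, p'⟩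
    refine Prod.ext (Subtype.ext ?_) ?_
    · simp [Φ, Ψ, u, v, u', v']
    · simp [Φ, Ψ, u, v, u', v']

end Schanuel

section KerIso

variable {X X' P Q : Type u} [AddCommGroup X] [Module R X] [AddCommGroup X'] [Module R X']
  [AddCommGroup P] [Module R P] [AddCommGroup Q] [Module R Q]

/-- The kernel of `π × id` is the kernel of `π`. -/
def kerProdMapEquiv (π : P →ₗ[R] X) (Q : Type u) [AddCommGroup Q] [Module R Q] :
    LinearMap.ker (π.prodMap (LinearMap.id : Q →ₗ[R] Q)) ≃ₗ[R] LinearMap.ker π :=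
  LinearEquiv.ofLinearMap
    ((LinearMap.fst R P Q ∘ₗ (LinearMap.ker (π.prodMap (LinearMap.id : Q →ₗ[R] Q))).subtype).codRestrict
      _ (by
        rintro ⟨⟨p, q⟩, h⟩
        have h' : (π p, q) = 0 := h
        exact (Prod.ext_iff.mp h').1))
    ((LinearMap.inl R P Q ∘ₗ (LinearMap.ker π).subtype).codRestrict _ (by
        rintro ⟨p, h⟩
        have h' : π p = 0 := h
        show (π p, (0 : Q)) = 0
        rw [h']
        rfl))
    (by
      apply LinearMap.ext
      rintro ⟨p, h⟩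
      rfl)
    (by
      apply LinearMap.ext
      rintro ⟨⟨p, q⟩, h⟩
      have h' : (π p, q) = 0 := h
      have hq : q = 0 := (Prod.ext_iff.mp h').2
      subst hq
      rfl)

/-- The kernel is unchanged by composing with an isomorphism. -/
def kerCompEquiv (e : X ≃ₗ[R] X') (ρ : P →ₗ[R] X) :
    LinearMap.ker (e.toLinearMap ∘ₗ ρ) ≃ₗ[R] LinearMap.ker ρ :=
  LinearEquiv.ofEq _ _ (LinearEquiv.ker_comp e ρ)

end KerIso

section StableKer

variable {X X' P P' : Type u} [AddCommGroup X] [Module R X] [AddCommGroup X'] [Module R X']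
  [AddCommGroup P] [Module R P] [AddCommGroup P'] [Module R P']

/-- Stable Schanuel: kernels of projective presentations of stably isomorphic modules are
stably isomorphic. -/
theorem stIso_ker [Module.Projective R P] [Module.Finite R P] [Module.Projective R P']
    [Module.Finite R P'] (π : P →ₗ[R] X) (π' : P' →ₗ[R] X') (hπ : Function.Surjective π)
    (hπ' : Function.Surjective π') (h : StIso R X X') :
    StIso R (LinearMap.ker π) (LinearMap.ker π') := by
  obtain ⟨Q, Q', h1, h2, h3, h4, ⟨e⟩⟩ := h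
  let ρ₀ : (P × Q) →ₗ[R] (X × Q) := π.prodMap (LinearMap.id : Q →ₗ[R] Q)
  let ρ : (P × Q) →ₗ[R] (X' × Q') := e.toLinearMap ∘ₗ ρ₀
  let ρ' : (P' × Q') →ₗ[R] (X' × Q') := π'.prodMap (LinearMap.id : Q' →ₗ[R] Q')
  have hρ₀ : Function.Surjective ρ₀ := by
    rintro ⟨x, q⟩
    obtain ⟨p, rfl⟩ := hπ x
    exact ⟨(p, q), rfl⟩
  have hρ : Function.Surjective ρ := e.surjective.comp hρ₀
  have hρ' : Function.Surjective ρ' := by
    rintro ⟨x, q⟩
    obtain ⟨p, rfl⟩ := hπ' x
    exact ⟨(p, q), rfl⟩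
  obtain ⟨s⟩ := schanuel ρ ρ' hρ hρ'
  have e1 : LinearMap.ker ρ ≃ₗ[R] LinearMap.ker π := (kerCompEquiv e ρ₀).trans (kerProdMapEquiv π Q)
  have e2 : LinearMap.ker ρ' ≃ₗ[R] LinearMap.ker π' := kerProdMapEquiv π' Q'
  refine ⟨ModuleCat.of R (P' × Q'), ModuleCat.of R (P × Q), ?_, ?_, ?_, ?_, ⟨?_⟩⟩
  · exact inferInstanceAs (Module.Projective R (P' × Q'))
  · exact inferInstanceAs (Module.Finite R (P' × Q'))
  · exact inferInstanceAs (Module.Projective R (P × Q))
  · exact inferInstanceAs (Module.Finite R (P × Q))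
  · exact (LinearEquiv.prodCongr e1.symm (LinearEquiv.refl R _)).trans
      (s.trans (LinearEquiv.prodCongr e2 (LinearEquiv.refl R _)))

end StableKer

section HorseshoeStep

variable {A B C PA PC : Type u} [AddCommGroup A] [Module R A] [AddCommGroup B] [Module R B]
  [AddCommGroup C] [Module R C] [AddCommGroup PA] [Module R PA] [AddCommGroup PC] [Module R PC]

/-- One step of the horseshoe lemma. -/
theorem horseshoe_step [Module.Projective R PC] (S : SES R A B C) (πA : PA →ₗ[R] A)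
    (πC : PC →ₗ[R] C) (hA : Function.Surjective πA) (hC : Function.Surjective πC) :
    ∃ πB : (PA × PC) →ₗ[R] B, Function.Surjective πB ∧
      Nonempty (SES R (LinearMap.ker πA) (LinearMap.ker πB) (LinearMap.ker πC)) := by
  obtain ⟨σ, hσ⟩ := Module.projective_lifting_property S.g πC S.surj
  have hσ' : ∀ q, S.g (σ q) = πC q := fun q => LinearMap.congr_fun hσ q
  have hgf : ∀ a, S.g (S.f a) = 0 := fun a => (S.exact _).mpr ⟨a, rfl⟩
  let πB : (PA × PC) →ₗ[R] B := (S.f ∘ₗ πA).coprod σ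
  have hπB : ∀ p q, πB (p, q) = S.f (πA p) + σ q := fun p q => by simp [πB]
  have hsurj : Function.Surjective πB := by
    intro b
    obtain ⟨q, hq⟩ := hC (S.g b)
    have h1 : S.g (b - σ q) = 0 := by rw [map_sub, hσ', hq, sub_self]
    obtain ⟨a, ha⟩ := (S.exact _).mp h1
    obtain ⟨p, rfl⟩ := hA a
    refine ⟨(p, q), ?_⟩
    rw [hπB, ha]
    abel
  refine ⟨πB, hsurj, ⟨?_⟩⟩
  have hf' : ∀ k : LinearMap.ker πA,
      (LinearMap.inl R PA PC ∘ₗ (LinearMap.ker πA).subtype) k ∈ LinearMap.ker πB := by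
    rintro ⟨p, hp⟩
    have hp' : πA p = 0 := hp
    show πB (p, 0) = 0
    rw [hπB, hp', map_zero, map_zero, add_zero]
  have hg' : ∀ x : LinearMap.ker πB,
      (LinearMap.snd R PA PC ∘ₗ (LinearMap.ker πB).subtype) x ∈ LinearMap.ker πC := by
    rintro ⟨⟨p, q⟩, hx⟩
    have hx' : S.f (πA p) + σ q = 0 := by rw [← hπB]; exact hx
    show πC q = 0
    rw [← hσ']
    have h2 : S.g (S.f (πA p) + σ q) = 0 := by rw [hx', map_zero]
    rw [map_add, hgf, zero_add] at h2
    exact h2
  refine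
    { f := (LinearMap.inl R PA PC ∘ₗ (LinearMap.ker πA).subtype).codRestrict _ hf'
      g := (LinearMap.snd R PA PC ∘ₗ (LinearMap.ker πB).subtype).codRestrict _ hg'
      inj := ?_
      surj := ?_
      exact := ?_ }
  · rintro ⟨p, hp⟩ ⟨p', hp'⟩ h
    have h' := congrArg (fun x : LinearMap.ker πB => (x : PA × PC).1) h
    exact Subtype.ext h'
  · rintro ⟨q, hq⟩
    have hq' : πC q = 0 := hq
    have h1 : S.g (σ q) = 0 := by rw [hσ', hq']
    obtain ⟨a, ha⟩ := (S.exact _).mp h1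
    obtain ⟨p, rfl⟩ := hA a
    have hmem : ((-p, q) : PA × PC) ∈ LinearMap.ker πB := by
      show πB (-p, q) = 0
      rw [hπB, map_neg, map_neg, ha]
      abel
    exact ⟨⟨(-p, q), hmem⟩, rfl⟩
  · rintro ⟨⟨p, q⟩, hx⟩
    constructor
    · intro h
      have hq : q = 0 := congrArg Subtype.val h
      subst hq
      have hx' : S.f (πA p) + σ 0 = 0 := by rw [← hπB]; exact hx
      rw [map_zero, add_zero] at hx'
      have hp : πA p = 0 := S.inj (by rw [hx', map_zero])
      exact ⟨⟨p, hp⟩, rfl⟩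
    · rintro ⟨⟨p', hp'⟩, h⟩
      have h' := congrArg (fun x : LinearMap.ker πB => (x : PA × PC).2) h
      exact Subtype.ext h'.symm

end HorseshoeStep

/-- `K` is an `m`-th syzygy of `X`: obtained by `m` successive kernels of surjections from
finitely generated projective modules. -/
def IsSyzC : ℕ → ModuleCat.{u} R → ModuleCat.{u} R → Prop
  | 0, X, K => Nonempty (X ≃ₗ[R] K)
  | m + 1, X, K => ∃ (K₁ P : ModuleCat.{u} R) (π : P →ₗ[R] K₁), IsSyzC m X K₁ ∧
      Module.Projective R P ∧ Module.Finite R P ∧ Function.Surjective π ∧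
      Nonempty (LinearMap.ker π ≃ₗ[R] K)

namespace IsSyzC

variable {X X' K K' : ModuleCat.{u} R} {m : ℕ}

theorem congr_right (h : IsSyzC m X K) (e : K ≃ₗ[R] K') : IsSyzC m X K' := by
  cases m with
  | zero =>
    obtain ⟨e₀⟩ := h
    exact ⟨e₀.trans e⟩
  | succ m =>
    obtain ⟨K₁, P, π, h1, h2, h3, h4, ⟨e₀⟩⟩ := h
    exact ⟨K₁, P, π, h1, h2, h3, h4, ⟨e₀.trans e⟩⟩

theorem congr_left (h : IsSyzC m X K) (e : X ≃ₗ[R] X') : IsSyzC m X' K := by
  induction m generalizing K with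
  | zero =>
    obtain ⟨e₀⟩ := h
    exact ⟨e.symm.trans e₀⟩
  | succ m ih =>
    obtain ⟨K₁, P, π, h1, h2, h3, h4, h5⟩ := h
    exact ⟨K₁, P, π, ih h1, h2, h3, h4, h5⟩

theorem of_ker {K₁ : ModuleCat.{u} R} (h : IsSyzC m X K₁) {P : Type u} [AddCommGroup P]
    [Module R P] [Module.Projective R P] [Module.Finite R P] (π : P →ₗ[R] K₁)
    (hπ : Function.Surjective π) : IsSyzC (m + 1) X (ModuleCat.of R (LinearMap.ker π)) :=
  ⟨K₁, ModuleCat.of R P, π, h, inferInstanceAs (Module.Projective R P),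
    inferInstanceAs (Module.Finite R P), hπ, ⟨LinearEquiv.refl R _⟩⟩

theorem finite [IsNoetherianRing R] (h : IsSyzC m X K) [Module.Finite R X] :
    Module.Finite R K := by
  induction m generalizing K with
  | zero =>
    obtain ⟨e₀⟩ := h
    exact Module.Finite.equiv e₀
  | succ m ih =>
    obtain ⟨K₁, P, π, h1, h2, h3, h4, ⟨e₀⟩⟩ := h
    have : IsNoetherian R P := isNoetherian_of_isNoetherianRing_of_finite R P
    exact Module.Finite.equiv e₀

theorem exists_syz [IsNoetherianRing R] (X : ModuleCat.{u} R) [Module.Finite R X] (m : ℕ) :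
    ∃ K : ModuleCat.{u} R, IsSyzC m X K := by
  induction m with
  | zero => exact ⟨X, ⟨LinearEquiv.refl R _⟩⟩
  | succ m ih =>
    obtain ⟨K₁, h1⟩ := ih
    have hfin : Module.Finite R K₁ := h1.finite
    obtain ⟨n, f, hf⟩ := Module.Finite.exists_fin' R K₁
    exact ⟨_, h1.of_ker f hf⟩

/-- Generalised Schanuel: syzygies of stably isomorphic modules are stably isomorphic. -/
theorem stIso (h : IsSyzC m X K) (h' : IsSyzC m X' K') (hs : StIso R X X') : StIso R K K' := by
  induction m generalizing K K' with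
  | zero =>
    obtain ⟨e⟩ := h
    obtain ⟨e'⟩ := h'
    exact ((StIso.of_equiv e.symm).trans hs).trans (StIso.of_equiv e')
  | succ m ih =>
    obtain ⟨K₁, P, π, h1, h2, h3, h4, ⟨e⟩⟩ := h
    obtain ⟨K₁', P', π', h1', h2', h3', h4', ⟨e'⟩⟩ := h'
    have hK := stIso_ker π π' h4 h4' (ih h1 h1')
    exact ((StIso.of_equiv e.symm).trans hK).trans (StIso.of_equiv e')

/-- Syzygies of a finite product. -/
theorem pi {κ : Type} [Fintype κ] (X K : κ → ModuleCat.{u} R) (h : ∀ l, IsSyzC m (X l) (K l)) :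
    IsSyzC m (ModuleCat.of R (∀ l, X l)) (ModuleCat.of R (∀ l, K l)) := by
  induction m generalizing K with
  | zero =>
    have e : ∀ l, (X l) ≃ₗ[R] (K l) := fun l => (h l).some
    exact ⟨LinearEquiv.piCongrRight e⟩
  | succ m ih =>
    choose K₁ P π h1 h2 h3 h4 h5 using h
    have e : ∀ l, LinearMap.ker (π l) ≃ₗ[R] K l := fun l => (h5 l).some
    have hP : ∀ l, Module.Projective R (P l) := h2
    have hF : ∀ l, Module.Finite R (P l) := h3
    let π' : (∀ l, P l) →ₗ[R] (∀ l, K₁ l) := LinearMap.pi fun l => π l ∘ₗ LinearMap.proj l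
    have hπ' : Function.Surjective π' := by
      intro y
      choose x hx using fun l => h4 l (y l)
      exact ⟨x, funext hx⟩
    have hmem : ∀ (x : LinearMap.ker π') (l : κ), (x : ∀ l, P l) l ∈ LinearMap.ker (π l) := by
      intro x l
      have hx : π' (x : ∀ l, P l) = 0 := x.2
      exact congrFun hx l
    let eK : LinearMap.ker π' ≃ₗ[R] (∀ l, LinearMap.ker (π l)) :=
      { toFun := fun x l => ⟨(x : ∀ l, P l) l, hmem x l⟩
        map_add' := fun x y => rfl
        map_smul' := fun c x => rfl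
        invFun := fun y => ⟨fun l => (y l : P l), by
          show π' (fun l => (y l : P l)) = 0
          funext l
          exact (y l).2⟩
        left_inv := fun x => rfl
        right_inv := fun y => rfl }
    refine ⟨ModuleCat.of R (∀ l, K₁ l), ModuleCat.of R (∀ l, P l), π', ih K₁ h1, ?_, ?_, hπ',
      ⟨eK.trans (LinearEquiv.piCongrRight e)⟩⟩
    · classical
      exact pdLT_one_iff.mp (pdLT_pi (fun l => (P l : Type u)) (fun l => pdLT_one_iff.mpr (hP l)))
    · exact inferInstanceAs (Module.Finite R (∀ l, P l))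

/-- The horseshoe lemma for iterated syzygies. -/
theorem horseshoe {A B C KA KC : ModuleCat.{u} R} (S : SES R A B C) (hA : IsSyzC m A KA)
    (hC : IsSyzC m C KC) :
    ∃ KB : ModuleCat.{u} R, IsSyzC m B KB ∧ Nonempty (SES R KA KB KC) := by
  induction m generalizing KA KC with
  | zero =>
    obtain ⟨eA⟩ := hA
    obtain ⟨eC⟩ := hC
    exact ⟨B, ⟨LinearEquiv.refl R _⟩, ⟨S.congr eA eC⟩⟩
  | succ m ih =>
    obtain ⟨K₁A, PA, πA, h1, h2, h3, h4, ⟨eA⟩⟩ := hA
    obtain ⟨K₁C, PC, πC, h1', h2', h3', h4', ⟨eC⟩⟩ := hC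
    obtain ⟨K₁B, hB, ⟨S₁⟩⟩ := ih h1 h1'
    obtain ⟨πB, hπB, ⟨S₂⟩⟩ := horseshoe_step S₁ πA πC h4 h4'
    refine ⟨ModuleCat.of R (LinearMap.ker πB), ?_, ⟨S₂.congr eA eC⟩⟩
    exact ⟨K₁B, ModuleCat.of R (PA × PC), πB, hB, inferInstanceAs (Module.Projective R (PA × PC)),
      inferInstanceAs (Module.Finite R (PA × PC)), hπB, ⟨LinearEquiv.refl R _⟩⟩

/-- If the syzygy has projective dimension `< d` then the module has projective dimension
`< m + d`. -/
theorem pdLT_of {d : ℕ} (h : IsSyzC m X K) (hd : 1 ≤ d) (hK : PdLT R K d) :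
    PdLT R X (m + d) := by
  induction m generalizing K d with
  | zero =>
    obtain ⟨e⟩ := h
    exact (hK.of_equiv e.symm).mono (by omega)
  | succ m ih =>
    obtain ⟨K₁, P, π, h1, h2, h3, h4, ⟨e⟩⟩ := h
    have hker : PdLT R (LinearMap.ker π) d := hK.of_equiv e.symm
    have hP : PdLT R P (d + 1) := pdLT_of_projective (by omega)
    have hK₁ : PdLT R K₁ (d + 1) := (SES.ofSurj π h4).pdLT_right hker hP
    exact (ih h1 (by omega) hK₁).mono (by omega)

/-- If the module has projective dimension `< m + d` then the syzygy has projective dimension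
`< d`. -/
theorem pdLT {d : ℕ} (h : IsSyzC m X K) (hd : 1 ≤ d) (hX : PdLT R X (m + d)) :
    PdLT R K d := by
  induction m generalizing K d with
  | zero =>
    obtain ⟨e⟩ := h
    exact (hX.mono (by omega)).of_equiv e
  | succ m ih =>
    obtain ⟨K₁, P, π, h1, h2, h3, h4, ⟨e⟩⟩ := h
    have hK₁ : PdLT R K₁ (d + 1) := ih h1 (by omega) (hX.mono (by omega))
    have hP : PdLT R P d := pdLT_of_projective hd
    exact ((SES.ofSurj π h4).pdLT_left hP hK₁).of_equiv e

end IsSyzC

end Vale.Agent.Lib.P176
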