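import Mathlib
import Vale.Agent.Lib.P176.ITBasic
import Vale.Agent.Lib.P176.ITSyz

/-!
Standard modules `Std U v` (finite direct sums of copies of finitely many given modules),
syzygies of products, and some further constructions on short exact sequences.
-/

universe u

namespace Vale.Agent.Lib.P176

open CategoryTheory Abelian

variable {R : Type u} [Ring R]

section SesMore

variable {A B C : Type u} [AddCommGroup A] [Module R A] [AddCommGroup B] [Module R B]
  [AddCommGroup C] [Module R C]

/-- Add a common direct summand to the first two terms of a short exact sequence. -/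
def SES.addSummand (S : SES R A B C) (T : Type u) [AddCommGroup T] [Module R T] :
    SES R (A × T) (B × T) C where
  f := S.f.prodMap LinearMap.id
  g := S.g ∘ₗ LinearMap.fst R B T
  inj := by
    rintro ⟨a, t⟩ ⟨a', t'⟩ h
    have h1 : S.f a = S.f a' := congrArg Prod.fst h
    have h2 : t = t' := congrArg Prod.snd h
    rw [S.inj h1, h2]
  surj := S.surj.comp LinearMap.fst_surjective
  exact := by
    rintro ⟨b, t⟩
    constructor
    · intro hb
      have hb' : S.g b = 0 := hb
      obtain ⟨a, ha⟩ := (S.exact b).mp hb'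
      exact ⟨(a, t), Prod.ext ha rfl⟩
    · rintro ⟨⟨a, t'⟩, h⟩
      have h1 : S.f a = b := congrArg Prod.fst h
      show S.g b = 0
      exact (S.exact b).mpr ⟨a, h1⟩

/-- In a short exact sequence with trivial first term the surjection is an isomorphism. -/
noncomputable def SES.equivOfSubsingleton [Subsingleton A] (S : SES R A B C) : B ≃ₗ[R] C :=
  LinearEquiv.ofBijective S.g ⟨by
    rw [← LinearMap.ker_eq_bot, LinearMap.ker_eq_bot']
    intro b hb
    obtain ⟨a, ha⟩ := (S.exact b).mp hb
    rw [← ha, Subsingleton.elim a 0, map_zero], S.surj⟩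

/-- Rotation: from `0 → A → B → C → 0` and a projective `P` mapping onto `C` with kernel `K`
one gets `0 → K → A × P → B → 0`. -/
theorem SES.rotate (S : SES R A B C) {P : Type u} [AddCommGroup P] [Module R P]
    [Module.Projective R P] (π : P →ₗ[R] C) (hπ : Function.Surjective π) :
    Nonempty (SES R (LinearMap.ker π) (A × P) B) := by
  obtain ⟨πB, hπB, ⟨S₁⟩⟩ :=
    horseshoe_step S (LinearMap.id : A →ₗ[R] A) π Function.surjective_id hπ
  have hsub : Subsingleton (LinearMap.ker (LinearMap.id : A →ₗ[R] A)) := by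
    constructor
    rintro ⟨a, ha⟩ ⟨a', ha'⟩
    have h1 : a = 0 := ha
    have h2 : a' = 0 := ha'
    exact Subtype.ext (h1.trans h2.symm)
  exact ⟨(SES.ofSurj πB hπB).congr S₁.equivOfSubsingleton (LinearEquiv.refl R B)⟩

end SesMore

namespace IsSyzC

variable {X X' K K' : ModuleCat.{u} R} {m : ℕ}

/-- Syzygies of a binary product. -/
theorem prod (h : IsSyzC m X K) (h' : IsSyzC m X' K') :
    IsSyzC m (ModuleCat.of R (X × X')) (ModuleCat.of R (K × K')) := by
  induction m generalizing K K' with
  | zero =>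
    obtain ⟨e⟩ := h
    obtain ⟨e'⟩ := h'
    exact ⟨LinearEquiv.prodCongr e e'⟩
  | succ m ih =>
    obtain ⟨K₁, P, π, h1, h2, h3, h4, ⟨e⟩⟩ := h
    obtain ⟨K₁', P', π', h1', h2', h3', h4', ⟨e'⟩⟩ := h'
    let ρ : (P × P') →ₗ[R] (K₁ × K₁') := π.prodMap π'
    have hρ : Function.Surjective ρ := by
      rintro ⟨x, x'⟩
      obtain ⟨p, rfl⟩ := h4 x
      obtain ⟨p', rfl⟩ := h4' x'
      exact ⟨(p, p'), rfl⟩
    have hmem1 : ∀ x : LinearMap.ker ρ, (x : P × P').1 ∈ LinearMap.ker π := by
      rintro ⟨⟨p, p'⟩, hx⟩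
      have hx' : (π p, π' p') = 0 := hx
      exact (Prod.ext_iff.mp hx').1
    have hmem2 : ∀ x : LinearMap.ker ρ, (x : P × P').2 ∈ LinearMap.ker π' := by
      rintro ⟨⟨p, p'⟩, hx⟩
      have hx' : (π p, π' p') = 0 := hx
      exact (Prod.ext_iff.mp hx').2
    let eK : LinearMap.ker ρ ≃ₗ[R] (LinearMap.ker π × LinearMap.ker π') :=
      { toFun := fun x => (⟨(x : P × P').1, hmem1 x⟩, ⟨(x : P × P').2, hmem2 x⟩)
        map_add' := fun x y => rfl
        map_smul' := fun c x => rfl
        invFun := fun y => ⟨((y.1 : P), (y.2 : P')), by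
          show (π (y.1 : P), π' (y.2 : P')) = 0
          have e1 : π (y.1 : P) = 0 := y.1.2
          have e2 : π' (y.2 : P') = 0 := y.2.2
          rw [e1, e2]
          rfl⟩
        left_inv := fun x => rfl
        right_inv := fun y => rfl }
    refine ⟨ModuleCat.of R (K₁ × K₁'), ModuleCat.of R (P × P'), ρ, ih h1 h1', ?_, ?_, hρ,
      ⟨eK.trans (LinearEquiv.prodCongr e e')⟩⟩
    · exact inferInstanceAs (Module.Projective R (P × P'))
    · exact inferInstanceAs (Module.Finite R (P × P'))

end IsSyzC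

section Std

variable {ι : Type}

/-- The direct sum of `v j` copies of `U j`, over all `j`. -/
abbrev Std (U : ι → ModuleCat.{u} R) (v : ι → ℕ) : Type u := ∀ j, (Fin (v j) → U j)

/-- Product of families splits. -/
def piProdEquiv (X Y : ι → Type u) [∀ j, AddCommGroup (X j)] [∀ j, Module R (X j)]
    [∀ j, AddCommGroup (Y j)] [∀ j, Module R (Y j)] :
    (∀ j, X j × Y j) ≃ₗ[R] ((∀ j, X j) × (∀ j, Y j)) where
  toFun x := (fun j => (x j).1, fun j => (x j).2)
  map_add' _ _ := rfl
  map_smul' _ _ := rfl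
  invFun y := fun j => (y.1 j, y.2 j)
  left_inv _ := rfl
  right_inv _ := rfl

/-- `Std U (v + w)` is the product of `Std U v` and `Std U w`. -/
noncomputable def stdAddEquiv (U : ι → ModuleCat.{u} R) (v w : ι → ℕ) :
    Std U (v + w) ≃ₗ[R] (Std U v × Std U w) :=
  (LinearEquiv.piCongrRight (fun j =>
    ((LinearEquiv.funCongrLeft R (U j) (finSumFinEquiv (m := v j) (n := w j))).trans
      (LinearEquiv.sumArrowLequivProdArrow (Fin (v j)) (Fin (w j)) R (U j))))).trans
    (piProdEquiv (fun j => (Fin (v j) → U j)) (fun j => (Fin (w j) → U j)))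

/-- The standard module for a family indexed by a sum type. -/
def stdSumEquiv {ι' : Type} (U : ι → ModuleCat.{u} R) (U' : ι' → ModuleCat.{u} R) (v : ι → ℕ)
    (w : ι' → ℕ) : Std (Sum.elim U U') (Sum.elim v w) ≃ₗ[R] (Std U v × Std U' w) :=
  LinearEquiv.sumPiEquivProdPi R ι ι'
    (fun s => (Fin (Sum.elim v w s) → ((Sum.elim U U' s : ModuleCat.{u} R) : Type u)))

theorem std_zero_subsingleton (U : ι → ModuleCat.{u} R) : Subsingleton (Std U 0) := by
  constructor
  intro a b
  funext j i
  exact Fin.elim0 i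

/-- A family indexed by a sum type, with no copies from the second family. -/
noncomputable def stdInlEquiv {ι' : Type} (U : ι → ModuleCat.{u} R) (U' : ι' → ModuleCat.{u} R)
    (v : ι → ℕ) : Std (Sum.elim U U') (Sum.elim v 0) ≃ₗ[R] Std U v :=
  haveI := std_zero_subsingleton U'
  haveI : Unique (Std U' 0) := uniqueOfSubsingleton 0
  (stdSumEquiv U U' v 0).trans LinearEquiv.prodUnique

/-- A family indexed by a sum type, with no copies from the first family. -/
noncomputable def stdInrEquiv {ι' : Type} (U : ι → ModuleCat.{u} R) (U' : ι' → ModuleCat.{u} R)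
    (w : ι' → ℕ) : Std (Sum.elim U U') (Sum.elim 0 w) ≃ₗ[R] Std U' w :=
  haveI := std_zero_subsingleton U
  haveI : Unique (Std U 0) := uniqueOfSubsingleton 0
  (stdSumEquiv U U' 0 w).trans LinearEquiv.uniqueProd

/-- Syzygies of standard modules are standard modules on the syzygies. -/
theorem IsSyzC.std [Fintype ι] {m : ℕ} (U V : ι → ModuleCat.{u} R)
    (h : ∀ j, IsSyzC m (U j) (V j)) (v : ι → ℕ) :
    IsSyzC m (ModuleCat.of R (Std U v)) (ModuleCat.of R (Std V v)) :=
  IsSyzC.pi (fun j => ModuleCat.of R (Fin (v j) → U j)) (fun j => ModuleCat.of R (Fin (v j) → V j))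
    (fun j => IsSyzC.pi (fun _ => U j) (fun _ => V j) (fun _ => h j))

end Std

end Vale.Agent.Lib.P176
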