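import Mathlib
import Vale.Agent.Lib.P176.ITBasic
import Vale.Agent.Lib.P176.ITSyz
import Vale.Agent.Lib.P176.ITStd
import Vale.Agent.Lib.P176.ITKSd
import Vale.Agent.Lib.P176.ITFit

/-!
The Igusa-Todorov theorem in a form that avoids cancellation: for a finite family `U` of
finitely generated modules over an artinian ring there is a bound `c` such that every module
of finite projective dimension that is an extension of two modules which are stably finite
direct sums of copies of the `U j` has projective dimension `< c`.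
-/

universe u

namespace Vale.Agent.Lib.P176

open CategoryTheory Abelian

variable {R : Type u} [Ring R] {ι : Type}

/-- The `m`-th syzygies of `Std U v` and `Std U w` are stably isomorphic. -/
def SyzEq (U : ι → ModuleCat.{u} R) (m : ℕ) (v w : ι → ℕ) : Prop :=
  ∃ K K' : ModuleCat.{u} R, IsSyzC m (ModuleCat.of R (Std U v)) K ∧
    IsSyzC m (ModuleCat.of R (Std U w)) K' ∧ StIso R K K'

namespace SyzEq

variable {U : ι → ModuleCat.{u} R} {m : ℕ} {v w v' w' : ι → ℕ}

theorem all (h : SyzEq U m v w) {K K' : ModuleCat.{u} R}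
    (hK : IsSyzC m (ModuleCat.of R (Std U v)) K) (hK' : IsSyzC m (ModuleCat.of R (Std U w)) K') :
    StIso R K K' := by
  obtain ⟨K₀, K₀', h1, h2, h3⟩ := h
  exact ((hK.stIso h1 StIso.refl).trans h3).trans (h2.stIso hK' StIso.refl)

theorem symm (h : SyzEq U m v w) : SyzEq U m w v := by
  obtain ⟨K, K', h1, h2, h3⟩ := h
  exact ⟨K', K, h2, h1, h3.symm⟩

variable [Fintype ι] [IsNoetherianRing R]

theorem refl (hU : ∀ j, Module.Finite R (U j)) : SyzEq U m v v := by
  obtain ⟨K, hK⟩ := IsSyzC.exists_syz (ModuleCat.of R (Std U v)) m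
  exact ⟨K, K, hK, hK, StIso.refl⟩

theorem succ (hU : ∀ j, Module.Finite R (U j)) (h : SyzEq U m v w) : SyzEq U (m + 1) v w := by
  obtain ⟨K, K', h1, h2, h3⟩ := h
  have hfin : Module.Finite R K := h1.finite
  have hfin' : Module.Finite R K' := h2.finite
  obtain ⟨n, f, hf⟩ := Module.Finite.exists_fin' R K
  obtain ⟨n', f', hf'⟩ := Module.Finite.exists_fin' R K'
  exact ⟨_, _, h1.of_ker f hf, h2.of_ker f' hf', stIso_ker f f' hf hf' h3⟩

theorem mono (hU : ∀ j, Module.Finite R (U j)) {m' : ℕ} (hm : m ≤ m') (h : SyzEq U m v w) :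
    SyzEq U m' v w := by
  induction m', hm using Nat.le_induction with
  | base => exact h
  | succ k _ ih => exact ih.succ hU

omit [Fintype ι] [IsNoetherianRing R] in
theorem add (h : SyzEq U m v w) (h' : SyzEq U m v' w') : SyzEq U m (v + v') (w + w') := by
  obtain ⟨K₁, K₂, h1, h2, h3⟩ := h
  obtain ⟨K₁', K₂', h1', h2', h3'⟩ := h'
  refine ⟨ModuleCat.of R (K₁ × K₁'), ModuleCat.of R (K₂ × K₂'), ?_, ?_, h3.prod h3'⟩
  · exact (h1.prod h1').congr_left (stdAddEquiv U v v').symm
  · exact (h2.prod h2').congr_left (stdAddEquiv U w w').symm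

end SyzEq

/-- The difference vector of two multiplicity vectors. -/
def dvec (v w : ι → ℕ) : ι → ℤ := fun j => (v j : ℤ) - (w j : ℤ)

/-- The subgroup of `ℤ^ι` of differences of multiplicity vectors whose standard modules have
stably isomorphic `m`-th syzygies. -/
def hGroup [Fintype ι] [IsNoetherianRing R] (U : ι → ModuleCat.{u} R)
    (hU : ∀ j, Module.Finite R (U j)) (m : ℕ) : AddSubgroup (ι → ℤ) where
  carrier := {x | ∃ v w : ι → ℕ, SyzEq U m v w ∧ x = dvec v w}
  zero_mem' := ⟨0, 0, SyzEq.refl hU, by funext j; simp [dvec]⟩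
  add_mem' := by
    rintro x y ⟨v, w, h, rfl⟩ ⟨v', w', h', rfl⟩
    refine ⟨v + v', w + w', h.add h', ?_⟩
    funext j
    simp only [dvec, Pi.add_apply, Nat.cast_add]
    ring
  neg_mem' := by
    rintro x ⟨v, w, h, rfl⟩
    refine ⟨w, v, h.symm, ?_⟩
    funext j
    simp only [dvec, Pi.neg_apply]
    ring

theorem hGroup_mono [Fintype ι] [IsNoetherianRing R] (U : ι → ModuleCat.{u} R)
    (hU : ∀ j, Module.Finite R (U j)) {m m' : ℕ} (hm : m ≤ m') :
    hGroup U hU m ≤ hGroup U hU m' := by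
  rintro x ⟨v, w, h, rfl⟩
  exact ⟨v, w, h.mono hU hm, rfl⟩

theorem hGroup_stab [Fintype ι] [IsNoetherianRing R] (U : ι → ModuleCat.{u} R)
    (hU : ∀ j, Module.Finite R (U j)) :
    ∃ n : ℕ, ∀ m : ℕ, n ≤ m → hGroup U hU m = hGroup U hU n := by
  have hN : IsNoetherian ℤ (ι → ℤ) := inferInstance
  let f : ℕ →o Submodule ℤ (ι → ℤ) :=
    ⟨fun m => AddSubgroup.toIntSubmodule (hGroup U hU m), fun a b hab =>
      (OrderIso.monotone _) (hGroup_mono U hU hab)⟩
  obtain ⟨n, hn⟩ := monotone_stabilizes_iff_noetherian.mpr hN f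
  exact ⟨n, fun m hm => (AddSubgroup.toIntSubmodule.injective (hn m hm)).symm⟩

theorem exists_shift [Fintype ι] [IsNoetherianRing R] (U : ι → ModuleCat.{u} R)
    (hU : ∀ j, Module.Finite R (U j)) {n : ℕ} {v w : ι → ℕ}
    (h : dvec v w ∈ hGroup U hU n) : ∃ t : ι → ℕ, SyzEq U n (v + t) (w + t) := by
  obtain ⟨v', w', h', he⟩ := h
  refine ⟨w', ?_⟩
  have h1 : v + w' = v' + w := by
    funext j
    have := congrFun he j
    simp only [dvec] at this
    simp only [Pi.add_apply]
    omega
  have h2 : w + w' = w' + w := add_comm _ _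
  rw [h1, h2]
  exact h'.add (SyzEq.refl hU)

/-- The Igusa-Todorov bound: if `0 → A → B → C → 0` is exact, `A` and `B` are stably
standard and `C` has finite projective dimension, then the projective dimension of `C` is
bounded by a constant depending only on the family `U`. -/
theorem it_main [IsArtinianRing R] [IsNoetherianRing R] [Fintype ι] (U : ι → ModuleCat.{u} R)
    (hU : ∀ j, Module.Finite R (U j)) :
    ∃ c : ℕ, ∀ (A B C : Type u) [AddCommGroup A] [Module R A] [AddCommGroup B] [Module R B]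
      [AddCommGroup C] [Module R C] (_ : SES R A B C) (v w : ι → ℕ),
      StIso R A (Std U v) → StIso R B (Std U w) → (∃ r, PdLT R C r) → PdLT R C c := by
  obtain ⟨n, hn⟩ := hGroup_stab U hU
  choose Un hUn using fun j => IsSyzC.exists_syz (U j) n
  have hUnfin : ∀ j, Module.Finite R (Un j) := fun j => (hUn j).finite
  obtain ⟨D, hD⟩ := exists_pd_bound Un hUnfin
  refine ⟨n + (D + 2), ?_⟩
  intro A B C _ _ _ _ _ _ S v w hA hB ⟨r, hr⟩
  -- finiteness
  have hAfin : Module.Finite R A := hA.symm.finite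
  have hBfin : Module.Finite R B := hB.symm.finite
  have hCfin : Module.Finite R C := Module.Finite.of_surjective S.g S.surj
  -- step 1: the difference vector lies in the stable subgroup
  let m := max r n
  have hCm : PdLT R C (m + 1) := hr.mono (by omega)
  obtain ⟨KA, hKA⟩ := IsSyzC.exists_syz (ModuleCat.of R A) m
  obtain ⟨KC, hKC⟩ := IsSyzC.exists_syz (ModuleCat.of R C) m
  obtain ⟨KB, hKB, ⟨Sm⟩⟩ := IsSyzC.horseshoe (A := ModuleCat.of R A) (B := ModuleCat.of R B)
    (C := ModuleCat.of R C) S hKA hKC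
  have hKCproj : Module.Projective R KC := pdLT_one_iff.mp (hKC.pdLT le_rfl hCm)
  have hKCfin : Module.Finite R KC := hKC.finite
  obtain ⟨eB⟩ := Sm.exists_equiv_prod
  have hBA : StIso R KB KA := (StIso.of_equiv eB).trans (StIso.prod_projective KC)
  obtain ⟨Kv, hKv⟩ := IsSyzC.exists_syz (ModuleCat.of R (Std U v)) m
  obtain ⟨Kw, hKw⟩ := IsSyzC.exists_syz (ModuleCat.of R (Std U w)) m
  have hvw : SyzEq U m v w :=
    ⟨Kv, Kw, hKv, hKw, ((hKA.stIso hKv hA).symm.trans hBA.symm).trans (hKB.stIso hKw hB)⟩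
  have hmem : dvec v w ∈ hGroup U hU n := by
    rw [← hn m (le_max_right r n)]
    exact ⟨v, w, hvw, rfl⟩
  obtain ⟨t, ht⟩ := exists_shift U hU hmem
  -- step 2: the modified sequence and its syzygies at level `n`
  let S' : SES R (A × Std U t) (B × Std U t) C := S.addSummand (Std U t)
  have hA' : StIso R (A × Std U t) (Std U (v + t)) :=
    (hA.prod StIso.refl).trans (StIso.of_equiv (stdAddEquiv U v t).symm)
  have hB' : StIso R (B × Std U t) (Std U (w + t)) :=
    (hB.prod StIso.refl).trans (StIso.of_equiv (stdAddEquiv U w t).symm)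
  obtain ⟨KA', hKA'⟩ := IsSyzC.exists_syz (ModuleCat.of R (A × Std U t)) n
  obtain ⟨KC', hKC'⟩ := IsSyzC.exists_syz (ModuleCat.of R C) n
  obtain ⟨KB', hKB', ⟨Sn⟩⟩ := IsSyzC.horseshoe (A := ModuleCat.of R (A × Std U t))
    (B := ModuleCat.of R (B × Std U t)) (C := ModuleCat.of R C) S' hKA' hKC'
  obtain ⟨K1, hK1⟩ := IsSyzC.exists_syz (ModuleCat.of R (Std U (v + t))) n
  obtain ⟨K2, hK2⟩ := IsSyzC.exists_syz (ModuleCat.of R (Std U (w + t))) n
  have h12 : StIso R K1 K2 := ht.all hK1 hK2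
  have hst : StIso R KB' KA' :=
    ((hKB'.stIso hK2 hB').trans h12.symm).trans (hKA'.stIso hK1 hA').symm
  have hKA'fin : Module.Finite R KA' := hKA'.finite
  have hKA'noeth : IsNoetherian R KA' := isNoetherian_of_isNoetherianRing_of_finite R KA'
  have hKA'art : IsArtinian R KA' := isArtinian_of_fg_of_artinian'
  have hKC'pd : PdLT R KC' (m + 1) := hKC'.pdLT (by omega) (hCm.mono (by omega))
  obtain ⟨Z, hZretr, hZpd, hZ⟩ := fitting_core Sn hst (m + 1) hKC'pd
  -- step 3: the uniform bound for the Fitting kernel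
  have hstd : StIso R KA' (Std Un (v + t)) :=
    hKA'.stIso (IsSyzC.std U Un hUn (v + t)) hA'
  obtain ⟨Q', hQ'proj, hQ'fin, hZretr'⟩ := hstd.retr hZretr
  have hZD : PdLT R Z (D + 1) := hD (v + t) Q' Z hQ'proj hQ'fin hZretr' ⟨_, hZpd⟩
  have hKC'D : PdLT R KC' (D + 1 + 1) := hZ (D + 1) (by omega) hZD
  exact hKC'.pdLT_of (by omega) hKC'D

/-- The rotated Igusa-Todorov bound: if `0 → A → B → C → 0` is exact, `A` and `C` are stably
standard and `B` has finite projective dimension, then the projective dimension of `B` is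
bounded by a constant depending only on the family `U`. -/
theorem it_mid [IsArtinianRing R] [IsNoetherianRing R] [Fintype ι] (U : ι → ModuleCat.{u} R)
    (hU : ∀ j, Module.Finite R (U j)) :
    ∃ c : ℕ, ∀ (A B C : Type u) [AddCommGroup A] [Module R A] [AddCommGroup B] [Module R B]
      [AddCommGroup C] [Module R C] (_ : SES R A B C) (v w : ι → ℕ),
      StIso R A (Std U v) → StIso R C (Std U w) → (∃ r, PdLT R B r) → PdLT R B c := by
  choose U1 hU1 using fun j => IsSyzC.exists_syz (U j) 1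
  have hU1fin : ∀ j, Module.Finite R (U1 j) := fun j => (hU1 j).finite
  have hU' : ∀ s : ι ⊕ ι, Module.Finite R ((Sum.elim U U1 s : ModuleCat.{u} R) : Type u) := by
    rintro (j | j)
    · exact hU j
    · exact hU1fin j
  obtain ⟨c, hc⟩ := it_main (Sum.elim U U1) hU'
  refine ⟨c, ?_⟩
  intro A B C _ _ _ _ _ _ S v w hA hC hB
  have hCfin : Module.Finite R C := hC.symm.finite
  obtain ⟨b, π, hπ⟩ := Module.Finite.exists_fin' R C
  obtain ⟨S'⟩ := S.rotate π hπ
  have hker : IsSyzC 1 (ModuleCat.of R C) (ModuleCat.of R (LinearMap.ker π)) :=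
    IsSyzC.of_ker (m := 0) (X := ModuleCat.of R C) (K₁ := ModuleCat.of R C)
      ⟨LinearEquiv.refl R _⟩ π hπ
  have h1 : StIso R (LinearMap.ker π) (Std U1 w) := hker.stIso (IsSyzC.std U U1 hU1 w) hC
  have h1' : StIso R (LinearMap.ker π) (Std (Sum.elim U U1) (Sum.elim 0 w)) :=
    h1.trans (StIso.of_equiv (stdInrEquiv U U1 w).symm)
  have h2 : StIso R (A × (Fin b → R)) (Std (Sum.elim U U1) (Sum.elim v 0)) :=
    ((StIso.prod_projective (A := A) (Fin b → R)).trans hA).trans
      (StIso.of_equiv (stdInlEquiv U U1 v).symm)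
  exact hc _ _ _ S' _ _ h1' h2 hB

end Vale.Agent.Lib.P176
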