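import Mathlib
import Vale.Agent.Lib.P176.ITBasic
import Vale.Agent.Lib.P176.ITSyz
import Vale.Agent.Lib.P176.ITStd

/-!
Regrouping: a finite product of modules, each isomorphic to a member of a family `S`, is a
standard module `Std S v`.
-/

universe u

namespace Vale.Agent.Lib.P176

variable {R : Type u} [Ring R]

/-- Splitting off the first factor of a product indexed by `Fin (m + 1)`. -/
def itreg_cons {m : ℕ} (V : Fin (m + 1) → Type u) [∀ i, AddCommGroup (V i)]
    [∀ i, Module R (V i)] : (∀ i, V i) ≃ₗ[R] (V 0 × (∀ i : Fin m, V i.succ)) where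
  toFun f := (f 0, fun i => f i.succ)
  map_add' _ _ := rfl
  map_smul' _ _ := rfl
  invFun p := Fin.cons p.1 p.2
  left_inv f := by
    funext i
    refine Fin.cases ?_ (fun i => ?_) i
    · simp
    · simp
  right_inv p := by
    refine Prod.ext ?_ ?_
    · simp
    · simp

/-- Evaluation of a standard module with one single copy at that copy. -/
def itreg_ev {ι : Type} [DecidableEq ι] (S : ι → ModuleCat.{u} R) (j : ι) :
    Std S (Pi.single j 1) →ₗ[R] S j where
  toFun x := x j ⟨0, by simp⟩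
  map_add' _ _ := rfl
  map_smul' _ _ := rfl

theorem itreg_ev_bijective {ι : Type} [DecidableEq ι] (S : ι → ModuleCat.{u} R) (j : ι) :
    Function.Bijective (itreg_ev S j) := by
  constructor
  · intro x y hxy
    have hxy' : x j ⟨0, by simp⟩ = y j ⟨0, by simp⟩ := hxy
    funext j' i
    by_cases h : j' = j
    · subst h
      have hi : i = ⟨0, by simp⟩ := by
        apply Fin.ext
        have := i.isLt
        simp only [Pi.single_eq_same] at this
        simp only
        omega
      rw [hi]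
      exact hxy'
    · have h0 : (Pi.single j 1 : ι → ℕ) j' = 0 := Pi.single_eq_of_ne h 1
      have hlt := i.isLt
      omega
  · intro s
    refine ⟨Pi.single (M := fun j' => Fin ((Pi.single j 1 : ι → ℕ) j') → S j') j
      (fun _ => s), ?_⟩
    show (Pi.single (M := fun j' => Fin ((Pi.single j 1 : ι → ℕ) j') → S j') j
      (fun _ => s)) j ⟨0, by simp⟩ = s
    rw [Pi.single_eq_same]

theorem itreg_aux {ι : Type} (S : ι → ModuleCat.{u} R) : ∀ (m : ℕ) (V : Fin m → Type u)
    [∀ i, AddCommGroup (V i)] [∀ i, Module R (V i)],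
    (∀ i, ∃ j, Nonempty (V i ≃ₗ[R] S j)) →
    ∃ v : ι → ℕ, Nonempty ((∀ i, V i) ≃ₗ[R] Std S v) := by
  classical
  intro m
  induction m with
  | zero =>
    intro V _ _ _
    have := std_zero_subsingleton S
    exact ⟨0, ⟨LinearEquiv.ofSubsingleton _ _⟩⟩
  | succ m ih =>
    intro V _ _ hV
    obtain ⟨j, ⟨e0⟩⟩ := hV 0
    obtain ⟨v, ⟨e⟩⟩ := ih (fun i => V i.succ) (fun i => hV i.succ)
    refine ⟨Pi.single j 1 + v, ⟨?_⟩⟩
    exact ((itreg_cons V).trans (LinearEquiv.prodCongr
      (e0.trans (LinearEquiv.ofBijective (itreg_ev S j) (itreg_ev_bijective S j)).symm) e)).trans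
      (stdAddEquiv S (Pi.single j 1) v).symm

theorem std_of_pi {ι : Type} (S : ι → ModuleCat.{u} R) {m : ℕ} (V : Fin m → Type u)
    [∀ i, AddCommGroup (V i)] [∀ i, Module R (V i)]
    (hV : ∀ i, ∃ j, Nonempty (V i ≃ₗ[R] S j)) :
    ∃ v : ι → ℕ, Nonempty ((∀ i, V i) ≃ₗ[R] Std S v) :=
  itreg_aux S m V hV

end Vale.Agent.Lib.P176
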