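import Mathlib
import Vale.Agent.Lib.P176.ITBasic
import Vale.Agent.Lib.P176.ITSyz
import Vale.Agent.Lib.P176.ITStd
import Vale.Agent.Lib.P176.ITReg

/-!
Over a left artinian ring there are finitely many modules `S j` such that every finitely
generated module killed by the radical is a finite direct sum of copies of them.
-/

universe u

namespace Vale.Agent.Lib.P176

variable {R : Type u} [Ring R]

/-- A module killed by the radical of a semiprimary ring is semisimple. -/
theorem itsimp_semisimple_of_kills [IsSemiprimaryRing R] {X : Type u} [AddCommGroup X]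
    [Module R X] (h : ∀ a ∈ Ring.jacobson R, ∀ x : X, a • x = 0) :
    IsSemisimpleModule R X := by
  have h' : Module.IsTorsionBySet R X (Ring.jacobson R : Set R) := by
    intro x a
    exact h a.1 a.2 x
  let _ := h'.module
  exact (h'.semilinearMap.isSemisimpleModule_iff_of_bijective Function.bijective_id).2
    inferInstance

/-- The quotient of the ring by its radical is killed by the radical. -/
theorem itsimp_kills_quot :
    ∀ a ∈ Ring.jacobson R, ∀ x : R ⧸ Ring.jacobson R, a • x = 0 := by
  intro a ha x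
  obtain ⟨r, rfl⟩ := Submodule.Quotient.mk_surjective _ x
  rw [← Submodule.Quotient.mk_smul, Submodule.Quotient.mk_eq_zero, smul_eq_mul]
  exact Ideal.mul_mem_right _ _ ha

/-- Every simple module is isomorphic to one of the simple summands of the quotient of the
ring by its radical. -/
theorem itsimp_exists_equiv [IsSemiprimaryRing R] {s : ℕ}
    (S₀ : Fin s → Submodule R (R ⧸ Ring.jacobson R))
    (e : (R ⧸ Ring.jacobson R) ≃ₗ[R] Π₀ i : Fin s, S₀ i)
    (hs : ∀ i, IsSimpleModule R (S₀ i))
    (W : Type u) [AddCommGroup W] [Module R W] [IsSimpleModule R W] :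
    ∃ j, Nonempty (W ≃ₗ[R] S₀ j) := by
  have hnt : Nontrivial W := IsSimpleModule.nontrivial R W
  obtain ⟨w, hw⟩ := exists_ne (0 : W)
  have hsurj := IsSimpleModule.toSpanSingleton_surjective R hw
  have hkill : Ring.jacobson R ≤ LinearMap.ker (LinearMap.toSpanSingleton R W w) := by
    intro r hr
    have h1 := IsSemisimpleModule.jacobson_le_annihilator R W hr
    rw [LinearMap.mem_ker, LinearMap.toSpanSingleton_apply]
    exact Module.mem_annihilator.mp h1 w
  let φ : (R ⧸ Ring.jacobson R) →ₗ[R] W :=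
    Submodule.liftQ _ (LinearMap.toSpanSingleton R W w) hkill
  have hφ : Function.Surjective φ := by
    intro x
    obtain ⟨r, rfl⟩ := hsurj x
    exact ⟨Submodule.Quotient.mk r, rfl⟩
  by_contra hcon
  have hzero : ∀ j, (φ ∘ₗ e.symm.toLinearMap) ∘ₗ DFinsupp.lsingle j = 0 := by
    intro j
    have hj := hs j
    rcases LinearMap.bijective_or_eq_zero
      ((φ ∘ₗ e.symm.toLinearMap) ∘ₗ DFinsupp.lsingle j) with hb | h0
    · exact absurd ⟨j, ⟨(LinearEquiv.ofBijective _ hb).symm⟩⟩ hcon
    · exact h0
  have hall : φ ∘ₗ e.symm.toLinearMap = 0 :=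
    DFinsupp.lhom_ext' (fun j => by rw [hzero j, LinearMap.zero_comp])
  obtain ⟨x, hx⟩ := hφ w
  have h0 : φ x = 0 := by
    have h1 := LinearMap.congr_fun hall (e x)
    simpa using h1
  exact hw (hx ▸ h0)

theorem exists_simple_family [IsArtinianRing R] :
    ∃ (s : ℕ) (S : Fin s → ModuleCat.{u} R), (∀ j, Module.Finite R (S j)) ∧
      ∀ (X : Type u) [AddCommGroup X] [Module R X] [Module.Finite R X],
        (∀ a ∈ Ring.jacobson R, ∀ x : X, a • x = 0) →
          ∃ v : Fin s → ℕ, Nonempty (X ≃ₗ[R] Std S v) := by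
  have hss : IsSemisimpleModule R (R ⧸ Ring.jacobson R) :=
    itsimp_semisimple_of_kills itsimp_kills_quot
  obtain ⟨s, S₀, e, hsimple⟩ :=
    IsSemisimpleModule.exists_linearEquiv_fin_dfinsupp R (R ⧸ Ring.jacobson R)
  refine ⟨s, fun j => ModuleCat.of R (S₀ j), fun j => ?_, ?_⟩
  · show Module.Finite R (S₀ j)
    infer_instance
  · intro X _ _ _ hX
    have hXss : IsSemisimpleModule R X := itsimp_semisimple_of_kills hX
    obtain ⟨m, V, e', hV⟩ := IsSemisimpleModule.exists_linearEquiv_fin_dfinsupp R X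
    have hiso : ∀ i, ∃ j, Nonempty (↥(V i) ≃ₗ[R] (ModuleCat.of R (S₀ j))) := by
      intro i
      have hi := hV i
      exact itsimp_exists_equiv S₀ e hsimple (V i)
    obtain ⟨v, ⟨ε⟩⟩ := std_of_pi (fun j => ModuleCat.of R (S₀ j)) (fun i => ↥(V i)) hiso
    exact ⟨v, ⟨(e'.trans DFinsupp.linearEquivFunOnFintype).trans ε⟩⟩

end Vale.Agent.Lib.P176
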