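import Mathlib
import Vale.Agent.Lib.P195.GPres
import Vale.Agent.Lib.P176.ITBasic
import Vale.Agent.Lib.P176.ITSyz
import Vale.Agent.Lib.P176.ITStd
import Vale.Agent.Lib.P176.ITMain
import Vale.Agent.Lib.P176.ITSubQ
import Vale.Agent.Lib.P176.ITSimp
import Vale.Agent.Lib.P176.ITLay
import Vale.Agent.Lib.P176.ITLayB

/-!
A left artinian ring with at most three radical layers of infinite projective dimension has
finite finitistic dimension (Huard, Lanzilotta and Mendoza).
-/

universe u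

namespace Vale.Agent.Lib.P176

open CategoryTheory Abelian

variable {R : Type u} [Ring R]

/-- If the top radical layer `R / J` has projective dimension `< a`, then so has every finitely
generated module. -/
theorem layer_zero_core [IsArtinianRing R] (a : ℕ) (h0 : PdLT R (RadLayer R 0) a)
    (M : Type u) [AddCommGroup M] [Module R M] [Module.Finite R M] : PdLT R M a := by
  obtain ⟨L, hL⟩ : ∃ L : ℕ, Ring.jacobson R ^ L = ⊥ := by
    obtain ⟨L, hL⟩ := (IsSemiprimaryRing.isNilpotent (R := R))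
    exact ⟨L, hL⟩
  have hnoeth : IsNoetherian R M := isNoetherian_of_isNoetherianRing_of_finite R M
  have hlay : ∀ i, 0 ≤ i → i < L →
      PdLT R (SubQ (radF R M i) (radF R M (i + 1))) a := by
    intro i _ _
    have hfin : Module.Finite R (SubQ (radF R M i) (radF R M (i + 1))) := SubQ.finite _ _
    exact pdLT_of_radKills h0 _ (radKills_layer M i)
  have hchain := SubQ.pdLT_chain (radF R M) (radF_antitone M) a (Nat.zero_le L) hlay
  obtain ⟨e⟩ := SubQ.nonempty_equiv (radF_zero (R := R) M) (radF_eq_bot hL M le_rfl)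
  exact hchain.of_equiv e

/-- The core case: the layers `i ≥ 1` other than `i₂ < i₃` have projective dimension `< a`. -/
theorem three_layers_core [IsArtinianRing R] (a i₂ i₃ : ℕ) (h12 : 1 ≤ i₂) (h23 : i₂ < i₃)
    (hgood : ∀ i, 1 ≤ i → i ≠ i₂ → i ≠ i₃ → PdLT R (RadLayer R i) a) :
    ∃ N : ℕ, ∀ (M : Type u) [AddCommGroup M] [Module R M] [Module.Finite R M],
      (∃ r, PdLT R M r) → PdLT R M N := by
  obtain ⟨s, S, hSfin, hS⟩ := exists_simple_family (R := R)
  choose T hT using fun j => IsSyzC.exists_syz (S j) a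
  have hTfin : ∀ j, Module.Finite R (T j) := fun j => (hT j).finite
  obtain ⟨c, hc⟩ := it_mid T hTfin
  obtain ⟨L, hL⟩ : ∃ L : ℕ, Ring.jacobson R ^ L = ⊥ := by
    obtain ⟨L, hL⟩ := (IsSemiprimaryRing.isNilpotent (R := R))
    exact ⟨L, hL⟩
  refine ⟨a + (c + 1) + 1, ?_⟩
  intro M _ _ _ ⟨r, hr⟩
  obtain ⟨p⟩ := Vale.Agent.Lib.P195.exists_projPres (R := R) (N := M)
  have hPnoeth : IsNoetherian R p.P := isNoetherian_of_isNoetherianRing_of_finite R p.P
  -- the kernel and its filtration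
  let K : Submodule R p.P := LinearMap.ker p.π
  let G : ℕ → Submodule R K := fun i => (radF R p.P i).submoduleOf K
  have hG : Antitone G := fun i j hij => Submodule.comap_mono (radF_antitone p.P hij)
  have hG1 : G 1 = ⊤ := by
    apply Submodule.submoduleOf_eq_top.mpr
    rw [radF_one]
    exact p.min
  let L' := max L (i₃ + 1)
  have hGL : G L' = ⊥ := by
    have h1 : radF R p.P L' = ⊥ := radF_eq_bot hL p.P (le_max_left _ _)
    show Submodule.comap K.subtype (radF R p.P L') = ⊥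
    rw [h1]
    exact LinearMap.ker_eq_bot.mpr K.injective_subtype
  have hlay : ∀ i, 1 ≤ i → i ≠ i₂ → i ≠ i₃ → PdLT R (SubQ (G i) (G (i + 1))) a :=
    fun i h1 h2 h3 => pdLT_sublayer (hgood i h1 h2 h3) K
  have c1 : PdLT R (SubQ (G 1) (G i₂)) a :=
    SubQ.pdLT_chain G hG a h12 (fun i hi1 hi2 => hlay i hi1 (by omega) (by omega))
  have c2 : PdLT R (SubQ (G (i₂ + 1)) (G i₃)) a :=
    SubQ.pdLT_chain G hG a (by omega) (fun i hi1 hi2 => hlay i (by omega) (by omega) (by omega))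
  have c3 : PdLT R (SubQ (G (i₃ + 1)) (G L')) a :=
    SubQ.pdLT_chain G hG a (le_max_right _ _)
      (fun i hi1 hi2 => hlay i (by omega) (by omega) (by omega))
  -- the four sequences
  obtain ⟨s2⟩ := SubQ.ses (A := G 1) (B := G i₂) (C := G L') (hG h12) (hG (by omega))
  obtain ⟨s1⟩ := SubQ.ses (A := G i₂) (B := G (i₃ + 1)) (C := G L') (hG (by omega))
    (hG (le_max_right _ _))
  obtain ⟨s3⟩ := SubQ.ses (A := G i₂) (B := G (i₂ + 1)) (C := G (i₃ + 1)) (hG (by omega))
    (hG (by omega))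
  obtain ⟨s4⟩ := SubQ.ses (A := G (i₂ + 1)) (B := G i₃) (C := G (i₃ + 1)) (hG (by omega))
    (hG (by omega))
  obtain ⟨eK⟩ := SubQ.nonempty_equiv hG1 hGL
  -- the kernel has finite projective dimension
  let SM : SES R K p.P M := SES.ofSurj p.π p.surj
  let n₀ := max (max r 1) a
  have hPproj : ∀ n, 1 ≤ n → PdLT R p.P n := fun n hn => pdLT_of_projective hn
  have hK : PdLT R K n₀ := SM.pdLT_left (hPproj n₀ (by omega)) (hr.mono (by omega))
  have hKq : PdLT R (SubQ (G 1) (G L')) n₀ := hK.of_equiv eK.symm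
  have h2 : PdLT R (SubQ (G i₂) (G L')) n₀ := s2.pdLT_left hKq (c1.mono (by omega))
  have hY : PdLT R (SubQ (G i₂) (G (i₃ + 1))) (n₀ + 1) :=
    s1.pdLT_right (c3.mono (by omega)) (h2.mono (by omega))
  -- finiteness
  have hKnoeth : IsNoetherian R K := isNoetherian_submodule' K
  have hfin : ∀ A B : Submodule R K, Module.Finite R (SubQ A B) := fun A B => SubQ.finite A B
  -- syzygies at level `a`
  obtain ⟨KE, hKE⟩ := IsSyzC.exists_syz (ModuleCat.of R (SubQ (G (i₂ + 1)) (G i₃))) a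
  obtain ⟨KL₃, hKL₃⟩ := IsSyzC.exists_syz (ModuleCat.of R (SubQ (G i₃) (G (i₃ + 1)))) a
  obtain ⟨KL₂, hKL₂⟩ := IsSyzC.exists_syz (ModuleCat.of R (SubQ (G i₂) (G (i₂ + 1)))) a
  obtain ⟨KY₂, hKY₂, ⟨S4⟩⟩ := IsSyzC.horseshoe
    (A := ModuleCat.of R (SubQ (G i₃) (G (i₃ + 1))))
    (B := ModuleCat.of R (SubQ (G (i₂ + 1)) (G (i₃ + 1))))
    (C := ModuleCat.of R (SubQ (G (i₂ + 1)) (G i₃))) s4 hKL₃ hKE
  have hKEproj : Module.Projective R KE := pdLT_one_iff.mp (hKE.pdLT le_rfl (c2.mono (by omega)))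
  have hKEfin : Module.Finite R KE := hKE.finite
  obtain ⟨eY₂⟩ := S4.exists_equiv_prod
  have hY₂L₃ : StIso R KY₂ KL₃ := (StIso.of_equiv eY₂).trans (StIso.prod_projective KE)
  obtain ⟨KY, hKY, ⟨S3⟩⟩ := IsSyzC.horseshoe
    (A := ModuleCat.of R (SubQ (G (i₂ + 1)) (G (i₃ + 1))))
    (B := ModuleCat.of R (SubQ (G i₂) (G (i₃ + 1))))
    (C := ModuleCat.of R (SubQ (G i₂) (G (i₂ + 1)))) s3 hKY₂ hKL₂
  -- the semisimple layers are standard
  obtain ⟨v₂, ⟨e₂⟩⟩ := hS (SubQ (G i₂) (G (i₂ + 1))) (radKills_sublayer K i₂)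
  obtain ⟨v₃, ⟨e₃⟩⟩ := hS (SubQ (G i₃) (G (i₃ + 1))) (radKills_sublayer K i₃)
  have hstd₂ : StIso R KL₂ (Std T v₂) := hKL₂.stIso (IsSyzC.std S T hT v₂) (StIso.of_equiv e₂)
  have hstd₃ : StIso R KY₂ (Std T v₃) :=
    hY₂L₃.trans (hKL₃.stIso (IsSyzC.std S T hT v₃) (StIso.of_equiv e₃))
  -- the Igusa-Todorov bound
  have hKYfin : PdLT R KY (n₀ + 1) := hKY.pdLT (by omega) (hY.mono (by omega))
  have hKYc : PdLT R KY c := hc _ _ _ S3 v₃ v₂ hstd₃ hstd₂ ⟨_, hKYfin⟩
  have hYc : PdLT R (SubQ (G i₂) (G (i₃ + 1))) (a + (c + 1)) :=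
    hKY.pdLT_of (by omega) (hKYc.mono (by omega))
  -- back to the module
  have h2' : PdLT R (SubQ (G i₂) (G L')) (a + (c + 1)) := s1.pdLT_mid (c3.mono (by omega)) hYc
  have hKq' : PdLT R (SubQ (G 1) (G L')) (a + (c + 1)) := s2.pdLT_mid h2' (c1.mono (by omega))
  have hK' : PdLT R K (a + (c + 1)) := hKq'.of_equiv eK
  exact SM.pdLT_right hK' (hPproj _ (by omega))

/-- A finite set of positive integers with at most two elements lies in `{i₂, i₃}` for some
`1 ≤ i₂ < i₃`. -/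
theorem exists_two_cover (T : Finset ℕ) (hT : T.card ≤ 2) (h0 : 0 ∉ T) :
    ∃ i₂ i₃ : ℕ, 1 ≤ i₂ ∧ i₂ < i₃ ∧ ∀ i ∈ T, i = i₂ ∨ i = i₃ := by
  have hcases : T.card = 0 ∨ T.card = 1 ∨ T.card = 2 := by omega
  rcases hcases with h | h | h
  · rw [Finset.card_eq_zero] at h
    subst h
    exact ⟨1, 2, le_rfl, by omega, fun i hi => absurd hi (Finset.notMem_empty i)⟩
  · obtain ⟨x, rfl⟩ := Finset.card_eq_one.mp h
    have hx : x ≠ 0 := fun hx => h0 (by rw [hx]; exact Finset.mem_singleton_self 0)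
    exact ⟨x, x + 1, by omega, by omega, fun i hi => Or.inl (Finset.mem_singleton.mp hi)⟩
  · obtain ⟨x, y, hxy, rfl⟩ := Finset.card_eq_two.mp h
    have hx : x ≠ 0 := fun hx => h0 (by rw [hx]; exact Finset.mem_insert_self 0 _)
    have hy : y ≠ 0 := fun hy => h0 (by
      rw [hy]
      exact Finset.mem_insert_of_mem (Finset.mem_singleton_self 0))
    rcases lt_or_gt_of_ne hxy with hlt | hlt
    · refine ⟨x, y, by omega, hlt, fun i hi => ?_⟩
      rcases Finset.mem_insert.mp hi with h1 | h1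
      · exact Or.inl h1
      · exact Or.inr (Finset.mem_singleton.mp h1)
    · refine ⟨y, x, by omega, hlt, fun i hi => ?_⟩
      rcases Finset.mem_insert.mp hi with h1 | h1
      · exact Or.inr h1
      · exact Or.inl (Finset.mem_singleton.mp h1)

/-- A left artinian ring with at most three radical layers of infinite projective dimension has
finite finitistic dimension. -/
theorem three_layers [IsArtinianRing R] (bad : Finset ℕ) (hcard : bad.card ≤ 3)
    (hgood : ∀ i : ℕ, i ∉ bad → ∃ n : ℕ, PdLT R (RadLayer R i) n) :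
    ∃ N : ℕ, ∀ (M : Type u) [AddCommGroup M] [Module R M] [Module.Finite R M],
      (∃ r, PdLT R M r) → PdLT R M N := by
  classical
  obtain ⟨L, hL⟩ : ∃ L : ℕ, Ring.jacobson R ^ L = ⊥ := by
    obtain ⟨L, hL⟩ := (IsSemiprimaryRing.isNilpotent (R := R))
    exact ⟨L, hL⟩
  -- a uniform bound for the good layers
  let d : ℕ → ℕ := fun i => if h : ∃ n : ℕ, PdLT R (RadLayer R i) n then Nat.find h else 0
  let a := (Finset.range L).sup d
  have ha : ∀ i : ℕ, i ∉ bad → PdLT R (RadLayer R i) a := by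
    intro i hi
    by_cases hiL : i < L
    · have h := hgood i hi
      have h1 : PdLT R (RadLayer R i) (d i) := by
        simp only [d, dif_pos h]
        exact Nat.find_spec h
      exact h1.mono (Finset.le_sup (f := d) (Finset.mem_range.mpr hiL))
    · have hsub : Subsingleton (RadLayer R i) := radLayer_subsingleton hL (by omega)
      exact pdLT_of_subsingleton _ a
  by_cases h0 : 0 ∈ bad
  · have hT : (bad.erase 0).card ≤ 2 := by
      rw [Finset.card_erase_of_mem h0]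
      omega
    obtain ⟨i₂, i₃, h12, h23, hcov⟩ := exists_two_cover (bad.erase 0) hT
      (Finset.notMem_erase 0 bad)
    refine three_layers_core a i₂ i₃ h12 h23 (fun i hi1 hi2 hi3 => ha i ?_)
    intro hib
    have hmem : i ∈ bad.erase 0 := Finset.mem_erase.mpr ⟨by omega, hib⟩
    rcases hcov i hmem with h | h
    · exact hi2 h
    · exact hi3 h
  · exact ⟨a, fun M _ _ _ _ => layer_zero_core a (ha 0 h0) M⟩

end Vale.Agent.Lib.P176
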