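import Mathlib
import Vale.Agent.Lib.P195.GPres
import Vale.Agent.Lib.P176.ITBasic
import Vale.Agent.Lib.P176.ITSyz
import Vale.Agent.Lib.P176.ITStd
import Vale.Agent.Lib.P176.ITMain
import Vale.Agent.Lib.P176.ITSubQ
import Vale.Agent.Lib.P176.ITLay
import Vale.Agent.Lib.P176.ITLayB

/-!
A common generalisation of the three-radical-layers theorem and of the theorem on algebras with
`J^(2n+1) = 0` and `R / J^n` of finite representation type: if `R / J^n` has finite
representation type and the radical layers of infinite projective dimension (of index at least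
one) lie in two windows of `n` consecutive indices, the finitistic dimension is finite.
-/

universe u

namespace Vale.Agent.Lib.P176

open CategoryTheory Abelian

variable {R : Type u} [Ring R]

theorem pow_smul_mem_radF {P : Type u} [AddCommGroup P] [Module R P] (n : ℕ) :
    ∀ {i : ℕ} {x : R}, x ∈ Ring.jacobson R ^ n → ∀ {y : P}, y ∈ radF R P i →
      x • y ∈ radF R P (i + n) := by
  induction n with
  | zero =>
    intro i x _ y hy
    exact Submodule.smul_mem _ x hy
  | succ n ih =>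
    intro i x hx
    rw [Submodule.pow_succ] at hx
    refine Submodule.mul_induction_on
      (C := fun x => ∀ {y : P}, y ∈ radF R P i → x • y ∈ radF R P (i + (n + 1))) hx ?_ ?_
    · intro a ha b hb y hy
      rw [mul_smul]
      have h1 : b • y ∈ radF R P (i + 1) := smul_mem_radF_succ hb hy
      have h2 := ih ha h1
      have e : i + 1 + n = i + (n + 1) := by omega
      rw [e] at h2
      exact h2
    · intro a b ha hb y hy
      rw [add_smul]
      exact Submodule.add_mem _ (ha hy) (hb hy)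

theorem radPowKills_sublayer {P : Type u} [AddCommGroup P] [Module R P] (K : Submodule R P)
    (i n : ℕ) : ∀ b ∈ Ring.jacobson R ^ n,
      ∀ x : SubQ ((radF R P i).submoduleOf K) ((radF R P (i + n)).submoduleOf K), b • x = 0 := by
  intro b hb x
  obtain ⟨y, rfl⟩ := Submodule.Quotient.mk_surjective _ x
  rw [← Submodule.Quotient.mk_smul, Submodule.Quotient.mk_eq_zero]
  show (((b • y : ↥((radF R P i).submoduleOf K)) : ↥K) : P) ∈ radF R P (i + n)
  rw [Submodule.coe_smul, Submodule.coe_smul]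
  exact pow_smul_mem_radF n hb y.2

/-- The core case: `R / J^n` has finite representation type (with `U` the list of
indecomposables), and the layers `i ≥ 1` outside the two windows `[i₂, i₂ + n)` and
`[i₃, i₃ + n)` have projective dimension `< a`. -/
theorem windows_core [IsArtinianRing R] (n : ℕ) {s : ℕ} (U : Fin s → ModuleCat.{u} R)
    (hUfin : ∀ j, Module.Finite R (U j))
    (hrep : ∀ (X : Type u) [AddCommGroup X] [Module R X] [Module.Finite R X],
      (∀ b ∈ Ring.jacobson R ^ n, ∀ x : X, b • x = 0) →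
        ∃ v : Fin s → ℕ, Nonempty (X ≃ₗ[R] Std U v))
    (a i₂ i₃ : ℕ) (h12 : 1 ≤ i₂) (h23 : i₂ + n ≤ i₃)
    (hgood : ∀ i, 1 ≤ i → ¬ (i₂ ≤ i ∧ i < i₂ + n) → ¬ (i₃ ≤ i ∧ i < i₃ + n) →
      PdLT R (RadLayer R i) a) :
    ∃ N : ℕ, ∀ (M : Type u) [AddCommGroup M] [Module R M] [Module.Finite R M],
      (∃ r, PdLT R M r) → PdLT R M N := by
  choose T hT using fun j => IsSyzC.exists_syz (U j) a
  have hTfin : ∀ j, Module.Finite R (T j) := fun j => (hT j).finite
  obtain ⟨c, hc⟩ := it_mid T hTfin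
  obtain ⟨L, hL⟩ : ∃ L : ℕ, Ring.jacobson R ^ L = ⊥ := by
    obtain ⟨L, hL⟩ := (IsSemiprimaryRing.isNilpotent (R := R))
    exact ⟨L, hL⟩
  refine ⟨a + (c + 1) + 1, ?_⟩
  intro M _ _ _ ⟨r, hr⟩
  obtain ⟨p⟩ := Vale.Agent.Lib.P195.exists_projPres (R := R) (N := M)
  have hPnoeth : IsNoetherian R p.P := isNoetherian_of_isNoetherianRing_of_finite R p.P
  -- the kernel and its filtration
  let K : Submodule R p.P := LinearMap.ker p.π
  let G : ℕ → Submodule R K := fun i => (radF R p.P i).submoduleOf K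
  have hG : Antitone G := fun i j hij => Submodule.comap_mono (radF_antitone p.P hij)
  have hG1 : G 1 = ⊤ := by
    apply Submodule.submoduleOf_eq_top.mpr
    rw [radF_one]
    exact p.min
  let L' := max L (i₃ + n)
  have hGL : G L' = ⊥ := by
    have h1 : radF R p.P L' = ⊥ := radF_eq_bot hL p.P (le_max_left _ _)
    show Submodule.comap K.subtype (radF R p.P L') = ⊥
    rw [h1]
    exact LinearMap.ker_eq_bot.mpr K.injective_subtype
  have hlay : ∀ i, 1 ≤ i → ¬ (i₂ ≤ i ∧ i < i₂ + n) → ¬ (i₃ ≤ i ∧ i < i₃ + n) →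
      PdLT R (SubQ (G i) (G (i + 1))) a :=
    fun i h1 h2 h3 => pdLT_sublayer (hgood i h1 h2 h3) K
  have c1 : PdLT R (SubQ (G 1) (G i₂)) a :=
    SubQ.pdLT_chain G hG a h12 (fun i hi1 hi2 => hlay i hi1 (by omega) (by omega))
  have c2 : PdLT R (SubQ (G (i₂ + n)) (G i₃)) a :=
    SubQ.pdLT_chain G hG a h23 (fun i hi1 hi2 => hlay i (by omega) (by omega) (by omega))
  have c3 : PdLT R (SubQ (G (i₃ + n)) (G L')) a :=
    SubQ.pdLT_chain G hG a (le_max_right _ _)
      (fun i hi1 hi2 => hlay i (by omega) (by omega) (by omega))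
  -- the four sequences
  obtain ⟨s2⟩ := SubQ.ses (A := G 1) (B := G i₂) (C := G L') (hG h12)
    (hG (le_trans (by omega) (le_max_right L (i₃ + n))))
  obtain ⟨s1⟩ := SubQ.ses (A := G i₂) (B := G (i₃ + n)) (C := G L') (hG (by omega))
    (hG (le_max_right _ _))
  obtain ⟨s3⟩ := SubQ.ses (A := G i₂) (B := G (i₂ + n)) (C := G (i₃ + n)) (hG (by omega))
    (hG (by omega))
  obtain ⟨s4⟩ := SubQ.ses (A := G (i₂ + n)) (B := G i₃) (C := G (i₃ + n)) (hG h23)
    (hG (by omega))
  obtain ⟨eK⟩ := SubQ.nonempty_equiv hG1 hGL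
  -- the kernel has finite projective dimension
  let SM : SES R K p.P M := SES.ofSurj p.π p.surj
  let n₀ := max (max r 1) a
  have hPproj : ∀ m, 1 ≤ m → PdLT R p.P m := fun m hm => pdLT_of_projective hm
  have hK : PdLT R K n₀ := SM.pdLT_left (hPproj n₀ (by omega)) (hr.mono (by omega))
  have hKq : PdLT R (SubQ (G 1) (G L')) n₀ := hK.of_equiv eK.symm
  have h2 : PdLT R (SubQ (G i₂) (G L')) n₀ := s2.pdLT_left hKq (c1.mono (by omega))
  have hY : PdLT R (SubQ (G i₂) (G (i₃ + n))) (n₀ + 1) :=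
    s1.pdLT_right (c3.mono (by omega)) (h2.mono (by omega))
  -- finiteness
  have hKnoeth : IsNoetherian R K := isNoetherian_submodule' K
  have hfin : ∀ A B : Submodule R K, Module.Finite R (SubQ A B) := fun A B => SubQ.finite A B
  -- syzygies at level `a`
  obtain ⟨KE, hKE⟩ := IsSyzC.exists_syz (ModuleCat.of R (SubQ (G (i₂ + n)) (G i₃))) a
  obtain ⟨KL₃, hKL₃⟩ := IsSyzC.exists_syz (ModuleCat.of R (SubQ (G i₃) (G (i₃ + n)))) a
  obtain ⟨KL₂, hKL₂⟩ := IsSyzC.exists_syz (ModuleCat.of R (SubQ (G i₂) (G (i₂ + n)))) a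
  obtain ⟨KY₂, hKY₂, ⟨S4⟩⟩ := IsSyzC.horseshoe
    (A := ModuleCat.of R (SubQ (G i₃) (G (i₃ + n))))
    (B := ModuleCat.of R (SubQ (G (i₂ + n)) (G (i₃ + n))))
    (C := ModuleCat.of R (SubQ (G (i₂ + n)) (G i₃))) s4 hKL₃ hKE
  have hKEproj : Module.Projective R KE := pdLT_one_iff.mp (hKE.pdLT le_rfl (c2.mono (by omega)))
  have hKEfin : Module.Finite R KE := hKE.finite
  obtain ⟨eY₂⟩ := S4.exists_equiv_prod
  have hY₂L₃ : StIso R KY₂ KL₃ := (StIso.of_equiv eY₂).trans (StIso.prod_projective KE)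
  obtain ⟨KY, hKY, ⟨S3⟩⟩ := IsSyzC.horseshoe
    (A := ModuleCat.of R (SubQ (G (i₂ + n)) (G (i₃ + n))))
    (B := ModuleCat.of R (SubQ (G i₂) (G (i₃ + n))))
    (C := ModuleCat.of R (SubQ (G i₂) (G (i₂ + n)))) s3 hKY₂ hKL₂
  -- the window pieces are standard
  obtain ⟨v₂, ⟨e₂⟩⟩ := hrep (SubQ (G i₂) (G (i₂ + n))) (radPowKills_sublayer K i₂ n)
  obtain ⟨v₃, ⟨e₃⟩⟩ := hrep (SubQ (G i₃) (G (i₃ + n))) (radPowKills_sublayer K i₃ n)
  have hstd₂ : StIso R KL₂ (Std T v₂) := hKL₂.stIso (IsSyzC.std U T hT v₂) (StIso.of_equiv e₂)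
  have hstd₃ : StIso R KY₂ (Std T v₃) :=
    hY₂L₃.trans (hKL₃.stIso (IsSyzC.std U T hT v₃) (StIso.of_equiv e₃))
  -- the Igusa-Todorov bound
  have hKYfin : PdLT R KY (n₀ + 1) := hKY.pdLT (by omega) (hY.mono (by omega))
  have hKYc : PdLT R KY c := hc _ _ _ S3 v₃ v₂ hstd₃ hstd₂ ⟨_, hKYfin⟩
  have hYc : PdLT R (SubQ (G i₂) (G (i₃ + n))) (a + (c + 1)) :=
    hKY.pdLT_of (by omega) (hKYc.mono (by omega))
  -- back to the module
  have h2' : PdLT R (SubQ (G i₂) (G L')) (a + (c + 1)) := s1.pdLT_mid (c3.mono (by omega)) hYc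
  have hKq' : PdLT R (SubQ (G 1) (G L')) (a + (c + 1)) := s2.pdLT_mid h2' (c1.mono (by omega))
  have hK' : PdLT R K (a + (c + 1)) := hKq'.of_equiv eK
  exact SM.pdLT_right hK' (hPproj _ (by omega))

/-- If `R / J^n` has finite representation type and all radical layers of index `i ≥ 1` outside
two windows of `n` consecutive indices have finite projective dimension, then the finitistic
dimension is finite. -/
theorem windows [IsArtinianRing R] (n : ℕ) {s : ℕ} (U : Fin s → ModuleCat.{u} R)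
    (hUfin : ∀ j, Module.Finite R (U j))
    (hrep : ∀ (X : Type u) [AddCommGroup X] [Module R X] [Module.Finite R X],
      (∀ b ∈ Ring.jacobson R ^ n, ∀ x : X, b • x = 0) →
        ∃ v : Fin s → ℕ, Nonempty (X ≃ₗ[R] Std U v))
    (i₂ i₃ : ℕ) (h12 : 1 ≤ i₂) (h23 : i₂ + n ≤ i₃)
    (hgood : ∀ i, 1 ≤ i → ¬ (i₂ ≤ i ∧ i < i₂ + n) → ¬ (i₃ ≤ i ∧ i < i₃ + n) →
      ∃ d : ℕ, PdLT R (RadLayer R i) d) :
    ∃ N : ℕ, ∀ (M : Type u) [AddCommGroup M] [Module R M] [Module.Finite R M],
      (∃ r, PdLT R M r) → PdLT R M N := by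
  classical
  obtain ⟨L, hL⟩ : ∃ L : ℕ, Ring.jacobson R ^ L = ⊥ := by
    obtain ⟨L, hL⟩ := (IsSemiprimaryRing.isNilpotent (R := R))
    exact ⟨L, hL⟩
  let d : ℕ → ℕ := fun i => if h : ∃ m : ℕ, PdLT R (RadLayer R i) m then Nat.find h else 0
  let a := (Finset.range L).sup d
  refine windows_core n U hUfin hrep a i₂ i₃ h12 h23 ?_
  intro i hi1 hi2 hi3
  by_cases hiL : i < L
  · have h := hgood i hi1 hi2 hi3
    have h1 : PdLT R (RadLayer R i) (d i) := by
      simp only [d, dif_pos h]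
      exact Nat.find_spec h
    exact h1.mono (Finset.le_sup (f := d) (Finset.mem_range.mpr hiL))
  · have hsub : Subsingleton (RadLayer R i) := radLayer_subsingleton hL (by omega)
    exact pdLT_of_subsingleton _ a

end Vale.Agent.Lib.P176
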