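import Mathlib
import Vale.Agent.Lib.P176.DellDual

/-!
Basic definitions for the proof that generation of the derived category by the injective modules
bounds the projective dimensions: exactness of `Hom(E, -)` at the middle term of a composable
pair of linear maps, and the functor `P ↦ D(Hom_A(P, A))` sending projective left modules to
injective left modules.
-/

universe u

namespace Vale.Agent.Lib.P176

open MulOpposite

/-- `Hom(E, -)` is exact at the middle term of the pair `f`, `g`: every map `φ : E → Y` with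
`g ∘ φ = 0` factors through `f`. -/
def VanAt {A : Type u} [Ring A] (E : Type u) [AddCommGroup E] [Module A E]
    {X Y Z : Type u} [AddCommGroup X] [Module A X] [AddCommGroup Y] [Module A Y]
    [AddCommGroup Z] [Module A Z] (f : X →ₗ[A] Y) (g : Y →ₗ[A] Z) : Prop :=
  ∀ φ : E →ₗ[A] Y, g ∘ₗ φ = 0 → ∃ h : E →ₗ[A] X, f ∘ₗ h = φ

variable (k : Type u) [Field k] (A : Type u) [Ring A] [Algebra k A]

/-- The left module `D(Hom_A(P, A))`: the `k`-dual of the right module of `A`-linear functionals
on a left module `P`. -/
abbrev Nu (P : Type u) [AddCommGroup P] [Module A P] : Type u := RDual k (P →ₗ[A] A)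

variable {A}

/-- The map of left modules `D(Hom_A(P, A)) → D(Hom_A(P', A))` induced by `f : P → P'`. -/
def nuMap {P P' : Type u} [AddCommGroup P] [Module A P] [AddCommGroup P'] [Module A P']
    (f : P →ₗ[A] P') : Nu k A P →ₗ[A] Nu k A P' :=
  RDual.map (LinearMap.lcomp Aᵐᵒᵖ A f)

@[simp] theorem toFun'_nuMap {P P' : Type u} [AddCommGroup P] [Module A P] [AddCommGroup P']
    [Module A P'] (f : P →ₗ[A] P') (x : Nu k A P) (ξ : P' →ₗ[A] A) :
    RDual.toFun' (nuMap k f x) ξ = RDual.toFun' x (ξ ∘ₗ f) := rfl

theorem nuMap_comp {P P' P'' : Type u} [AddCommGroup P] [Module A P] [AddCommGroup P']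
    [Module A P'] [AddCommGroup P''] [Module A P''] (f : P →ₗ[A] P') (g : P' →ₗ[A] P'') :
    nuMap k (g ∘ₗ f) = nuMap k g ∘ₗ nuMap k f := rfl

theorem nuMap_zero {P P' : Type u} [AddCommGroup P] [Module A P] [AddCommGroup P']
    [Module A P'] : nuMap k (0 : P →ₗ[A] P') = 0 := by
  apply LinearMap.ext
  intro x
  apply RDual.ext'
  intro ξ
  rw [toFun'_nuMap, LinearMap.comp_zero]
  exact map_zero _

end Vale.Agent.Lib.P176
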