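import Mathlib
import Vale.Agent.Lib.P176.RickDefs

/-!
The cone of the inclusion of the direct sum of a sequence of complexes of modules into their
product, written out explicitly.

`Q i s` is the term of degree `s` of the `i`-th complex and `dQ i s : Q i s → Q i (s + 1)` its
differential.  The term of degree `s` of the cone is `(⨁ i, Q i (s + 1)) × (∏ i, Q i s)` and the
differential is `(u, v) ↦ (- d u, u + d v)`.
-/

universe u

namespace Vale.Agent.Lib.P176

variable {A : Type u} [Ring A] (Q : ℕ → ℕ → Type u) [∀ i s, AddCommGroup (Q i s)]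
  [∀ i s, Module A (Q i s)]

/-- The term of degree `s` of the cone. -/
abbrev ConeX (s : ℕ) : Type u := (Π₀ i, Q i (s + 1)) × (∀ i, Q i s)

variable {Q}
variable (dQ : ∀ i s, Q i s →ₗ[A] Q i (s + 1))

/-- The differential of the direct sum of the complexes. -/
def sumD (s : ℕ) : (Π₀ i, Q i s) →ₗ[A] (Π₀ i, Q i (s + 1)) :=
  DFinsupp.mapRange.linearMap (fun i => dQ i s)

/-- The differential of the product of the complexes. -/
def prodD (s : ℕ) : (∀ i, Q i s) →ₗ[A] (∀ i, Q i (s + 1)) :=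
  LinearMap.pi (fun i => dQ i s ∘ₗ LinearMap.proj i)

/-- The differential of the cone. -/
def coneD (s : ℕ) : ConeX Q s →ₗ[A] ConeX Q (s + 1) :=
  LinearMap.prod (-(sumD dQ (s + 1) ∘ₗ LinearMap.fst A _ _))
    (DFinsupp.coeFnLinearMap A ∘ₗ LinearMap.fst A _ _ + prodD dQ s ∘ₗ LinearMap.snd A _ _)

@[simp] theorem sumD_apply (s : ℕ) (u : Π₀ i, Q i s) (i : ℕ) :
    sumD dQ s u i = dQ i s (u i) := by
  simp [sumD]

@[simp] theorem prodD_apply (s : ℕ) (v : ∀ i, Q i s) (i : ℕ) :
    prodD dQ s v i = dQ i s (v i) := rfl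

theorem coneD_fst (s : ℕ) (x : ConeX Q s) :
    (coneD dQ s x).1 = -sumD dQ (s + 1) x.1 := rfl

theorem coneD_snd (s : ℕ) (x : ConeX Q s) (i : ℕ) :
    (coneD dQ s x).2 i = x.1 i + dQ i s (x.2 i) := rfl

end Vale.Agent.Lib.P176
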