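import Mathlib
import Vale.Agent.Lib.P176.RickCone

/-!
The cone is not exact in degree `1` when every complex has a nonzero cocycle in degree `1` and
vanishes in degree `0`; and `Hom(E, -)` of the cone is exact in degree `0`.
-/

universe u

namespace Vale.Agent.Lib.P176

variable {A : Type u} [Ring A] {Q : ℕ → ℕ → Type u} [∀ i s, AddCommGroup (Q i s)]
  [∀ i s, Module A (Q i s)] (dQ : ∀ i s, Q i s →ₗ[A] Q i (s + 1))

theorem cone_not_exact (h0 : ∀ i, Subsingleton (Q i 0))
    (hx : ∀ i, ∃ x : Q i 1, x ≠ 0 ∧ dQ i 1 x = 0) :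
    ¬ Function.Exact (coneD dQ 0) (coneD dQ 1) := by
  classical
  intro hexact
  choose x hx0 hxd using hx
  have hz : coneD dQ 1 ((0 : Π₀ i, Q i 2), fun i => x i) = 0 := by
    refine Prod.ext ?_ ?_
    · rw [coneD_fst]
      simp
    · funext i
      rw [coneD_snd]
      simp [hxd]
  obtain ⟨w, hw⟩ := (hexact _).mp hz
  have hu : ∀ i, w.1 i = x i := by
    intro i
    have h1 := congrFun (congrArg Prod.snd hw) i
    rw [coneD_snd] at h1
    have h2 : w.2 i = 0 := (h0 i).elim _ _
    rw [h2, map_zero, add_zero] at h1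
    exact h1
  obtain ⟨i, hi⟩ := Infinite.exists_notMem_finset w.1.support
  rw [DFinsupp.mem_support_iff, not_not] at hi
  exact hx0 i (by rw [← hu i]; exact hi)

theorem cone_vanAt_zero (h0 : ∀ i, Subsingleton (Q i 0)) (E : Type u) [AddCommGroup E]
    [Module A E] (φ : E →ₗ[A] ConeX Q 0) (hφ : coneD dQ 0 ∘ₗ φ = 0) : φ = 0 := by
  refine LinearMap.ext (fun e => ?_)
  have h1 : coneD dQ 0 (φ e) = 0 := by
    have := LinearMap.congr_fun hφ e
    simpa using this
  have hv : (φ e).2 = 0 := by
    funext i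
    exact (h0 i).elim _ _
  have hu : (φ e).1 = 0 := by
    refine DFinsupp.ext (fun i => ?_)
    have h2 := congrFun (congrArg Prod.snd h1) i
    rw [coneD_snd] at h2
    have h3 : (φ e).2 i = 0 := (h0 i).elim _ _
    rw [h3, map_zero, add_zero] at h2
    simpa using h2
  exact Prod.ext hu hv

end Vale.Agent.Lib.P176
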