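import Mathlib

/-!
Over a left Noetherian ring, a direct sum of injective modules is injective.
-/

universe u w

namespace Vale.Agent.Lib.P176

theorem injective_dfinsupp {A : Type u} [Ring A] [IsNoetherianRing A] {ι : Type w}
    [DecidableEq ι] (N : ι → Type (max u w)) [∀ i, AddCommGroup (N i)] [∀ i, Module A (N i)]
    (h : ∀ i, Module.Injective A (N i)) : Module.Injective A (Π₀ i, N i) := by
  classical
  apply Module.Baer.injective
  intro I g
  obtain ⟨S, hS⟩ : (I : Submodule A A).FG := IsNoetherian.noetherian I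
  have hext : ∀ i, ∃ gi : A →ₗ[A] N i, ∀ (x : A) (mem : x ∈ I), gi x = (g ⟨x, mem⟩) i := by
    intro i
    obtain ⟨gi, hgi⟩ := Module.Baer.of_injective (h i) I ((DFinsupp.lapply i) ∘ₗ g)
    exact ⟨gi, fun x mem => by rw [hgi x mem]; rfl⟩
  choose gi hgi using hext
  have hSI : ∀ a ∈ S, a ∈ I := fun a ha => hS ▸ Submodule.subset_span ha
  let F : Finset ι := S.attach.biUnion (fun a => (g ⟨a.1, hSI a.1 a.2⟩).support)
  have hvan : ∀ i, i ∉ F → ∀ (x : A) (mem : x ∈ I), (g ⟨x, mem⟩) i = 0 := by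
    intro i hi x mem
    rw [← hgi i x mem]
    have hx : x ∈ Ideal.span (S : Set A) := hS ▸ mem
    have hle : Ideal.span (S : Set A) ≤ LinearMap.ker (gi i) := by
      rw [Ideal.span, Submodule.span_le]
      intro a ha
      rw [SetLike.mem_coe, LinearMap.mem_ker, hgi i a (hSI a ha)]
      by_contra hne
      apply hi
      rw [Finset.mem_biUnion]
      exact ⟨⟨a, ha⟩, Finset.mem_attach _ _, DFinsupp.mem_support_iff.mpr hne⟩
    exact LinearMap.mem_ker.mp (hle hx)
  let y : Π₀ i, N i := DFinsupp.mk F (fun i => gi i.1 1)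
  refine ⟨LinearMap.toSpanSingleton A _ y, fun x mem => ?_⟩
  ext i
  rw [LinearMap.toSpanSingleton_apply, DFinsupp.smul_apply]
  by_cases hi : i ∈ F
  · rw [DFinsupp.mk_of_mem hi, ← map_smul, smul_eq_mul, mul_one, hgi i x mem]
  · rw [DFinsupp.mk_of_notMem hi, smul_zero, hvan i hi x mem]

end Vale.Agent.Lib.P176
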