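import Mathlib
import Vale.Agent.Lib.P176.RickCone
import Vale.Agent.Lib.P176.RickSum

/-!
The cone is a complex, and its terms are injective when the terms of the given complexes are.
-/

universe u

namespace Vale.Agent.Lib.P176

/-- A product of two injective modules is injective. -/
theorem rickconesq_prod {A : Type u} [Ring A] {M N : Type u} [AddCommGroup M] [Module A M]
    [AddCommGroup N] [Module A N] (hM : Module.Injective A M) (hN : Module.Injective A N) :
    Module.Injective A (M × N) := by
  constructor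
  intro X Y _ _ _ _ f hf g
  obtain ⟨h1, hh1⟩ := hM.out f hf (LinearMap.fst A M N ∘ₗ g)
  obtain ⟨h2, hh2⟩ := hN.out f hf (LinearMap.snd A M N ∘ₗ g)
  refine ⟨LinearMap.prod h1 h2, fun x => ?_⟩
  apply Prod.ext
  · exact hh1 x
  · exact hh2 x

variable {A : Type u} [Ring A] {Q : ℕ → ℕ → Type u} [∀ i s, AddCommGroup (Q i s)]
  [∀ i s, Module A (Q i s)] (dQ : ∀ i s, Q i s →ₗ[A] Q i (s + 1))

theorem coneD_sq (hsq : ∀ i s, dQ i (s + 1) ∘ₗ dQ i s = 0) (s : ℕ) :
    coneD dQ (s + 1) ∘ₗ coneD dQ s = 0 := by
  have hsq' : ∀ i s (q : Q i s), dQ i (s + 1) (dQ i s q) = 0 := by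
    intro i s q
    have h := congrArg (fun f => f q) (hsq i s)
    exact h
  apply LinearMap.ext
  intro x
  rw [LinearMap.comp_apply, LinearMap.zero_apply]
  apply Prod.ext
  · rw [coneD_fst, coneD_fst]
    apply DFinsupp.ext
    intro i
    rw [Prod.fst_zero, DFinsupp.zero_apply, DFinsupp.neg_apply, sumD_apply, DFinsupp.neg_apply,
      sumD_apply, map_neg, neg_neg, hsq']
  · funext i
    rw [coneD_snd, coneD_snd, coneD_fst, DFinsupp.neg_apply, sumD_apply, map_add, hsq']
    simp

theorem cone_injective [IsNoetherianRing A] (hinj : ∀ i s, Module.Injective A (Q i s)) (s : ℕ) :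
    Module.Injective A (ConeX Q s) := by
  classical
  have h1 : Module.Injective A (Π₀ i, Q i (s + 1)) :=
    injective_dfinsupp (ι := ℕ) (fun i => Q i (s + 1)) (fun i => hinj i (s + 1))
  have h2 : Module.Injective A (∀ i, Q i s) := by
    have hi : ∀ i, Module.Injective A (Q i s) := fun i => hinj i s
    infer_instance
  exact rickconesq_prod h1 h2

end Vale.Agent.Lib.P176
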