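import Mathlib
import Vale.Agent.Lib.P176.RickCone

/-!
`Hom(E, -)` of the cone is exact in every positive degree when `E` is finitely generated and,
in each degree, `Hom(E, -)` of all but finitely many of the complexes is exact.
-/

universe u

namespace Vale.Agent.Lib.P176

variable {A : Type u} [Ring A] {Q : ℕ → ℕ → Type u} [∀ i s, AddCommGroup (Q i s)]
  [∀ i s, Module A (Q i s)] (dQ : ∀ i s, Q i s →ₗ[A] Q i (s + 1))

/-- A finitely supported family indexed by the natural numbers vanishes from some index on. -/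
theorem rickconevan_bound {β : ℕ → Type u} [∀ i, AddCommGroup (β i)] (f : Π₀ i, β i) :
    ∃ N, ∀ i, N ≤ i → f i = 0 := by
  classical
  refine ⟨f.support.sup id + 1, fun i hi => ?_⟩
  rw [← DFinsupp.notMem_support_iff]
  intro hmem
  have h1 := Finset.le_sup (f := id) hmem
  simp only [id] at h1
  omega

/-- A linear map from a finitely generated module into a direct sum indexed by the natural
numbers has its image in finitely many summands. -/
theorem rickconevan_fin_support {E : Type u} [AddCommGroup E] [Module A E] [Module.Finite A E]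
    {β : ℕ → Type u} [∀ i, AddCommGroup (β i)] [∀ i, Module A (β i)]
    (ψ : E →ₗ[A] Π₀ i, β i) : ∃ N, ∀ i, N ≤ i → ∀ e, ψ e i = 0 := by
  classical
  obtain ⟨S, hS⟩ := (Module.Finite.fg_top : (⊤ : Submodule A E).FG)
  have hfin : ∀ T : Finset E, ∃ N, ∀ e ∈ T, ∀ i, N ≤ i → ψ e i = 0 := by
    intro T
    induction T using Finset.induction_on with
    | empty => exact ⟨0, fun e he => absurd he (Finset.notMem_empty e)⟩
    | insert e T _ ih =>
      obtain ⟨N, hN⟩ := ih
      obtain ⟨N', hN'⟩ := rickconevan_bound (ψ e)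
      refine ⟨max N N', fun e' he' i hi => ?_⟩
      rcases Finset.mem_insert.mp he' with h | h
      · rw [h]
        exact hN' i (le_trans (le_max_right _ _) hi)
      · exact hN e' h i (le_trans (le_max_left _ _) hi)
  obtain ⟨N, hN⟩ := hfin S
  refine ⟨N, fun i hi e => ?_⟩
  have hle : Submodule.span A (S : Set E) ≤ LinearMap.ker (DFinsupp.lapply i ∘ₗ ψ) := by
    rw [Submodule.span_le]
    intro x hx
    rw [SetLike.mem_coe, LinearMap.mem_ker, LinearMap.comp_apply, DFinsupp.lapply_apply]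
    exact hN x hx i hi
  have he : e ∈ LinearMap.ker (DFinsupp.lapply i ∘ₗ ψ) := by
    apply hle
    rw [hS]
    exact Submodule.mem_top
  rw [LinearMap.mem_ker, LinearMap.comp_apply, DFinsupp.lapply_apply] at he
  exact he

/-- The truncation of a family of maps into the terms of a product, as a map into the direct
sum. -/
theorem rickconevan_trunc {E : Type u} [AddCommGroup E] [Module A E]
    {β : ℕ → Type u} [∀ i, AddCommGroup (β i)] [∀ i, Module A (β i)]
    (b : ∀ i, E →ₗ[A] β i) (N : ℕ) :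
    ∃ h₁ : E →ₗ[A] Π₀ i, β i, ∀ e j, h₁ e j = if j < N then b j e else 0 := by
  classical
  refine ⟨DFinsupp.lmk (Finset.range N) ∘ₗ
    LinearMap.pi (fun i : (↑(Finset.range N) : Set ℕ) => b i.1), fun e j => ?_⟩
  rw [LinearMap.comp_apply, DFinsupp.lmk_apply, DFinsupp.mk_apply]
  by_cases hj : j < N
  · rw [dif_pos (Finset.mem_range.mpr hj), if_pos hj]
    rfl
  · rw [dif_neg (fun h => hj (Finset.mem_range.mp h)), if_neg hj]

theorem cone_vanAt (E : Type u) [AddCommGroup E] [Module A E] [Module.Finite A E]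
    (hE : ∀ s, ∃ N, ∀ i, N ≤ i → VanAt E (dQ i s) (dQ i (s + 1))) (s : ℕ) :
    VanAt E (coneD dQ s) (coneD dQ (s + 1)) := by
  intro φ hφ
  have hcoc : ∀ e i, (φ e).1 i + dQ i (s + 1) ((φ e).2 i) = 0 := by
    intro e i
    have h1 := LinearMap.congr_fun hφ e
    have h2 := congrFun (congrArg Prod.snd h1) i
    rw [LinearMap.comp_apply, coneD_snd] at h2
    exact h2
  obtain ⟨N₁, hN₁⟩ := rickconevan_fin_support (LinearMap.fst A _ _ ∘ₗ φ)
  obtain ⟨N₂, hN₂⟩ := hE s
  have ha : ∀ i, max N₁ N₂ ≤ i → ∀ e, (φ e).1 i = 0 := fun i hi e =>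
    hN₁ i (le_trans (le_max_left _ _) hi) e
  have hcex : ∀ i, ∃ c : E →ₗ[A] Q i s,
      (max N₁ N₂ ≤ i → ∀ e, dQ i s (c e) = (φ e).2 i) ∧ (i < max N₁ N₂ → c = 0) := by
    intro i
    rcases Nat.lt_or_ge i (max N₁ N₂) with hi | hi
    · exact ⟨0, fun h => absurd h (not_le.mpr hi), fun _ => rfl⟩
    · have hv := hN₂ i (le_trans (le_max_right _ _) hi)
      obtain ⟨c, hc⟩ := hv (LinearMap.proj i ∘ₗ LinearMap.snd A _ _ ∘ₗ φ) (by
        apply LinearMap.ext
        intro e
        have h1 := hcoc e i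
        rw [ha i hi e, zero_add] at h1
        exact h1)
      exact ⟨c, fun _ e => LinearMap.congr_fun hc e, fun h => absurd h (not_lt.mpr hi)⟩
  choose c hc1 hc2 using hcex
  obtain ⟨h₁, hh₁⟩ := rickconevan_trunc
    (fun i => LinearMap.proj i ∘ₗ LinearMap.snd A _ _ ∘ₗ φ) (max N₁ N₂)
  refine ⟨LinearMap.prod h₁ (LinearMap.pi c), ?_⟩
  apply LinearMap.ext
  intro e
  have e1 : (LinearMap.prod h₁ (LinearMap.pi c) e).1 = h₁ e := rfl
  have e2 : ∀ j, (LinearMap.prod h₁ (LinearMap.pi c) e).2 j = c j e := fun j => rfl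
  rw [LinearMap.comp_apply]
  refine Prod.ext ?_ (funext fun j => ?_)
  · refine DFinsupp.ext fun j => ?_
    rw [coneD_fst, DFinsupp.neg_apply, sumD_apply, e1, hh₁]
    by_cases hj : j < max N₁ N₂
    · rw [if_pos hj]
      have h1 := hcoc e j
      have h2 : (LinearMap.proj j ∘ₗ LinearMap.snd A _ _ ∘ₗ φ) e = (φ e).2 j := rfl
      rw [h2]
      exact (eq_neg_of_add_eq_zero_left h1).symm
    · rw [if_neg hj, map_zero, neg_zero, ha j (not_lt.mp hj) e]
  · rw [coneD_snd, e1, hh₁, e2]
    by_cases hj : j < max N₁ N₂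
    · rw [if_pos hj, hc2 j hj, LinearMap.zero_apply, map_zero, add_zero]
      rfl
    · rw [if_neg hj, zero_add, hc1 j (not_lt.mp hj) e]

end Vale.Agent.Lib.P176
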