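import Mathlib
import Vale.Agent.Lib.P176.DellMain

/-!
Over a finite-dimensional algebra, a nonzero injective module contains a nonzero finitely
generated injective submodule.
-/

universe u

namespace Vale.Agent.Lib.P176

open MulOpposite

/-- A retract of an injective module is injective. -/
theorem rickfginj_injective_of_retract {A : Type u} [Ring A] {D E : Type u} [AddCommGroup D]
    [Module A D] [AddCommGroup E] [Module A E] (hD : Module.Injective A D) (i : E →ₗ[A] D)
    (p : D →ₗ[A] E) (hpi : ∀ x, p (i x) = x) : Module.Injective A E := by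
  constructor
  intro X Y _ _ _ _ f hf g
  obtain ⟨h, hh⟩ := hD.out f hf (i ∘ₗ g)
  refine ⟨p ∘ₗ h, fun x => ?_⟩
  show p (h (f x)) = g x
  rw [hh]
  exact hpi (g x)

/-- The Fitting-lemma core: if a nonzero module `S` embeds both in an injective module `I` and in
an injective module `D` of finite length, then `I` contains a nonzero finitely generated injective
submodule. -/
theorem rickfginj_core {A : Type u} [Ring A] (D I S : Type u) [AddCommGroup D] [Module A D]
    [AddCommGroup I] [Module A I] [AddCommGroup S] [Module A S]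
    (hD : Module.Injective A D) (hI : Module.Injective A I) [IsNoetherian A D] [IsArtinian A D]
    (j : S →ₗ[A] D) (hj : Function.Injective j) (ι : S →ₗ[A] I) (hι : Function.Injective ι)
    (s₀ : S) (hs₀ : s₀ ≠ 0) :
    ∃ E : Submodule A I, E ≠ ⊥ ∧ Module.Finite A E ∧ Module.Injective A E := by
  obtain ⟨ψ, hψ⟩ := hI.out j hj ι
  obtain ⟨θ, hθ⟩ := hD.out ι hι j
  let e : D →ₗ[A] D := θ ∘ₗ ψ
  have hfix : ∀ s, e (j s) = j s := fun s => by
    show θ (ψ (j s)) = j s
    rw [hψ, hθ]
  obtain ⟨N, hN⟩ := Filter.eventually_atTop.mp (LinearMap.eventually_isCompl_ker_pow_range_pow e)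
  have hc := hN (N + 1) (Nat.le_succ N)
  have hpowfix : ∀ (m : ℕ) (s : S), (e ^ m) (j s) = j s := by
    intro m s
    induction m with
    | zero => simp
    | succ m ih => rw [pow_succ, Module.End.mul_apply, hfix, ih]
  let E₁ : Submodule A D := LinearMap.range (e ^ (N + 1))
  have hmem : ∀ s, j s ∈ E₁ := fun s => ⟨j s, hpowfix _ s⟩
  let ψ' : E₁ →ₗ[A] I := ψ ∘ₗ E₁.subtype
  have hψ' : Function.Injective ψ' := by
    rw [← LinearMap.ker_eq_bot, LinearMap.ker_eq_bot']
    intro y hy
    have h1 : ψ (y : D) = 0 := hy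
    have h2 : (e ^ (N + 1)) (y : D) = 0 := by
      rw [pow_succ, Module.End.mul_apply]
      show (e ^ N) (θ (ψ (y : D))) = 0
      rw [h1, map_zero, map_zero]
    have h3 : (y : D) ∈ LinearMap.ker (e ^ (N + 1)) ⊓ E₁ := ⟨h2, y.2⟩
    rw [hc.inf_eq_bot] at h3
    exact Subtype.ext ((Submodule.mem_bot A).mp h3)
  let eq : E₁ ≃ₗ[A] LinearMap.range ψ' := LinearEquiv.ofInjective ψ' hψ'
  let pr : D →ₗ[A] E₁ := Submodule.projectionOnto E₁ (LinearMap.ker (e ^ (N + 1))) hc.symm
  have hpr : ∀ y : E₁, pr (y : D) = y := fun y => Submodule.projectionOnto_apply_left hc.symm y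
  refine ⟨LinearMap.range ψ', ?_, ?_, ?_⟩
  · intro hbot
    have h1 : ψ' ⟨j s₀, hmem s₀⟩ ∈ LinearMap.range ψ' := LinearMap.mem_range_self _ _
    rw [hbot, Submodule.mem_bot] at h1
    have h2 : ψ' ⟨j s₀, hmem s₀⟩ = ι s₀ := hψ s₀
    rw [h2] at h1
    exact hs₀ (hι (h1.trans (map_zero ι).symm))
  · exact Module.Finite.equiv eq
  · exact rickfginj_injective_of_retract hD (E₁.subtype ∘ₗ eq.symm.toLinearMap)
      (eq.toLinearMap ∘ₗ pr) (fun x => by
        show eq (pr ((eq.symm x : E₁) : D)) = x
        rw [hpr, LinearEquiv.apply_symm_apply])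

/-- A module with a compatible vector-space structure and a nonzero element `s₀` maps to the dual
of the regular right module by a map that does not kill `s₀`. -/
theorem rickfginj_embed (k : Type u) [Field k] {A : Type u} [Ring A] [Algebra k A]
    (S : Type u) [AddCommGroup S] [Module A S] [Module k S] [IsScalarTower k A S]
    (s₀ : S) (hs₀ : s₀ ≠ 0) : ∃ j : S →ₗ[A] RDual k Aᵐᵒᵖ, j s₀ ≠ 0 := by
  obtain ⟨lam, hlam⟩ : ∃ lam : S →ₗ[k] k, lam s₀ ≠ 0 := by
    by_contra hcon
    push Not at hcon
    exact hs₀ ((Module.forall_dual_apply_eq_zero_iff k s₀).mp hcon)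
  let F : S → (Aᵐᵒᵖ →ₗ[k] k) := fun s =>
    { toFun := fun b => lam (unop b • s)
      map_add' := fun b b' => by rw [unop_add, add_smul, map_add]
      map_smul' := fun c b => by
        rw [unop_smul, smul_assoc, map_smul]
        rfl }
  refine ⟨{ toFun := fun s => RDual.of (F s), map_add' := ?_, map_smul' := ?_ }, ?_⟩
  · intro s s'
    apply RDual.ext'
    intro b
    show lam (unop b • (s + s')) = lam (unop b • s) + lam (unop b • s')
    rw [smul_add, map_add]
  · intro a s
    apply RDual.ext'
    intro b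
    show lam (unop b • (a • s)) = lam (unop (op a • b) • s)
    rw [smul_eq_mul, unop_mul, unop_op, mul_smul]
  · intro h0
    have h1 := congrArg (fun f => RDual.toFun' f (op 1)) h0
    have h2 : lam ((1 : A) • s₀) = 0 := h1
    rw [one_smul] at h2
    exact hlam h2

/-- The dual of the regular right module has finite length as a left module. -/
theorem rickfginj_dual_noeth (k : Type u) [Field k] (A : Type u) [Ring A] [Algebra k A]
    [Module.Finite k A] : IsNoetherian A (RDual k Aᵐᵒᵖ) ∧ IsArtinian A (RDual k Aᵐᵒᵖ) := by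
  let _ : Module k (RDual k Aᵐᵒᵖ) := Module.compHom (RDual k Aᵐᵒᵖ) (algebraMap k A)
  have : IsScalarTower k A (RDual k Aᵐᵒᵖ) := ⟨fun c a f => by
    show (c • a) • f = algebraMap k A c • (a • f)
    rw [Algebra.smul_def, mul_smul]⟩
  have hfinop : Module.Finite k Aᵐᵒᵖ := Module.Finite.equiv (MulOpposite.opLinearEquiv k)
  let eqv : (Aᵐᵒᵖ →ₗ[k] k) ≃ₗ[k] RDual k Aᵐᵒᵖ :=
    { toFun := RDual.of
      invFun := RDual.toFun'
      left_inv := fun f => rfl
      right_inv := fun f => rfl
      map_add' := fun f g => rfl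
      map_smul' := fun c g => delldualproj_of_smul (A := A) c g }
  have : Module.Finite k (RDual k Aᵐᵒᵖ) := Module.Finite.equiv eqv
  exact ⟨isNoetherian_of_tower k inferInstance, isArtinian_of_tower k inferInstance⟩

theorem exists_fg_injective_submodule (k : Type u) [Field k] {A : Type u} [Ring A] [Algebra k A]
    [Module.Finite k A] (I : Type u) [AddCommGroup I] [Module A I] [Module.Injective A I]
    [Nontrivial I] :
    ∃ E : Submodule A I, E ≠ ⊥ ∧ Module.Finite A E ∧ Module.Injective A E := by
  obtain ⟨hNo, hAr⟩ := rickfginj_dual_noeth k A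
  have : IsArtinianRing A := IsArtinianRing.of_finite k A
  obtain ⟨x, hx⟩ := exists_ne (0 : I)
  let N : Submodule A I := Submodule.span A {x}
  have : Module.Finite A N := Module.Finite.span_singleton A x
  have : IsArtinian A N := inferInstance
  have : Nontrivial N :=
    ⟨⟨⟨x, Submodule.mem_span_singleton_self x⟩, 0, fun h => hx (congrArg Subtype.val h)⟩⟩
  obtain ⟨S, hS⟩ : ∃ S : Submodule A N, IsSimpleModule A S := by
    have : IsAtomic (Submodule A N) := isAtomic_of_orderBot_wellFounded_lt wellFounded_lt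
    obtain ⟨S, hS⟩ := IsAtomic.exists_atom (Submodule A N)
    exact ⟨S, isSimpleModule_iff_isAtom.mpr hS⟩
  have : Nontrivial S := IsSimpleModule.nontrivial A S
  obtain ⟨s₀, hs₀⟩ := exists_ne (0 : S)
  let _ : Module k S := Module.compHom S (algebraMap k A)
  have : IsScalarTower k A S := ⟨fun c a s => by
    show (c • a) • s = algebraMap k A c • (a • s)
    rw [Algebra.smul_def, mul_smul]⟩
  obtain ⟨j, hj⟩ := rickfginj_embed k (A := A) S s₀ hs₀
  have hjinj : Function.Injective j :=
    LinearMap.injective_of_ne_zero (fun h => hj (by rw [h]; rfl))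
  have hD : Module.Injective A (RDual k Aᵐᵒᵖ) := injective_rdual_of_projective (k := k) Aᵐᵒᵖ
  have hι : Function.Injective (N.subtype ∘ₗ S.subtype) := by
    intro a b hab
    exact Subtype.ext (Subtype.ext hab)
  exact rickfginj_core (RDual k Aᵐᵒᵖ) I S hD inferInstance j hjinj (N.subtype ∘ₗ S.subtype) hι s₀ hs₀

end Vale.Agent.Lib.P176
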