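import Mathlib
import Vale.Agent.Lib.P176.RickSum
import Vale.Agent.Lib.P176.RickFgInj

/-!
Over a finite-dimensional algebra, every injective module is an internal direct sum of finitely
generated injective submodules.
-/

universe u

namespace Vale.Agent.Lib.P176

/-- Injectivity is transported along a linear equivalence. -/
theorem rickdecomp_injective_of_equiv {A : Type u} [Ring A] {M N : Type u} [AddCommGroup M]
    [AddCommGroup N] [Module A M] [Module A N] (e : M ≃ₗ[A] N) (hM : Module.Injective A M) :
    Module.Injective A N := by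
  refine ⟨fun X Y _ _ _ _ f hf g => ?_⟩
  obtain ⟨h, hh⟩ := hM.out f hf (e.symm.toLinearMap ∘ₗ g)
  refine ⟨e.toLinearMap ∘ₗ h, fun x => ?_⟩
  simp [hh x]

/-- The kernel of a retraction onto a submodule of an injective module is injective. -/
theorem rickdecomp_injective_ker {A : Type u} [Ring A] {I : Type u} [AddCommGroup I]
    [Module A I] (hI : Module.Injective A I) (T : Submodule A I) (r : I →ₗ[A] T)
    (hr : ∀ x : T, r x = x) : Module.Injective A (LinearMap.ker r) := by
  refine ⟨fun X Y _ _ _ _ f hf g => ?_⟩
  obtain ⟨h, hh⟩ := hI.out f hf ((LinearMap.ker r).subtype ∘ₗ g)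
  have hmem : ∀ y : Y, h y - (r (h y) : I) ∈ LinearMap.ker r := by
    intro y
    rw [LinearMap.mem_ker, map_sub, hr, sub_self]
  let p : Y →ₗ[A] LinearMap.ker r :=
    { toFun := fun y => ⟨h y - (r (h y) : I), hmem y⟩
      map_add' := fun y z => by
        apply Subtype.ext
        simp only [map_add, Submodule.coe_add]
        abel
      map_smul' := fun a y => by
        apply Subtype.ext
        simp only [map_smul, Submodule.coe_smul, RingHom.id_apply, smul_sub] }
  refine ⟨p, fun x => ?_⟩
  apply Subtype.ext
  have h1 : h (f x) = (g x : I) := hh x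
  have h2 : r (g x : I) = 0 := (g x).2
  change h (f x) - (r (h (f x)) : I) = (g x : I)
  rw [h1, h2]
  simp

/-- The join of an independent family of injective submodules is injective, over a left
Noetherian ring. -/
theorem rickdecomp_injective_sSup {A : Type u} [Ring A] [IsNoetherianRing A] {I : Type u}
    [AddCommGroup I] [Module A I] (S : Set (Submodule A I))
    (hS : ∀ E ∈ S, Module.Injective A E) (hind : sSupIndep S) :
    Module.Injective A (sSup S : Submodule A I) := by
  classical
  have hind' : iSupIndep (fun E : S => (E : Submodule A I)) := (sSupIndep_iff S).mp hind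
  have hinj := hind'.dfinsupp_lsum_injective
  have hrange : LinearMap.range (DFinsupp.lsum ℕ fun E : S => (E : Submodule A I).subtype)
      = sSup S := by
    rw [← Submodule.iSup_eq_range_dfinsupp_lsum, sSup_eq_iSup']
  have hD : Module.Injective A (Π₀ E : S, ((E : Submodule A I) : Type u)) :=
    injective_dfinsupp (fun E : S => ((E : Submodule A I) : Type u)) (fun E => hS E.1 E.2)
  exact rickdecomp_injective_of_equiv
    ((LinearEquiv.ofInjective _ hinj).trans (LinearEquiv.ofEq _ _ hrange)) hD

theorem exists_internal_decomp (k : Type u) [Field k] {A : Type u} [Ring A] [Algebra k A]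
    [Module.Finite k A] (I : Type u) [AddCommGroup I] [Module A I] [Module.Injective A I] :
    ∃ (J : Type u) (E : J → Submodule A I), (∀ j, Module.Finite A (E j)) ∧
      (∀ j, Module.Injective A (E j)) ∧ iSupIndep E ∧ ⨆ j, E j = ⊤ := by
  classical
  have : IsNoetherianRing A := isNoetherian_of_tower k (inferInstance : IsNoetherian k A)
  let Z : Set (Set (Submodule A I)) :=
    {S | (∀ E ∈ S, Module.Finite A E ∧ Module.Injective A E) ∧ sSupIndep S}
  obtain ⟨S, hSmax⟩ : ∃ S, Maximal (· ∈ Z) S := by
    apply zorn_subset
    intro c hcZ hc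
    refine ⟨⋃₀ c, ⟨?_, ?_⟩, fun s hs => Set.subset_sUnion_of_mem hs⟩
    · rintro E ⟨s, hs, hE⟩
      exact (hcZ hs).1 E hE
    · exact iSupIndep_sUnion_of_directed hc.directedOn (fun s hs => (hcZ hs).2)
  have hSZ : S ∈ Z := hSmax.prop
  have hTinj : Module.Injective A (sSup S : Submodule A I) :=
    rickdecomp_injective_sSup S (fun E hE => (hSZ.1 E hE).2) hSZ.2
  obtain ⟨r, hr⟩ := hTinj.out (sSup S : Submodule A I).subtype
    (Submodule.injective_subtype _) LinearMap.id
  have hr' : ∀ x : (sSup S : Submodule A I), r x = x := fun x => hr x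
  have hdisj : Disjoint (LinearMap.ker r) (sSup S : Submodule A I) := by
    rw [Submodule.disjoint_def]
    intro x hx hxT
    have h1 : r x = 0 := hx
    have h2 := hr' ⟨x, hxT⟩
    have h3 : (⟨x, hxT⟩ : (sSup S : Submodule A I)) = 0 := by rw [← h2]; exact h1
    exact congrArg Subtype.val h3
  have hker : LinearMap.ker r = ⊥ := by
    by_contra hne
    have hnt : Nontrivial (LinearMap.ker r) := Submodule.nontrivial_iff_ne_bot.mpr hne
    have hkinj : Module.Injective A (LinearMap.ker r) :=
      rickdecomp_injective_ker inferInstance _ r hr'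
    obtain ⟨E0, hE0ne, hE0fin, hE0inj⟩ :=
      exists_fg_injective_submodule (A := A) k (LinearMap.ker r)
    let E1 : Submodule A I := E0.map (LinearMap.ker r).subtype
    let e : E0 ≃ₗ[A] E1 :=
      Submodule.equivMapOfInjective _ (Submodule.injective_subtype _) E0
    have hE1fin : Module.Finite A E1 := Module.Finite.equiv e
    have hE1inj : Module.Injective A E1 := rickdecomp_injective_of_equiv e hE0inj
    have hE1le : E1 ≤ LinearMap.ker r := by
      rintro _ ⟨y, -, rfl⟩
      exact y.2
    have hE1ne : E1 ≠ ⊥ := by
      intro h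
      apply hE0ne
      rw [Submodule.eq_bot_iff]
      intro y hy
      have : ((LinearMap.ker r).subtype y) ∈ E1 := Submodule.mem_map_of_mem hy
      rw [h, Submodule.mem_bot] at this
      exact Subtype.ext this
    have hE1T : Disjoint E1 (sSup S : Submodule A I) := hdisj.mono_left hE1le
    have hE1S : E1 ∉ S := by
      intro hmem
      have : E1 ≤ sSup S := le_sSup hmem
      exact hE1ne (hE1T.eq_bot_of_le this)
    have hins : insert E1 S ∈ Z := by
      refine ⟨?_, ?_⟩
      · intro E hE
        rcases hE with rfl | hE
        · exact ⟨hE1fin, hE1inj⟩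
        · exact hSZ.1 E hE
      · intro a ha
        rcases ha with rfl | ha
        · have : insert E1 S \ {E1} = S := by
            rw [Set.insert_sdiff_of_mem _ (Set.mem_singleton E1)]
            exact Set.sdiff_singleton_eq_self hE1S
          rw [this]
          exact hE1T
        · have hne : E1 ≠ a := fun h => hE1S (h ▸ ha)
          have : insert E1 S \ {a} = insert E1 (S \ {a}) := by
            rw [Set.insert_sdiff_of_notMem _ (by simpa using hne)]
          rw [this, sSup_insert, sup_comm]
          have h1 : Disjoint a (sSup (S \ {a})) := hSZ.2 ha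
          have h2 : a ⊔ sSup (S \ {a}) ≤ sSup S :=
            sup_le (le_sSup ha) (sSup_le_sSup Set.sdiff_subset)
          exact h1.disjoint_sup_right_of_disjoint_sup_left (hE1T.symm.mono_left h2)
    have := hSmax.le_of_ge hins (Set.subset_insert E1 S)
    exact hE1S (this (Set.mem_insert E1 S))
  have htop : (sSup S : Submodule A I) = ⊤ := by
    rw [eq_top_iff]
    intro x _
    have h1 : x - (r x : I) ∈ LinearMap.ker r := by
      rw [LinearMap.mem_ker, map_sub, hr', sub_self]
    rw [hker, Submodule.mem_bot, sub_eq_zero] at h1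
    rw [h1]
    exact (r x).2
  refine ⟨S, fun E => (E : Submodule A I), fun E => (hSZ.1 E.1 E.2).1,
    fun E => (hSZ.1 E.1 E.2).2, (sSupIndep_iff S).mp hSZ.2, ?_⟩
  rw [← sSup_eq_iSup']
  exact htop

end Vale.Agent.Lib.P176
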