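import Mathlib

/-!
Derived-category wrapper: a K-injective complex `L` that is not acyclic but such that
`Hom(I, L)` is acyclic for every injective object `I` shows that the injective objects do not
generate the derived category as a localizing subcategory.
-/

universe w v u t

namespace Vale.Agent.Lib.P176

open CategoryTheory Limits Pretriangulated ZeroObject

section Wrapper

variable {C : Type u} [Category.{v} C] [Abelian C] [HasDerivedCategory.{w} C]

/-- Objects all of whose shifts have no nonzero morphism to `W`. -/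
def shiftOrth (W : DerivedCategory C) : ObjectProperty (DerivedCategory C) :=
  fun X => ∀ (n : ℤ) (f : X⟦n⟧ ⟶ W), f = 0

instance shiftOrth_iso (W : DerivedCategory C) : (shiftOrth W).IsClosedUnderIsomorphisms where
  of_iso e h n f := by
    rw [← cancel_epi ((shiftFunctor (DerivedCategory C) n).map e.hom), comp_zero]
    exact h n _

instance shiftOrth_zero (W : DerivedCategory C) : (shiftOrth W).ContainsZero where
  exists_zero := ⟨0, isZero_zero _, fun n f =>
    ((shiftFunctor (DerivedCategory C) n).map_isZero (isZero_zero _)).eq_of_src _ _⟩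

instance shiftOrth_shift (W : DerivedCategory C) : (shiftOrth W).IsStableUnderShift ℤ where
  isStableUnderShiftBy a := ⟨fun X hX n f => by
    have h := hX (a + n) ((shiftFunctorAdd' (DerivedCategory C) a n (a + n) rfl).hom.app X ≫ f)
    rw [← cancel_epi ((shiftFunctorAdd' (DerivedCategory C) a n (a + n) rfl).hom.app X), h,
      comp_zero]⟩

instance shiftOrth_tri (W : DerivedCategory C) : (shiftOrth W).IsTriangulatedClosed₂ :=
  .mk' (fun T hT h₁ h₃ n f => by
    have hT' := Triangle.shift_distinguished T hT n
    obtain ⟨g, hg⟩ := Triangle.yoneda_exact₂ _ hT' f (h₁ n _)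
    have hg0 : g = 0 := h₃ n g
    exact hg.trans ((congrArg (fun z => _ ≫ z) hg0).trans comp_zero))

instance shiftOrth_triangulated (W : DerivedCategory C) : (shiftOrth W).IsTriangulated where

theorem shiftOrth_coprod (W : DerivedCategory C) (J : Type t) :
    (shiftOrth W).IsClosedUnderColimitsOfShape (Discrete J) where
  colimitsOfShape_le := by
    rintro X ⟨h⟩ n f
    have hc := isColimitOfPreserves (shiftFunctor (DerivedCategory C) n) h.isColimit
    apply hc.hom_ext
    intro j
    rw [comp_zero]
    exact h.prop_diag_obj j n _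

/-- A morphism from a single complex to `L` is null-homotopic as soon as `Hom(I, L)` is exact
in the relevant degree. -/
theorem single_hom_homotopy_zero (L : CochainComplex C ℤ) (I : C) (m : ℤ)
    (hvan : ∀ (p q r : ℤ) (φ : I ⟶ L.X q), p + 1 = q → q + 1 = r →
      φ ≫ L.d q r = 0 → ∃ h : I ⟶ L.X p, h ≫ L.d p q = φ)
    (φ : (HomologicalComplex.single C (ComplexShape.up ℤ) m).obj I ⟶ L) :
    Nonempty (Homotopy φ 0) := by
  have h0 : ((HomologicalComplex.singleObjXSelf (ComplexShape.up ℤ) m I).inv ≫ φ.f m) ≫
      L.d m (m + 1) = 0 := by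
    rw [Category.assoc, φ.comm m (m + 1), HomologicalComplex.single_obj_d, zero_comp, comp_zero]
  obtain ⟨h, hh⟩ := hvan (m - 1) m (m + 1) _ (by omega) rfl h0
  let hom : ∀ i j, (ComplexShape.up ℤ).Rel j i →
      (((HomologicalComplex.single C (ComplexShape.up ℤ) m).obj I).X i ⟶ L.X j) :=
    fun i j hij => if hi : i = m then
      (((HomologicalComplex.single C (ComplexShape.up ℤ) m).obj I).XIsoOfEq hi).hom ≫
        (HomologicalComplex.singleObjXSelf (ComplexShape.up ℤ) m I).hom ≫ h ≫
        (L.XIsoOfEq (show m - 1 = j by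
          have : j + 1 = i := hij
          omega)).hom
      else 0
  have hφ : φ = Homotopy.nullHomotopicMap' hom := by
    apply HomologicalComplex.from_single_hom_ext
    rw [Homotopy.nullHomotopicMap'_f (show (ComplexShape.up ℤ).Rel (m - 1) m by simp)
      (show (ComplexShape.up ℤ).Rel m (m + 1) by simp)]
    simp only [hom, HomologicalComplex.single_obj_d, zero_comp, zero_add, dite_true,
      HomologicalComplex.XIsoOfEq_rfl, Iso.refl_hom, Category.id_comp, Category.comp_id,
      Category.assoc, hh, Iso.hom_inv_id_assoc]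
  rw [hφ]
  exact ⟨Homotopy.nullHomotopy' hom⟩

theorem single_shiftOrth (L : CochainComplex C ℤ) [L.IsKInjective] (I : C)
    (hvan : ∀ (p q r : ℤ) (φ : I ⟶ L.X q), p + 1 = q → q + 1 = r →
      φ ≫ L.d q r = 0 → ∃ h : I ⟶ L.X p, h ≫ L.d p q = φ) :
    shiftOrth (DerivedCategory.Q.obj L) ((DerivedCategory.singleFunctor C 0).obj I) := by
  intro n f
  let e := ((DerivedCategory.singleFunctors C).shiftIso n (-n) 0 (by simp)).app I
  have key : ∀ g : DerivedCategory.Q.obj
      ((HomologicalComplex.single C (ComplexShape.up ℤ) (-n)).obj I) ⟶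
      DerivedCategory.Q.obj L, g = 0 := by
    intro g
    obtain ⟨g', hg'⟩ := (CochainComplex.IsKInjective.Qh_map_bijective
      ((HomotopyCategory.quotient _ _).obj
        ((HomologicalComplex.single C (ComplexShape.up ℤ) (-n)).obj I)) L).2
      ((DerivedCategory.quotientCompQhIso C).hom.app _ ≫ g ≫
        (DerivedCategory.quotientCompQhIso C).inv.app L)
    obtain ⟨φ, rfl⟩ := (HomotopyCategory.quotient _ _).map_surjective g'
    obtain ⟨hφ⟩ := single_hom_homotopy_zero L I (-n) hvan φ
    rw [HomotopyCategory.eq_of_homotopy φ 0 hφ, Functor.map_zero, Functor.map_zero] at hg'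
    rw [← cancel_epi ((DerivedCategory.quotientCompQhIso C).hom.app
      ((HomologicalComplex.single C (ComplexShape.up ℤ) (-n)).obj I)),
      ← cancel_mono ((DerivedCategory.quotientCompQhIso C).inv.app L), Category.assoc, ← hg',
      comp_zero, zero_comp]
  have h2 : e.inv ≫ f = 0 := key _
  rw [← cancel_epi e.inv, h2, comp_zero]

/-- If `Q.obj L` is a zero object then `L` is exact in every degree. -/
theorem exactAt_of_isZero_Q (L : CochainComplex C ℤ) (h : IsZero (DerivedCategory.Q.obj L))
    (n : ℤ) : L.ExactAt n := by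
  rw [HomologicalComplex.exactAt_iff_isZero_homology]
  have h1 : IsZero ((DerivedCategory.homologyFunctor C n).obj (DerivedCategory.Q.obj L)) :=
    (DerivedCategory.homologyFunctor C n).map_isZero h
  exact h1.of_iso ((DerivedCategory.homologyFunctorFactors C n).app L).symm

/-- The wrapper. -/
theorem not_generate (L : CochainComplex C ℤ) [L.IsKInjective]
    (hvan : ∀ I : C, Injective I → ∀ (p q r : ℤ) (φ : I ⟶ L.X q), p + 1 = q → q + 1 = r →
      φ ≫ L.d q r = 0 → ∃ h : I ⟶ L.X p, h ≫ L.d p q = φ)
    (n₀ : ℤ) (hne : ¬ L.ExactAt n₀)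
    (hgen : ∀ S : ObjectProperty (DerivedCategory C), S.IsTriangulated →
      S.IsClosedUnderIsomorphisms →
      (∀ J : Type t, S.IsClosedUnderColimitsOfShape (Discrete J)) →
      (∀ I : C, Injective I → S ((DerivedCategory.singleFunctor C 0).obj I)) → ∀ X, S X) :
    False := by
  have h := hgen (shiftOrth (DerivedCategory.Q.obj L)) inferInstance inferInstance
    (fun J => shiftOrth_coprod _ J) (fun I hI => single_shiftOrth L I (hvan I hI))
    (DerivedCategory.Q.obj L)
  have h0 := h 0 ((shiftFunctorZero (DerivedCategory C) ℤ).hom.app _)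
  apply hne
  apply exactAt_of_isZero_Q
  rw [IsZero.iff_id_eq_zero]
  rw [← cancel_epi ((shiftFunctorZero (DerivedCategory C) ℤ).hom.app (DerivedCategory.Q.obj L)),
    comp_zero]
  exact (Category.comp_id _).trans h0

end Wrapper

end Vale.Agent.Lib.P176
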