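import Mathlib
import Vale.Agent.Lib.P176.RickDefs

/-!
For a projective module `P` and a finitely generated module `E` over a left Noetherian algebra,
every linear map `E → D(Hom_A(P, A))` comes from a functional on `Hom_A(P, E)`.
-/

universe u

namespace Vale.Agent.Lib.P176

open MulOpposite

/-- Evaluation at a point, as an additive map on the dual. -/
def rickflEval (k : Type u) [Field k] {M : Type u} [AddCommGroup M] [Module k M] (ξ : M) :
    RDual k M →+ k where
  toFun f := RDual.toFun' f ξ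
  map_zero' := rfl
  map_add' _ _ := rfl

/-- Linearity of `β` turns a sum of twisted evaluations into one evaluation. -/
theorem rickfl_sum_smul (k : Type u) [Field k] {A : Type u} [Ring A] [Algebra k A]
    {P E : Type u} [AddCommGroup P] [Module A P] [AddCommGroup E] [Module A E]
    (β : E →ₗ[A] Nu k A P) {n : ℕ} (a : Fin n → A) (y : Fin n → E) (ξ : P →ₗ[A] A) :
    ∑ s, RDual.toFun' (β (y s)) (op (a s) • ξ) = RDual.toFun' (β (∑ s, a s • y s)) ξ := by
  rw [map_sum]
  have h := map_sum (rickflEval k ξ) (fun s => β (a s • y s)) Finset.univ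
  refine Eq.trans ?_ h.symm
  refine Finset.sum_congr rfl (fun s _ => ?_)
  show RDual.toFun' (β (y s)) (op (a s) • ξ) = RDual.toFun' (β (a s • y s)) ξ
  rw [β.map_smul, RDual.toFun'_smul]

theorem exists_functional_of_balanced (k : Type u) [Field k] {A : Type u} [Ring A] [Algebra k A]
    [IsNoetherianRing A] (P : Type u) [AddCommGroup P] [Module A P] [Module.Projective A P]
    (E : Type u) [AddCommGroup E] [Module A E] [Module k E] [IsScalarTower k A E]
    [Module.Finite A E] (β : E →ₗ[A] Nu k A P) :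
    ∃ lam : (P →ₗ[A] E) →ₗ[k] k, ∀ (x : E) (ξ : P →ₗ[A] A),
      RDual.toFun' (β x) ξ = lam (ξ.smulRight x) := by
  classical
  obtain ⟨r, π, hπ⟩ := Module.Finite.exists_fin' A E
  have : Module.Finite A ↥(LinearMap.ker π) := inferInstance
  obtain ⟨q, σ, hσ⟩ := Module.Finite.exists_fin' A ↥(LinearMap.ker π)
  let x : Fin r → E := fun s => π (fun j => if s = j then 1 else 0)
  have hx : ∀ a : Fin r → A, ∑ s, a s • x s = π a := fun a =>
    (LinearMap.pi_apply_eq_sum_univ π a).symm
  let L : (P →ₗ[A] (Fin r → A)) →ₗ[k] k :=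
    { toFun := fun θ => ∑ s, RDual.toFun' (β (x s)) (LinearMap.proj s ∘ₗ θ)
      map_add' := by
        intro θ₁ θ₂
        rw [← Finset.sum_add_distrib]
        refine Finset.sum_congr rfl (fun s _ => ?_)
        rw [LinearMap.comp_add, map_add]
      map_smul' := by
        intro c θ
        rw [RingHom.id_apply, Finset.smul_sum]
        refine Finset.sum_congr rfl (fun s _ => ?_)
        have h : LinearMap.proj s ∘ₗ (c • θ) = c • (LinearMap.proj s ∘ₗ θ) := rfl
        rw [h, map_smul] }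
  have hL : ∀ θ : P →ₗ[A] (Fin r → A),
      L θ = ∑ s, RDual.toFun' (β (x s)) (LinearMap.proj s ∘ₗ θ) := fun θ => rfl
  have hkey : ∀ θ : P →ₗ[A] (Fin r → A), π ∘ₗ θ = 0 → L θ = 0 := by
    intro θ hθ
    let θ'' : P →ₗ[A] ↥(LinearMap.ker π) := LinearMap.codRestrict (LinearMap.ker π) θ
      (fun p => by rw [LinearMap.mem_ker]; exact LinearMap.congr_fun hθ p)
    obtain ⟨ζ, hζ⟩ := Module.projective_lifting_property σ θ'' hσ
    let ρ : Fin q → (Fin r → A) := fun l =>
      ((σ (fun j => if l = j then 1 else 0) : ↥(LinearMap.ker π)) : Fin r → A)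
    have hρ : ∀ l, ∑ s, ρ l s • x s = 0 := by
      intro l
      rw [hx]
      exact LinearMap.mem_ker.mp (σ (fun j => if l = j then 1 else 0)).2
    have hθp : ∀ p s, θ p s = ∑ l, ζ p l * ρ l s := by
      intro p s
      have h1 : θ p = ((σ (ζ p) : ↥(LinearMap.ker π)) : Fin r → A) := by
        have h0 := LinearMap.congr_fun hζ p
        rw [LinearMap.comp_apply] at h0
        rw [h0]
        rfl
      rw [h1, LinearMap.pi_apply_eq_sum_univ σ (ζ p), Submodule.coe_sum, Finset.sum_apply]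
      refine Finset.sum_congr rfl (fun l _ => ?_)
      rfl
    have hcomp : ∀ s, LinearMap.proj s ∘ₗ θ = ∑ l, op (ρ l s) • (LinearMap.proj l ∘ₗ ζ) := by
      intro s
      ext p
      rw [LinearMap.comp_apply, LinearMap.proj_apply, hθp, LinearMap.sum_apply]
      refine Finset.sum_congr rfl (fun l _ => ?_)
      rfl
    rw [hL]
    have h2 : ∀ s, RDual.toFun' (β (x s)) (LinearMap.proj s ∘ₗ θ)
        = ∑ l, RDual.toFun' (β (x s)) (op (ρ l s) • (LinearMap.proj l ∘ₗ ζ)) := by
      intro s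
      rw [hcomp s, map_sum]
    rw [Finset.sum_congr rfl (fun s _ => h2 s), Finset.sum_comm]
    refine Finset.sum_eq_zero (fun l _ => ?_)
    rw [rickfl_sum_smul k β (fun s => ρ l s) x (LinearMap.proj l ∘ₗ ζ), hρ l, map_zero]
    rfl
  let πs : (P →ₗ[A] (Fin r → A)) →ₗ[k] (P →ₗ[A] E) :=
    { toFun := fun θ => π ∘ₗ θ
      map_add' := fun θ₁ θ₂ => LinearMap.comp_add _ _ _
      map_smul' := by
        intro c θ
        ext p
        show π (c • θ p) = c • π (θ p)
        exact π.map_smul_of_tower c (θ p) }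
  have hπs : LinearMap.range πs = ⊤ := by
    rw [LinearMap.range_eq_top]
    intro θ
    obtain ⟨θ', hθ'⟩ := Module.projective_lifting_property π θ hπ
    exact ⟨θ', hθ'⟩
  obtain ⟨g, hg⟩ := LinearMap.exists_rightInverse_of_surjective πs hπs
  have hlam : ∀ θ : P →ₗ[A] (Fin r → A), L (g (π ∘ₗ θ)) = L θ := by
    intro θ
    have h2 : π ∘ₗ g (π ∘ₗ θ) = π ∘ₗ θ := LinearMap.congr_fun hg (π ∘ₗ θ)
    have h1 : π ∘ₗ (g (π ∘ₗ θ) - θ) = 0 := by
      rw [LinearMap.comp_sub, h2, sub_self]
    have h3 := hkey _ h1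
    rw [map_sub, sub_eq_zero] at h3
    exact h3
  refine ⟨L ∘ₗ g, ?_⟩
  intro y ξ
  obtain ⟨a, rfl⟩ := hπ y
  let θ : P →ₗ[A] (Fin r → A) := LinearMap.pi (fun s => op (a s) • ξ)
  have hθ : π ∘ₗ θ = ξ.smulRight (π a) := by
    ext p
    rw [LinearMap.comp_apply, LinearMap.smulRight_apply]
    have h5 : θ p = ξ p • a := by
      funext s
      rfl
    rw [h5, map_smul]
  rw [← hθ, LinearMap.comp_apply, hlam θ, hL]
  have h4 : ∀ s, LinearMap.proj s ∘ₗ θ = op (a s) • ξ := fun s => rfl
  rw [Finset.sum_congr rfl (fun s _ => by rw [h4 s]), rickfl_sum_smul k β a x ξ, hx]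

end Vale.Agent.Lib.P176
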