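import Mathlib
import Vale.Agent.Lib.P176.RickDer

/-!
The derived-category wrapper for a complex of injective objects indexed by the natural numbers.
-/

universe w v u t

namespace Vale.Agent.Lib.P176

open CategoryTheory Limits

variable {C : Type u} [Category.{v} C] [Abelian C] [HasDerivedCategory.{w} C]

theorem not_generate_nat (K : CochainComplex C ℕ) [∀ n, Injective (K.X n)]
    (hvan0 : ∀ I : C, Injective I → ∀ φ : I ⟶ K.X 0, φ ≫ K.d 0 1 = 0 → φ = 0)
    (hvan : ∀ I : C, Injective I → ∀ (s : ℕ) (φ : I ⟶ K.X (s + 1)),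
      φ ≫ K.d (s + 1) (s + 2) = 0 → ∃ h : I ⟶ K.X s, h ≫ K.d s (s + 1) = φ)
    (s₀ : ℕ) (hne : ¬ K.ExactAt s₀)
    (hgen : ∀ S : ObjectProperty (DerivedCategory C), S.IsTriangulated →
      S.IsClosedUnderIsomorphisms →
      (∀ J : Type t, S.IsClosedUnderColimitsOfShape (Discrete J)) →
      (∀ I : C, Injective I → S ((DerivedCategory.singleFunctor C 0).obj I)) → ∀ X, S X) :
    False := by
  refine not_generate (K.extend ComplexShape.embeddingUpNat) ?_ (s₀ : ℤ) ?_ hgen
  · intro I hI p q r φ hpq hqr hφ
    by_cases hq : 0 ≤ q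
    · obtain ⟨s, rfl⟩ := Int.eq_ofNat_of_zero_le hq
      cases s with
      | zero =>
        have e1 : ComplexShape.embeddingUpNat.f 0 = ((0 : ℕ) : ℤ) := rfl
        have e2 : ComplexShape.embeddingUpNat.f 1 = r := by
          rw [← hqr]
          rfl
        have h1 : (φ ≫ (K.extendXIso ComplexShape.embeddingUpNat e1).hom) ≫ K.d 0 1 = 0 := by
          rw [K.extend_d_eq ComplexShape.embeddingUpNat e1 e2] at hφ
          rw [Category.assoc, ← cancel_mono (K.extendXIso ComplexShape.embeddingUpNat e2).inv,
            Category.assoc, Category.assoc, hφ, zero_comp]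
        have h2 := hvan0 I hI _ h1
        have h3 : φ = 0 := by
          rw [← cancel_mono (K.extendXIso ComplexShape.embeddingUpNat e1).hom, h2, zero_comp]
        exact ⟨0, by rw [zero_comp, h3]⟩
      | succ s =>
        have e0 : ComplexShape.embeddingUpNat.f s = p := by
          have : p = (s : ℤ) := by
            have : ((s + 1 : ℕ) : ℤ) = (s : ℤ) + 1 := by push_cast; rfl
            omega
          rw [this]
          rfl
        have e1 : ComplexShape.embeddingUpNat.f (s + 1) = ((s + 1 : ℕ) : ℤ) := rfl
        have e2 : ComplexShape.embeddingUpNat.f (s + 2) = r := by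
          rw [← hqr]
          show ((s + 2 : ℕ) : ℤ) = ((s + 1 : ℕ) : ℤ) + 1
          push_cast
          ring
        have h1 : (φ ≫ (K.extendXIso ComplexShape.embeddingUpNat e1).hom) ≫
            K.d (s + 1) (s + 2) = 0 := by
          rw [K.extend_d_eq ComplexShape.embeddingUpNat e1 e2] at hφ
          rw [Category.assoc, ← cancel_mono (K.extendXIso ComplexShape.embeddingUpNat e2).inv,
            Category.assoc, Category.assoc, hφ, zero_comp]
        obtain ⟨h, hh⟩ := hvan I hI s _ h1
        refine ⟨h ≫ (K.extendXIso ComplexShape.embeddingUpNat e0).inv, ?_⟩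
        rw [K.extend_d_eq ComplexShape.embeddingUpNat e0 e1, Category.assoc,
          Iso.inv_hom_id_assoc, ← Category.assoc, hh, Category.assoc, Iso.hom_inv_id,
          Category.comp_id]
    · have hz : IsZero ((K.extend ComplexShape.embeddingUpNat).X q) := by
        apply K.isZero_extend_X
        intro i hi
        apply hq
        rw [← hi]
        exact Int.natCast_nonneg i
      exact ⟨0, by rw [zero_comp]; exact (hz.eq_of_tgt _ _)⟩
  · intro h
    apply hne
    exact (K.extend_exactAt_iff ComplexShape.embeddingUpNat (j := s₀) rfl).mp h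

end Vale.Agent.Lib.P176
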