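import Mathlib
import Vale.Agent.Lib.P176.RickFL

/-!
`D(Hom_A(P, A))` is an injective module when `P` is projective.
-/

universe u

namespace Vale.Agent.Lib.P176

/-- Composition with the inclusion of a left ideal, as a map of vector spaces. -/
def ricknuinj_incl (k : Type u) [Field k] {A : Type u} [Ring A] [Algebra k A]
    (P : Type u) [AddCommGroup P] [Module A P] (I : Ideal A) :
    (P →ₗ[A] ↥I) →ₗ[k] (P →ₗ[A] A) where
  toFun θ := I.subtype ∘ₗ θ
  map_add' θ θ' := LinearMap.comp_add _ _ _
  map_smul' c θ := by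
    apply LinearMap.ext
    intro p
    rfl

theorem ricknuinj_incl_apply (k : Type u) [Field k] {A : Type u} [Ring A] [Algebra k A]
    (P : Type u) [AddCommGroup P] [Module A P] (I : Ideal A) (θ : P →ₗ[A] ↥I) (p : P) :
    ricknuinj_incl k P I θ p = (θ p : A) := rfl

theorem ricknuinj_incl_injective (k : Type u) [Field k] {A : Type u} [Ring A] [Algebra k A]
    (P : Type u) [AddCommGroup P] [Module A P] (I : Ideal A) :
    Function.Injective (ricknuinj_incl k P I) := by
  intro θ θ' h
  apply LinearMap.ext
  intro p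
  apply Subtype.ext
  have h1 := LinearMap.congr_fun h p
  rw [ricknuinj_incl_apply, ricknuinj_incl_apply] at h1
  exact h1

theorem nu_injective (k : Type u) [Field k] {A : Type u} [Ring A] [Algebra k A]
    [Module.Finite k A] (P : Type u) [AddCommGroup P] [Module A P] [Module.Projective A P] :
    Module.Injective A (Nu k A P) := by
  have hN : IsNoetherianRing A := isNoetherian_of_tower k (inferInstance : IsNoetherian k A)
  apply Module.Baer.injective
  intro I g
  obtain ⟨lam, hlam⟩ := exists_functional_of_balanced k P (↥I) g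
  obtain ⟨r, hr⟩ := LinearMap.exists_leftInverse_of_injective (ricknuinj_incl k P I)
    (LinearMap.ker_eq_bot.mpr (ricknuinj_incl_injective k P I))
  refine ⟨LinearMap.toSpanSingleton A (Nu k A P) (RDual.of (lam ∘ₗ r)), ?_⟩
  intro x mem
  apply RDual.ext'
  intro ξ
  rw [hlam ⟨x, mem⟩ ξ, LinearMap.toSpanSingleton_apply, RDual.toFun'_smul, RDual.toFun'_of,
    LinearMap.comp_apply]
  have h1 : MulOpposite.op x • ξ = ricknuinj_incl k P I (ξ.smulRight ⟨x, mem⟩) := by
    apply LinearMap.ext
    intro p
    rfl
  rw [h1]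
  have h2 := LinearMap.congr_fun hr (ξ.smulRight ⟨x, mem⟩)
  rw [LinearMap.comp_apply, LinearMap.id_apply] at h2
  rw [h2]

end Vale.Agent.Lib.P176
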