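import Mathlib

/-!
Over a finite-dimensional algebra, the direct sum of copies of the algebra is a direct summand,
as a left module, of the product.
-/

universe u

namespace Vale.Agent.Lib.P176

theorem exists_retraction_pi_finsupp (k : Type u) [Field k] (A : Type u) [Ring A] [Algebra k A]
    [Module.Finite k A] (B : Type u) :
    ∃ ρ : (B → A) →ₗ[A] (B →₀ A), ∀ y : B →₀ A, ρ (⇑y) = y := by
  classical
  let n := Module.finrank k A
  let b : Module.Basis (Fin n) k A := Module.finBasis k A
  have hinj : Function.Injective (Finsupp.lcoeFun : (B →₀ k) →ₗ[k] (B → k)) := by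
    intro x y hxy
    exact DFunLike.coe_injective hxy
  obtain ⟨r₀, hr₀⟩ := LinearMap.exists_leftInverse_of_injective
    (Finsupp.lcoeFun : (B →₀ k) →ₗ[k] (B → k)) (LinearMap.ker_eq_bot.mpr hinj)
  have hr₀' : ∀ z : B →₀ k, r₀ (⇑z) = z := fun z => by
    have := LinearMap.congr_fun hr₀ z
    simpa using this
  let ρ₀ : (B → A) →ₗ[k] (B →₀ A) :=
    ∑ s : Fin n, (Finsupp.mapRange.linearMap (LinearMap.toSpanSingleton k A (b s))) ∘ₗ r₀ ∘ₗ
      ((b.coord s).compLeft B)
  have key : ∀ (a : A) (s : Fin n) (w : B →₀ k),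
      a • Finsupp.mapRange.linearMap (LinearMap.toSpanSingleton k A (b s)) w
        = ∑ u, (b.coord u (a * b s)) •
            Finsupp.mapRange.linearMap (LinearMap.toSpanSingleton k A (b u)) w := by
    intro a s w
    ext β
    simp only [Finsupp.smul_apply, Finsupp.mapRange.linearMap_apply, Finsupp.mapRange_apply,
      LinearMap.toSpanSingleton_apply, Finsupp.coe_finsetSum, Finset.sum_apply, smul_eq_mul]
    rw [mul_smul_comm]
    conv_lhs => rw [← b.sum_repr (a * b s)]
    rw [Finset.smul_sum]
    refine Finset.sum_congr rfl fun u _ => ?_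
    rw [smul_comm]; rfl
  have hcomp : ∀ (a : A) (u : Fin n) (y : B → A),
      (b.coord u).compLeft B (a • y)
        = ∑ s, (b.coord u (a * b s)) • (b.coord s).compLeft B y := by
    intro a u y
    ext β
    simp only [LinearMap.compLeft_apply, Function.comp, Pi.smul_apply, Finset.sum_apply,
      smul_eq_mul]
    conv_lhs => rw [← b.sum_repr (y β)]
    rw [Finset.mul_sum, map_sum]
    refine Finset.sum_congr rfl fun s _ => ?_
    rw [mul_smul_comm, map_smul, smul_eq_mul, mul_comm]; rfl
  refine ⟨{ toFun := ρ₀, map_add' := ρ₀.map_add, map_smul' := ?_ }, ?_⟩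
  · intro a y
    simp only [RingHom.id_apply]
    show ρ₀ (a • y) = a • ρ₀ y
    simp only [ρ₀, LinearMap.sum_apply, LinearMap.comp_apply, hcomp, map_sum, map_smul,
      Finset.smul_sum, key]
    rw [Finset.sum_comm]
  · intro y
    show ρ₀ (⇑y) = y
    have h1 : ∀ s : Fin n, (b.coord s).compLeft B (⇑y)
        = ⇑(Finsupp.mapRange.linearMap (b.coord s) y) := by
      intro s
      ext β
      simp
    simp only [ρ₀, LinearMap.sum_apply, LinearMap.comp_apply, h1, hr₀']
    ext β
    simp only [Finsupp.coe_finsetSum, Finset.sum_apply, Finsupp.mapRange.linearMap_apply,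
      Finsupp.mapRange_apply, LinearMap.toSpanSingleton_apply]
    exact b.sum_repr (y β)

end Vale.Agent.Lib.P176
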