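import Mathlib
import Vale.Agent.Lib.P176.RickDefs
import Vale.Agent.Lib.P176.RickRet

/-!
If a map `g : P₁ → P₂` from a projective module has no retraction, then the induced map
`D(Hom_A(P₁, A)) → D(Hom_A(P₂, A))` is not injective.
-/

universe u

namespace Vale.Agent.Lib.P176

theorem nuMap_not_injective (k : Type u) [Field k] {A : Type u} [Ring A] [Algebra k A]
    [Module.Finite k A] {P₁ P₂ : Type u} [AddCommGroup P₁] [Module A P₁] [AddCommGroup P₂]
    [Module A P₂] [Module.Projective A P₁] (g : P₁ →ₗ[A] P₂)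
    (hns : ¬ ∃ r : P₂ →ₗ[A] P₁, r ∘ₗ g = LinearMap.id) :
    ∃ x : Nu k A P₁, x ≠ 0 ∧ nuMap k g x = 0 := by
  classical
  by_cases hsurj : Function.Surjective (LinearMap.lcomp k A g)
  · exfalso
    apply hns
    obtain ⟨i, hi⟩ := (Module.projective_def' (R := A) (P := P₁)).mp inferInstance
    have hex : ∀ b : P₁, ∃ ξ : P₂ →ₗ[A] A, ξ ∘ₗ g = (Finsupp.lapply b) ∘ₗ i :=
      fun b => hsurj _
    choose gb hgb using hex
    obtain ⟨ρ, hρ⟩ := exists_retraction_pi_finsupp k A P₁
    refine ⟨(Finsupp.linearCombination A id) ∘ₗ ρ ∘ₗ (LinearMap.pi gb), ?_⟩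
    apply LinearMap.ext
    intro p
    have h1 : (LinearMap.pi gb) (g p) = ⇑(i p) := by
      funext b
      have h := congrArg (fun φ : P₁ →ₗ[A] A => φ p) (hgb b)
      simpa using h
    have h2 := congrArg (fun φ : P₁ →ₗ[A] P₁ => φ p) hi
    simp only [LinearMap.comp_apply, LinearMap.id_apply] at h2 ⊢
    rw [h1, hρ, h2]
  · have hW : LinearMap.range (LinearMap.lcomp k A g) < ⊤ := by
      rw [lt_top_iff_ne_top, Ne, LinearMap.range_eq_top]
      exact hsurj
    obtain ⟨f, hf0, hfW⟩ := Submodule.exists_le_ker_of_lt_top _ hW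
    refine ⟨RDual.of f, ?_, ?_⟩
    · intro h0
      apply hf0
      have h := congrArg RDual.toFun' h0
      exact h
    · apply RDual.ext'
      intro ξ
      rw [toFun'_nuMap, RDual.toFun'_of, RDual.toFun'_zero]
      have hmem : ξ ∘ₗ g ∈ LinearMap.range (LinearMap.lcomp k A g) := ⟨ξ, rfl⟩
      exact LinearMap.mem_ker.mp (hfW hmem)

end Vale.Agent.Lib.P176
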