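import Mathlib
import Vale.Agent.Lib.P176.RickFL

/-!
`Hom(E, -)` is exact on the image under `P ↦ D(Hom_A(P, A))` of an exact pair of maps of
projective modules, for `E` finitely generated and injective.
-/

universe u

namespace Vale.Agent.Lib.P176

open MulOpposite

/-- Every map from a projective module to a finitely generated module is a finite sum of maps of
the form `p ↦ η p • x`. -/
theorem ricknuvan_decomp {A : Type u} [Ring A] (P : Type u) [AddCommGroup P] [Module A P]
    [Module.Projective A P] (E : Type u) [AddCommGroup E] [Module A E] [Module.Finite A E]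
    (θ : P →ₗ[A] E) :
    ∃ (r : ℕ) (η : Fin r → (P →ₗ[A] A)) (x : Fin r → E),
      θ = ∑ s, (η s).smulRight (x s) := by
  obtain ⟨r, π, hπ⟩ := Module.Finite.exists_fin' A E
  obtain ⟨θ', hθ'⟩ := Module.projective_lifting_property π θ hπ
  refine ⟨r, fun s => LinearMap.proj s ∘ₗ θ', fun s => π (fun j => if s = j then 1 else 0), ?_⟩
  apply LinearMap.ext
  intro p
  rw [← hθ', LinearMap.comp_apply, LinearMap.pi_apply_eq_sum_univ π (θ' p),
    LinearMap.sum_apply]
  rfl

/-- A map killed by `f` extends along `g` when the pair `f`, `g` is exact and the target is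
injective. -/
theorem ricknuvan_extend {A : Type u} [Ring A] {P₁ P₂ P₃ : Type u} [AddCommGroup P₁]
    [Module A P₁] [AddCommGroup P₂] [Module A P₂] [AddCommGroup P₃] [Module A P₃]
    (f : P₁ →ₗ[A] P₂) (g : P₂ →ₗ[A] P₃) (hex : Function.Exact f g)
    (E : Type u) [AddCommGroup E] [Module A E] [Module.Injective A E] (θ : P₂ →ₗ[A] E)
    (h : θ ∘ₗ f = 0) : ∃ θ₃ : P₃ →ₗ[A] E, θ₃ ∘ₗ g = θ := by
  have hker : LinearMap.ker g ≤ LinearMap.ker θ := by
    intro y hy
    rw [LinearMap.mem_ker] at hy ⊢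
    obtain ⟨x, rfl⟩ := (hex y).mp hy
    exact congrArg (fun t : P₁ →ₗ[A] E => t x) h
  have hinj : Function.Injective ((LinearMap.ker g).liftQ g le_rfl) :=
    LinearMap.ker_eq_bot.mp (Submodule.ker_liftQ_eq_bot _ g le_rfl le_rfl)
  obtain ⟨θ₃, hθ₃⟩ := Module.Injective.extension_property A E _ _
    ((LinearMap.ker g).liftQ g le_rfl) hinj ((LinearMap.ker g).liftQ θ hker)
  refine ⟨θ₃, ?_⟩
  apply LinearMap.ext
  intro y
  exact congrArg (fun t : (P₂ ⧸ LinearMap.ker g) →ₗ[A] E => t (Submodule.Quotient.mk y)) hθ₃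

/-- Over a field, a functional vanishing on the kernel of a linear map factors through it. -/
theorem ricknuvan_factor {k : Type u} [Field k] {V W : Type u} [AddCommGroup V] [Module k V]
    [AddCommGroup W] [Module k W] (F : V →ₗ[k] W) (lam : V →ₗ[k] k)
    (h : LinearMap.ker F ≤ LinearMap.ker lam) : ∃ μ : W →ₗ[k] k, ∀ v, μ (F v) = lam v := by
  obtain ⟨G, hG⟩ := LinearMap.exists_leftInverse_of_injective
    ((LinearMap.ker F).liftQ F le_rfl) (Submodule.ker_liftQ_eq_bot _ F le_rfl le_rfl)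
  refine ⟨(LinearMap.ker F).liftQ lam h ∘ₗ G, fun v => ?_⟩
  have h1 : G (F v) = Submodule.Quotient.mk v :=
    congrArg (fun t : (V ⧸ LinearMap.ker F) →ₗ[k] (V ⧸ LinearMap.ker F) =>
      t (Submodule.Quotient.mk v)) hG
  rw [LinearMap.comp_apply, h1]
  rfl

/-- A functional `μ` on `Hom_A(P, E)` gives a linear map `E → D(Hom_A(P, A))`,
`x ↦ (ζ ↦ μ (p ↦ ζ p • x))`. -/
theorem ricknuvan_h (k : Type u) [Field k] {A : Type u} [Ring A] [Algebra k A] (P : Type u)
    [AddCommGroup P] [Module A P] {E : Type u} [AddCommGroup E] [Module A E] [Module k E]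
    [IsScalarTower k A E] (μ : (P →ₗ[A] E) →ₗ[k] k) :
    ∃ h : E →ₗ[A] Nu k A P, ∀ (x : E) (ζ : P →ₗ[A] A),
      RDual.toFun' (h x) ζ = μ (ζ.smulRight x) := by
  refine ⟨{ toFun := fun x => RDual.of
              { toFun := fun ζ => μ (ζ.smulRight x)
                map_add' := ?_
                map_smul' := ?_ }
            map_add' := ?_
            map_smul' := ?_ }, fun x ζ => rfl⟩
  · intro ζ₁ ζ₂
    rw [← map_add]
    congr 1
    apply LinearMap.ext
    intro p
    show (ζ₁ p + ζ₂ p) • x = ζ₁ p • x + ζ₂ p • x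
    rw [add_smul]
  · intro c ζ
    rw [RingHom.id_apply, ← map_smul]
    congr 1
    apply LinearMap.ext
    intro p
    show (c • ζ p) • x = c • (ζ p • x)
    rw [smul_assoc]
  · intro x y
    apply RDual.ext'
    intro ζ
    show μ (ζ.smulRight (x + y)) = μ (ζ.smulRight x) + μ (ζ.smulRight y)
    rw [← map_add]
    congr 1
    apply LinearMap.ext
    intro p
    show ζ p • (x + y) = ζ p • x + ζ p • y
    rw [smul_add]
  · intro a x
    apply RDual.ext'
    intro ζ
    show μ (ζ.smulRight (a • x)) = μ ((op a • ζ).smulRight x)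
    congr 1
    apply LinearMap.ext
    intro p
    show ζ p • (a • x) = (op a • ζ p) • x
    rw [MulOpposite.smul_eq_mul_unop, unop_op, mul_smul]

theorem vanAt_nu (k : Type u) [Field k] {A : Type u} [Ring A] [Algebra k A] [Module.Finite k A]
    {P₁ P₂ P₃ : Type u} [AddCommGroup P₁] [Module A P₁] [AddCommGroup P₂] [Module A P₂]
    [AddCommGroup P₃] [Module A P₃] [Module.Projective A P₁] [Module.Projective A P₂]
    [Module.Projective A P₃] (f : P₁ →ₗ[A] P₂) (g : P₂ →ₗ[A] P₃) (hex : Function.Exact f g)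
    (E : Type u) [AddCommGroup E] [Module A E] [Module.Finite A E] [Module.Injective A E] :
    VanAt E (nuMap k f) (nuMap k g) := by
  intro φ hφ
  let _ : Module k E := Module.compHom E (algebraMap k A)
  have _ : IsScalarTower k A E := ⟨fun c a x => by
    show (c • a) • x = algebraMap k A c • (a • x)
    rw [Algebra.smul_def, mul_smul]⟩
  have hNoeth : IsNoetherianRing A :=
    isNoetherian_of_tower k (inferInstance : IsNoetherian k A)
  obtain ⟨lam, hlam⟩ := exists_functional_of_balanced k P₂ E φ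
  have h1 : ∀ θ : P₃ →ₗ[A] E, lam (θ ∘ₗ g) = 0 := by
    intro θ
    obtain ⟨r, η, x, rfl⟩ := ricknuvan_decomp P₃ E θ
    have e : (∑ s, (η s).smulRight (x s)) ∘ₗ g = ∑ s, ((η s) ∘ₗ g).smulRight (x s) := by
      apply LinearMap.ext
      intro p
      rw [LinearMap.comp_apply, LinearMap.sum_apply, LinearMap.sum_apply]
      rfl
    rw [e, map_sum]
    apply Finset.sum_eq_zero
    intro s _
    rw [← hlam]
    exact congrArg (fun t : E →ₗ[A] Nu k A P₃ => RDual.toFun' (t (x s)) (η s)) hφ
  have hker : LinearMap.ker (LinearMap.lcomp k E f) ≤ LinearMap.ker lam := by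
    intro θ hθ
    rw [LinearMap.mem_ker] at hθ ⊢
    obtain ⟨θ₃, rfl⟩ := ricknuvan_extend f g hex E θ hθ
    exact h1 θ₃
  obtain ⟨μ, hμ⟩ := ricknuvan_factor (LinearMap.lcomp k E f) lam hker
  obtain ⟨h, hh⟩ := ricknuvan_h k P₁ μ
  refine ⟨h, ?_⟩
  apply LinearMap.ext
  intro x
  apply RDual.ext'
  intro ξ
  show RDual.toFun' (nuMap k f (h x)) ξ = RDual.toFun' (φ x) ξ
  rw [toFun'_nuMap, hh, hlam]
  have e : (ξ ∘ₗ f).smulRight x = LinearMap.lcomp k E f (ξ.smulRight x) := by
    apply LinearMap.ext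
    intro p
    rfl
  rw [e, hμ]

end Vale.Agent.Lib.P176
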