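import Mathlib
import Vale.Agent.Lib.P176.DellSyz

/-!
A module of finite projective dimension greater than `n` has a finite resolution by projective
modules, written as a cochain complex `0 = R 0 → R 1 → R 2 → ...` (the top syzygy sits in degree
`1`), which is exact in the degrees `1, ..., n + 1` and whose first map `R 1 → R 2` has no
retraction.
-/

universe u

namespace Vale.Agent.Lib.P176

open CategoryTheory Abelian Limits

variable {A : Type u} [Ring A]

/-- Dimension shifting along a projective resolution. -/
theorem rickres_shift {T : ModuleCat.{u} A} (P : ProjectiveResolution T) :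
    ∀ (j m : ℕ), HasProjectiveDimensionLT T (j + m + 1) ↔
      HasProjectiveDimensionLT (cokernel (P.complex.d (j + 1) j)) (m + 1) := by
  intro j
  induction j with
  | zero =>
    intro m
    rw [zero_add]
    exact ⟨fun h => hasProjectiveDimensionLT_of_iso (syzZeroIso P).symm (m + 1),
      fun h => hasProjectiveDimensionLT_of_iso (syzZeroIso P) (m + 1)⟩
  | succ j ih =>
    intro m
    have h1 := ih (m + 1)
    have h2 := (syzSC_shortExact P j).hasProjectiveDimensionLT_X₃_iff m (P.projective j)
    have e : j + 1 + m + 1 = j + (m + 1) + 1 := by omega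
    rw [e, h1]
    exact h2

/-- The terms of the reversed resolution. -/
noncomputable def rickresX {T : ModuleCat.{u} A} (P : ProjectiveResolution T) (e : ℕ) :
    ℕ → ModuleCat.{u} A
  | 0 => ModuleCat.of A PUnit.{u + 1}
  | 1 => cokernel (P.complex.d (e + 2) (e + 1))
  | (s + 2) => P.complex.X (e - s)

/-- The maps of the reversed resolution. -/
noncomputable def rickresD {T : ModuleCat.{u} A} (P : ProjectiveResolution T) (e : ℕ) :
    ∀ s, rickresX P e s ⟶ rickresX P e (s + 1)
  | 0 => 0
  | 1 => (syzSC P e).f
  | (s + 2) => P.complex.d (e - s) (e - (s + 1))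

theorem rickres_exact_general {T : ModuleCat.{u} A} (P : ProjectiveResolution T) (a b c : ℕ)
    (hab : a = b + 1) (hbc : b = c + 1) :
    Function.Exact (P.complex.d a b).hom (P.complex.d b c).hom := by
  subst hab hbc
  exact (ShortComplex.ShortExact.moduleCat_exact_iff_function_exact _).mp (P.exact_succ c)

theorem rickres_range {T : ModuleCat.{u} A} (P : ProjectiveResolution T) (e : ℕ) :
    LinearMap.range (syzSC P e).f.hom = LinearMap.range (P.complex.d (e + 1) e).hom := by
  have h1 : cokernel.π (P.complex.d (e + 2) (e + 1)) ≫ (syzSC P e).f = P.complex.d (e + 1) e := by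
    simp [syzSC]
  have hepi : Function.Surjective (cokernel.π (P.complex.d (e + 2) (e + 1))).hom :=
    (ModuleCat.epi_iff_surjective _).mp inferInstance
  apply le_antisymm
  · rintro _ ⟨y, rfl⟩
    obtain ⟨z, rfl⟩ := hepi y
    refine ⟨z, ?_⟩
    rw [← h1]
    rfl
  · rintro _ ⟨z, rfl⟩
    refine ⟨(cokernel.π (P.complex.d (e + 2) (e + 1))).hom z, ?_⟩
    rw [← h1]
    rfl

theorem rickres_comp {T : ModuleCat.{u} A} (P : ProjectiveResolution T) (e b : ℕ) :
    cokernel.desc (P.complex.d (e + 2) (e + 1)) (P.complex.d (e + 1) e)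
      (P.complex.d_comp_d (e + 2) (e + 1) e) ≫ P.complex.d e b = 0 := by
  apply (cancel_epi (cokernel.π (P.complex.d (e + 2) (e + 1)))).mp
  simp

theorem exists_resolution_data {A : Type u} [Ring A] (M : ModuleCat.{u} A) (n d : ℕ)
    (hd : HasProjectiveDimensionLE M d) (hn : ¬ HasProjectiveDimensionLE M n) :
    ∃ (R : ℕ → ModuleCat.{u} A) (δ : ∀ s, R s ⟶ R (s + 1)),
      (∀ s, Module.Projective A (R s)) ∧ Subsingleton (R 0) ∧
      (∀ s, δ s ≫ δ (s + 1) = 0) ∧
      (∀ s, s ≤ n → Function.Exact (δ s).hom (δ (s + 1)).hom) ∧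
      ¬ ∃ r : R 2 →ₗ[A] R 1, r ∘ₗ (δ 1).hom = LinearMap.id := by
  classical
  have hex : ∃ m, HasProjectiveDimensionLE M m := ⟨d, hd⟩
  let e₀ := Nat.find hex
  have he₀ : HasProjectiveDimensionLE M e₀ := Nat.find_spec hex
  have hlt : n < e₀ := by
    by_contra hle
    apply hn
    exact hasProjectiveDimensionLT_of_ge M (e₀ + 1) (n + 1) (by omega)
  obtain ⟨e, he⟩ : ∃ e, e₀ = e + 1 := ⟨e₀ - 1, by omega⟩
  have hmin : ¬ HasProjectiveDimensionLE M e := by
    intro h
    have := Nat.find_min' hex h
    omega
  rw [he] at he₀
  have hne : n ≤ e := by omega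
  let P := ProjectiveResolution.of M
  have hK1 : Projective (cokernel (P.complex.d (e + 2) (e + 1))) := by
    rw [projective_iff_hasProjectiveDimensionLT_one]
    exact (rickres_shift P (e + 1) 0).mp he₀
  have hK0 : ¬ Projective (cokernel (P.complex.d (e + 1) e)) := by
    rw [projective_iff_hasProjectiveDimensionLT_one]
    intro h
    exact hmin ((rickres_shift P e 0).mpr h)
  refine ⟨rickresX P e, rickresD P e, ?_, ?_, ?_, ?_, ?_⟩
  · intro s
    match s with
    | 0 =>
      show Module.Projective A PUnit.{u + 1}
      infer_instance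
    | 1 =>
      exact (IsProjective.iff_projective _).mpr hK1
    | (s + 2) =>
      exact (IsProjective.iff_projective _).mpr (P.projective (e - s))
  · show Subsingleton PUnit.{u + 1}
    infer_instance
  · intro s
    match s with
    | 0 => exact zero_comp
    | 1 =>
      exact rickres_comp P e _
    | (s + 2) =>
      exact P.complex.d_comp_d _ _ _
  · intro s hs
    match s with
    | 0 =>
      have hmono : Function.Injective (syzSC P e).f.hom :=
        (ModuleCat.mono_iff_injective _).mp (syzSC_shortExact P e).mono_f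
      intro y
      constructor
      · intro hy
        refine ⟨0, ?_⟩
        apply hmono
        rw [map_zero]
        exact hy.symm ▸ (map_zero _)
      · rintro ⟨x, rfl⟩
        have hx : (rickresD P e 0).hom x = 0 := rfl
        rw [hx]
        exact map_zero _
    | 1 =>
      obtain ⟨c, hc⟩ : ∃ c, e = c + 1 := ⟨e - 1, by omega⟩
      have h1 := rickres_exact_general P (e + 1) e (e - 1) rfl (by omega)
      have h2 := rickres_range P e
      have h2' : Set.range (syzSC P e).f.hom = Set.range (P.complex.d (e + 1) e).hom :=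
        congrArg (fun S : Submodule A (P.complex.X e) => (S : Set (P.complex.X e))) h2
      intro y
      show (P.complex.d (e - 0) (e - (0 + 1))).hom y = 0 ↔ y ∈ Set.range (syzSC P e).f.hom
      rw [h2']
      exact h1 y
    | (s + 2) =>
      exact rickres_exact_general P (e - s) (e - (s + 1)) (e - (s + 1 + 1)) (by omega) (by omega)
  · rintro ⟨r, hr⟩
    apply hK0
    have hS := syzSC_shortExact P e
    have hr' : (syzSC P e).f ≫ ModuleCat.ofHom r = 𝟙 _ := by
      apply ModuleCat.hom_ext
      exact hr
    have hepi : Epi (syzSC P e).g := hS.epi_g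
    let spl := ShortComplex.Splitting.ofExactOfRetraction (syzSC P e) hS.exact
      (ModuleCat.ofHom r) hr' hepi
    have hretr : Retract (cokernel (P.complex.d (e + 1) e)) (P.complex.X e) :=
      ⟨spl.s, (syzSC P e).g, spl.s_g⟩
    rw [projective_iff_hasProjectiveDimensionLT_one]
    exact hretr.hasProjectiveDimensionLT 1

end Vale.Agent.Lib.P176
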