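import Mathlib
import Vale.Agent.Lib.P176.RickDefs
import Vale.Agent.Lib.P176.RickDecomp

/-!
Exactness of `Hom(E, -)` for all finitely generated injective `E` gives exactness of `Hom(I, -)`
for all injective `I`, over a finite-dimensional algebra.
-/

universe u

namespace Vale.Agent.Lib.P176

theorem vanAt_of_fg (k : Type u) [Field k] {A : Type u} [Ring A] [Algebra k A]
    [Module.Finite k A] {X Y Z : Type u} [AddCommGroup X] [Module A X] [AddCommGroup Y]
    [Module A Y] [AddCommGroup Z] [Module A Z] (f : X →ₗ[A] Y) (g : Y →ₗ[A] Z)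
    (h : ∀ (E : Type u) [AddCommGroup E] [Module A E], Module.Finite A E →
      Module.Injective A E → VanAt E f g)
    (I : Type u) [AddCommGroup I] [Module A I] [Module.Injective A I] : VanAt I f g := by
  classical
  intro φ hφ
  obtain ⟨J, E, hfin, hinj, hind, htop⟩ := exists_internal_decomp k (A := A) I
  have hj : ∀ j, ∃ hj : ↥(E j) →ₗ[A] X, f ∘ₗ hj = φ ∘ₗ (E j).subtype := by
    intro j
    apply h (E j) (hfin j) (hinj j)
    rw [← LinearMap.comp_assoc, hφ, LinearMap.zero_comp]
  choose hh hhf using hj
  have hint : DirectSum.IsInternal E :=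
    DirectSum.isInternal_submodule_of_iSupIndep_of_iSup_eq_top hind htop
  have key : f ∘ₗ DirectSum.toModule A J X hh = φ ∘ₗ DirectSum.coeLinearMap E := by
    apply DirectSum.linearMap_ext
    intro j
    apply LinearMap.ext
    intro x
    have h1 := LinearMap.congr_fun (hhf j) x
    simp only [LinearMap.comp_apply, Submodule.subtype_apply] at h1
    simp only [LinearMap.comp_apply, DirectSum.toModule_lof, DirectSum.coeLinearMap_lof]
    exact h1
  refine ⟨DirectSum.toModule A J X hh ∘ₗ
    (LinearEquiv.ofBijective (DirectSum.coeLinearMap E) hint).symm.toLinearMap, ?_⟩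
  rw [← LinearMap.comp_assoc, key]
  apply LinearMap.ext
  intro x
  simp only [LinearMap.comp_apply, LinearEquiv.coe_coe]
  congr 1
  exact (LinearEquiv.ofBijective (DirectSum.coeLinearMap E) hint).apply_symm_apply x

end Vale.Agent.Lib.P176
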