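import Mathlib
import Vale.Agent.Lib.P176.RickNat
import Vale.Agent.Lib.P176.RickVanT
import Vale.Agent.Lib.P176.RickNuInj
import Vale.Agent.Lib.P176.RickNuVan
import Vale.Agent.Lib.P176.RickNuSplit
import Vale.Agent.Lib.P176.RickRes
import Vale.Agent.Lib.P176.RickConeSq
import Vale.Agent.Lib.P176.RickConeEx
import Vale.Agent.Lib.P176.RickConeVan

/-!
If the injective modules generate the unbounded derived category of a finite-dimensional algebra
as a localizing subcategory, then the projective dimensions of the modules of finite projective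
dimension are bounded.
-/

universe w u

namespace Vale.Agent.Lib.P176

open CategoryTheory Limits

theorem findim_of_injectives_generate (k : Type u) [Field k] (A : Type u) [Ring A] [Algebra k A]
    [Module.Finite k A] [HasDerivedCategory.{w} (ModuleCat.{u} A)]
    (hgen : ∀ S : ObjectProperty (DerivedCategory (ModuleCat.{u} A)), S.IsTriangulated →
      S.IsClosedUnderIsomorphisms →
      (∀ J : Type u, S.IsClosedUnderColimitsOfShape (Discrete J)) →
      (∀ I : ModuleCat.{u} A, Injective I →
        S ((DerivedCategory.singleFunctor (ModuleCat.{u} A) 0).obj I)) → ∀ X, S X) :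
    ∃ n : ℕ, ∀ (M : ModuleCat.{u} A) (d : ℕ),
      HasProjectiveDimensionLE M d → HasProjectiveDimensionLE M n := by
  classical
  by_contra hcon
  push Not at hcon
  choose M d hMd hMn using hcon
  have hNoeth : IsNoetherianRing A := isNoetherian_of_tower k (inferInstance : IsNoetherian k A)
  choose R δ hproj h0 hsq hex hns using
    fun i => exists_resolution_data (M i) i (d i) (hMd i) (hMn i)
  have hprojI : ∀ i s, Module.Projective A (R i s) := hproj
  let Q : ℕ → ℕ → Type u := fun i s => Nu k A (R i s)
  let dQ : ∀ i s, Q i s →ₗ[A] Q i (s + 1) := fun i s => nuMap k (δ i s).hom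
  have hsqQ : ∀ i s, dQ i (s + 1) ∘ₗ dQ i s = 0 := by
    intro i s
    show nuMap k (δ i (s + 1)).hom ∘ₗ nuMap k (δ i s).hom = 0
    rw [← nuMap_comp, ← ModuleCat.hom_comp, hsq i s, ModuleCat.hom_zero, nuMap_zero]
  have hinjQ : ∀ i s, Module.Injective A (Q i s) := fun i s => nu_injective k (R i s)
  have hQ0 : ∀ i, Subsingleton (Q i 0) := by
    intro i
    have hs := h0 i
    constructor
    intro x y
    apply RDual.ext'
    intro ξ
    have hξ : ξ = 0 := by
      apply LinearMap.ext
      intro p
      rw [Subsingleton.elim p 0, map_zero, map_zero]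
    rw [hξ, map_zero, map_zero]
  have hx : ∀ i, ∃ x : Q i 1, x ≠ 0 ∧ dQ i 1 x = 0 :=
    fun i => nuMap_not_injective k (δ i 1).hom (hns i)
  have hvanE : ∀ (E : Type u) [AddCommGroup E] [Module A E], Module.Finite A E →
      Module.Injective A E → ∀ s, VanAt E (coneD dQ s) (coneD dQ (s + 1)) := by
    intro E _ _ hfin hinj s
    apply cone_vanAt dQ E
    intro s'
    exact ⟨s', fun i hi => vanAt_nu k (δ i s').hom (δ i (s' + 1)).hom (hex i s' hi) E⟩
  have hvanI : ∀ (I : Type u) [AddCommGroup I] [Module A I], Module.Injective A I →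
      ∀ s, VanAt I (coneD dQ s) (coneD dQ (s + 1)) := by
    intro I _ _ hinj s
    exact vanAt_of_fg k (coneD dQ s) (coneD dQ (s + 1))
      (fun E _ _ hf hi => hvanE E hf hi s) I
  let K : CochainComplex (ModuleCat.{u} A) ℕ :=
    CochainComplex.of (fun s => ModuleCat.of A (ConeX Q s))
      (fun s => ModuleCat.ofHom (coneD dQ s))
      (fun s => by
        rw [← ModuleCat.ofHom_comp, coneD_sq dQ hsqQ s]
        rfl)
  have hKd : ∀ s, K.d s (s + 1) = ModuleCat.ofHom (coneD dQ s) := fun s =>
    CochainComplex.of_d (fun s => ModuleCat.of A (ConeX Q s))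
      (fun s => ModuleCat.ofHom (coneD dQ s)) s
  have hKinj : ∀ n, Injective (K.X n) := fun n => by
    have := cone_injective (Q := Q) hinjQ n
    exact Module.injective_object_of_injective_module A (ConeX Q n)
  refine not_generate_nat K ?_ ?_ 1 ?_ hgen
  · intro I hI φ hφ
    rw [hKd 0] at hφ
    have h1 : coneD dQ 0 ∘ₗ φ.hom = 0 := by
      have h2 := congrArg ModuleCat.Hom.hom hφ
      exact h2
    have h3 := cone_vanAt_zero dQ hQ0 I φ.hom h1
    apply ModuleCat.hom_ext
    exact h3
  · intro I hI s φ hφ
    have : Injective (ModuleCat.of A I) := hI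
    have : Module.Injective A I := Module.injective_module_of_injective_object A I
    rw [hKd (s + 1)] at hφ
    have h1 : coneD dQ (s + 1) ∘ₗ φ.hom = 0 := congrArg ModuleCat.Hom.hom hφ
    obtain ⟨h, hh⟩ := hvanI I inferInstance s φ.hom h1
    refine ⟨ModuleCat.ofHom h, ?_⟩
    rw [hKd s]
    apply ModuleCat.hom_ext
    exact hh
  · intro hex1
    rw [HomologicalComplex.exactAt_iff' K 0 1 2 (by simp) (by simp)] at hex1
    rw [ShortComplex.ShortExact.moduleCat_exact_iff_function_exact] at hex1
    apply cone_not_exact dQ hQ0 hx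
    have e1 : (K.sc' 0 1 2).f = ModuleCat.ofHom (coneD dQ 0) := hKd 0
    have e2 : (K.sc' 0 1 2).g = ModuleCat.ofHom (coneD dQ 1) := hKd 1
    rw [e1, e2] at hex1
    exact hex1

end Vale.Agent.Lib.P176
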