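import Mathlib
import Vale.Agent.Lib.P176.ITBasic
import Vale.Agent.Lib.P176.ITSyz
import Vale.Agent.Lib.P176.ITStd
import Vale.Agent.Lib.P176.ITMain

/-!
Igusa-Todorov algebras: if some fixed higher syzygy of every finitely generated module is the
cokernel of a monomorphism between finite direct sums of copies of finitely many fixed modules,
the finitistic dimension is finite.
-/

universe u

namespace Vale.Agent.Lib.P176

open CategoryTheory Abelian

/-- Finite projective dimension goes up a chain of syzygies. -/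
theorem weiit_up {R : Type u} [Ring R] (n : ℕ) (Z : ℕ → ModuleCat.{u} R)
    (hchain : ∀ i : ℕ, i < n → ∃ (P : ModuleCat.{u} R) (f : Z (i + 1) ⟶ P) (g : P ⟶ Z i)
      (w : f ≫ g = 0), Projective P ∧ (ShortComplex.mk f g w).ShortExact)
    (r : ℕ) (hr : 1 ≤ r) (h0 : HasProjectiveDimensionLT (Z 0) r) :
    ∀ i : ℕ, i ≤ n → HasProjectiveDimensionLT (Z i) r := by
  intro i
  induction i with
  | zero => exact fun _ => h0
  | succ i ih =>
    intro hi
    obtain ⟨P, f, g, w, hP, hS⟩ := hchain i (by omega)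
    have hZi : HasProjectiveDimensionLT (Z i) r := ih (by omega)
    have h3 : HasProjectiveDimensionLT (Z i) (r + 1) :=
      hasProjectiveDimensionLT_of_ge (Z i) r (r + 1) (by omega)
    have hP1 : HasProjectiveDimensionLT P 1 := projective_iff_hasProjectiveDimensionLT_one.mp hP
    have h2 : HasProjectiveDimensionLT P r := hasProjectiveDimensionLT_of_ge P 1 r hr
    exact hS.hasProjectiveDimensionLT_X₁ r h2 h3

/-- A bound on the projective dimension comes back down a chain of syzygies. -/
theorem weiit_down {R : Type u} [Ring R] (n : ℕ) (Z : ℕ → ModuleCat.{u} R)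
    (hchain : ∀ i : ℕ, i < n → ∃ (P : ModuleCat.{u} R) (f : Z (i + 1) ⟶ P) (g : P ⟶ Z i)
      (w : f ≫ g = 0), Projective P ∧ (ShortComplex.mk f g w).ShortExact)
    (r : ℕ) (hr : 1 ≤ r) (hn : HasProjectiveDimensionLT (Z n) r) :
    ∀ i k : ℕ, k + i = n → HasProjectiveDimensionLT (Z k) (r + i) := by
  intro i
  induction i with
  | zero =>
    intro k hk
    have e : k = n := by omega
    subst e
    exact hn
  | succ i ih =>
    intro k hk
    obtain ⟨P, f, g, w, hP, hS⟩ := hchain k (by omega)
    have h1 : HasProjectiveDimensionLT (Z (k + 1)) (r + i) := ih (k + 1) (by omega)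
    have hP1 : HasProjectiveDimensionLT P 1 := projective_iff_hasProjectiveDimensionLT_one.mp hP
    have h2 : HasProjectiveDimensionLT P (r + i + 1) :=
      hasProjectiveDimensionLT_of_ge P 1 (r + i + 1) (by omega)
    exact hS.hasProjectiveDimensionLT_X₃ (r + i) h1 h2

theorem wei_it (R : Type u) [Ring R] [IsArtinianRing R] (n s : ℕ)
    (U : Fin s → ModuleCat.{u} R) (hU : ∀ j, Module.Finite R (U j))
    (h : ∀ M : ModuleCat.{u} R, Module.Finite R M →
      ∃ Z : ℕ → ModuleCat.{u} R, Nonempty (Z 0 ≅ M) ∧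
        (∀ i : ℕ, i < n → ∃ (P : ModuleCat.{u} R) (f : Z (i + 1) ⟶ P) (g : P ⟶ Z i)
          (w : f ≫ g = 0), Projective P ∧ (ShortComplex.mk f g w).ShortExact) ∧
        ∃ (v₁ v₀ : Fin s → ℕ)
          (f : ModuleCat.of R (∀ j, Fin (v₁ j) → U j) ⟶ ModuleCat.of R (∀ j, Fin (v₀ j) → U j))
          (g : ModuleCat.of R (∀ j, Fin (v₀ j) → U j) ⟶ Z n) (w : f ≫ g = 0),
          (ShortComplex.mk f g w).ShortExact) :
    ∃ N : ℕ, ∀ M : ModuleCat.{u} R, Module.Finite R M →
      (∃ d : ℕ, HasProjectiveDimensionLT M d) → HasProjectiveDimensionLT M N := by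
  obtain ⟨c, hc⟩ := it_main U hU
  refine ⟨max c 1 + n, ?_⟩
  intro M hM ⟨d, hd⟩
  obtain ⟨Z, ⟨e0⟩, hchain, v₁, v₀, f, g, w, hS⟩ := h M hM
  -- finite projective dimension at the start of the chain
  have hZ0d : HasProjectiveDimensionLT (Z 0) d := hasProjectiveDimensionLT_of_iso e0.symm d
  have hZ0 : HasProjectiveDimensionLT (Z 0) (max d 1) :=
    hasProjectiveDimensionLT_of_ge (Z 0) d (max d 1) (le_max_left _ _)
  have hup := weiit_up n Z hchain (max d 1) (le_max_right _ _) hZ0 n le_rfl
  -- the Igusa-Todorov bound at the end of the chain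
  have hZn : HasProjectiveDimensionLT (Z n) c := by
    let S : SES R (Std U v₁) (Std U v₀) (Z n) :=
      { f := f.hom
        g := g.hom
        inj := (ModuleCat.mono_iff_injective f).1 hS.mono_f
        surj := (ModuleCat.epi_iff_surjective g).1 hS.epi_g
        exact := (ShortComplex.ShortExact.moduleCat_exact_iff_function_exact _).1 hS.exact }
    exact hc _ _ _ S v₁ v₀ StIso.refl StIso.refl ⟨max d 1, hup⟩
  have hZn' : HasProjectiveDimensionLT (Z n) (max c 1) :=
    hasProjectiveDimensionLT_of_ge (Z n) c (max c 1) (le_max_left _ _)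
  -- back down the chain
  have hdown := weiit_down n Z hchain (max c 1) (le_max_right _ _) hZn' n 0 (by omega)
  exact hasProjectiveDimensionLT_of_iso e0 (max c 1 + n)

end Vale.Agent.Lib.P176
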