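import Mathlib
import Vale.Agent.Lib.P195.GPres
import Vale.Agent.Lib.P176.ITBasic
import Vale.Agent.Lib.P176.ITSyz
import Vale.Agent.Lib.P176.ITStd
import Vale.Agent.Lib.P176.ITMain

/-!
Two left ideals `I`, `K` with `I * K * rad = 0` such that the modules killed by `I` and the
modules killed by `K` are of finite representation type: the finitistic dimension is finite.
-/

universe u

namespace Vale.Agent.Lib.P176

open CategoryTheory Abelian

/-- If `I * K * rad = 0`, then `I * K` kills the radical of every module. -/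
theorem xiideals_kill_rad {R : Type u} [Ring R] (I K : Ideal R)
    (hIK : ∀ a ∈ I, ∀ b ∈ K, ∀ c ∈ Ring.jacobson R, a * b * c = 0)
    {P : Type u} [AddCommGroup P] [Module R P] {a b : R} (ha : a ∈ I) (hb : b ∈ K) {q : P}
    (hq : q ∈ Vale.Agent.Lib.P195.radSub R P) : a • b • q = 0 := by
  refine Submodule.smul_induction_on hq ?_ ?_
  · intro c hc q' _
    rw [smul_smul, smul_smul, hIK a ha b hb c hc, zero_smul]
  · intro y z hy hz
    rw [smul_add, smul_add, hy, hz, add_zero]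

/-- If `I * K * rad = 0` and `Y` lies in the radical of `P`, then `I` kills `K Y`. -/
theorem xiideals_kill_sub {R : Type u} [Ring R] (I K : Ideal R)
    (hIK : ∀ a ∈ I, ∀ b ∈ K, ∀ c ∈ Ring.jacobson R, a * b * c = 0)
    {P : Type u} [AddCommGroup P] [Module R P] (Y : Submodule R P)
    (hY : Y ≤ Vale.Agent.Lib.P195.radSub R P) :
    ∀ a ∈ I, ∀ x : ↥(K • (⊤ : Submodule R Y)), a • x = 0 := by
  intro a ha x
  have h1 : ∀ y : Y, y ∈ K • (⊤ : Submodule R Y) → a • y = 0 := by
    intro y hy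
    refine Submodule.smul_induction_on hy ?_ ?_
    · intro b hb y' _
      apply Subtype.ext
      rw [Submodule.coe_smul, Submodule.coe_smul, Submodule.coe_zero]
      exact xiideals_kill_rad I K hIK ha hb (hY y'.2)
    · intro y z hy hz
      rw [smul_add, hy, hz, add_zero]
  apply Subtype.ext
  rw [Submodule.coe_smul, Submodule.coe_zero]
  exact h1 x.1 x.2

/-- `K` kills `Y / K Y`. -/
theorem xiideals_kill_quot {R : Type u} [Ring R] (K : Ideal R)
    {Y : Type u} [AddCommGroup Y] [Module R Y] :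
    ∀ b ∈ K, ∀ x : Y ⧸ (K • (⊤ : Submodule R Y)), b • x = 0 := by
  intro b hb x
  obtain ⟨y, rfl⟩ := Submodule.Quotient.mk_surjective _ x
  rw [← Submodule.Quotient.mk_smul, Submodule.Quotient.mk_eq_zero]
  exact Submodule.smul_mem_smul hb Submodule.mem_top

theorem xi_ideals (R : Type u) [Ring R] [IsArtinianRing R] (I K : Ideal R)
    (hIK : ∀ a ∈ I, ∀ b ∈ K, ∀ c ∈ Ring.jacobson R, a * b * c = 0)
    {s t : ℕ} (U : Fin s → ModuleCat.{u} R) (V : Fin t → ModuleCat.{u} R)
    (hU : ∀ j, Module.Finite R (U j)) (hV : ∀ j, Module.Finite R (V j))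
    (hI : ∀ (X : Type u) [AddCommGroup X] [Module R X], Module.Finite R X →
      (∀ a ∈ I, ∀ x : X, a • x = 0) →
        ∃ v : Fin s → ℕ, Nonempty (X ≃ₗ[R] (∀ j, Fin (v j) → U j)))
    (hK : ∀ (X : Type u) [AddCommGroup X] [Module R X], Module.Finite R X →
      (∀ b ∈ K, ∀ x : X, b • x = 0) →
        ∃ w : Fin t → ℕ, Nonempty (X ≃ₗ[R] (∀ j, Fin (w j) → V j))) :
    ∃ N : ℕ, ∀ M : ModuleCat.{u} R, Module.Finite R M →
      (∃ n : ℕ, HasProjectiveDimensionLT M n) → HasProjectiveDimensionLT M N := by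
  have hUV : ∀ x : Fin s ⊕ Fin t,
      Module.Finite R ((Sum.elim U V x : ModuleCat.{u} R) : Type u) := by
    rintro (j | j)
    · exact hU j
    · exact hV j
  obtain ⟨c, hc⟩ := it_mid (Sum.elim U V) hUV
  refine ⟨c + 1, ?_⟩
  intro M hMfin ⟨n, hn⟩
  have hn' : PdLT R M n := hn
  obtain ⟨p⟩ := Vale.Agent.Lib.P195.exists_projPres (R := R) (N := M)
  have hPnoeth : IsNoetherian R p.P := isNoetherian_of_isNoetherianRing_of_finite R p.P
  have hYnoeth : IsNoetherian R (LinearMap.ker p.π) := isNoetherian_submodule' _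
  have hPproj : ∀ m, 1 ≤ m → PdLT R p.P m := fun m hm => pdLT_of_projective hm
  have hY : PdLT R (LinearMap.ker p.π) (max n 1) :=
    (SES.ofSurj p.π p.surj).pdLT_left (hPproj _ (le_max_right _ _))
      (hn'.mono (by omega))
  have hkI := xiideals_kill_sub I K hIK (LinearMap.ker p.π) p.min
  have hkK := xiideals_kill_quot K (Y := LinearMap.ker p.π)
  have hfin1 : Module.Finite R ↥(K • (⊤ : Submodule R (LinearMap.ker p.π))) :=
    Module.IsNoetherian.finite R _
  have hfin2 : Module.Finite R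
      (↥(LinearMap.ker p.π) ⧸ (K • (⊤ : Submodule R (LinearMap.ker p.π)))) :=
    inferInstance
  obtain ⟨v, ⟨e₁⟩⟩ := hI _ hfin1 hkI
  obtain ⟨w, ⟨e₂⟩⟩ := hK _ hfin2 hkK
  have st1 : StIso R ↥(K • (⊤ : Submodule R (LinearMap.ker p.π)))
      (Std (Sum.elim U V) (Sum.elim v 0)) :=
    StIso.of_equiv (e₁.trans (stdInlEquiv U V v).symm)
  have st2 : StIso R (↥(LinearMap.ker p.π) ⧸ (K • (⊤ : Submodule R (LinearMap.ker p.π))))
      (Std (Sum.elim U V) (Sum.elim 0 w)) :=
    StIso.of_equiv (e₂.trans (stdInrEquiv U V w).symm)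
  have hYc : PdLT R (LinearMap.ker p.π) c :=
    hc _ _ _ (SES.ofSub (K • (⊤ : Submodule R (LinearMap.ker p.π)))) _ _ st1 st2 ⟨_, hY⟩
  have hM : PdLT R M (c + 1) :=
    (SES.ofSurj p.π p.surj).pdLT_right hYc (hPproj _ (by omega))
  exact hM

end Vale.Agent.Lib.P176
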